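import Crest.Agent.R166.B1.Ex

/-! Row 166, block B1 (owner helper79): positions and sites; first and second moments over the colours. -/

set_option autoImplicit false
set_option linter.unusedSectionVars false

open MeasureTheory ProbabilityTheory Filter Topology Complex
open scoped ENNReal NNReal BigOperators Matrix

noncomputable section

namespace Crest.Agent.R166

variable {q r R : ℕ} {V : Type} [Fintype V] [DecidableEq V] {C : Type} [Fintype C]

/-! ### part a -/

theorem b1e_inj : Function.Injective (b1e : b1PE q r R → b1PS q r R) := by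
  rintro ((⟨_ | ⟨j, l⟩, hl⟩ | a) | p) ((⟨_ | ⟨j', l'⟩, hl'⟩ | a') | p') h <;>
    simp_all [b1e, b1own, Fin.succ_ne_zero, (Fin.succ_ne_zero _).symm]

theorem b1kS_e (p : b1PE q r R) : b1kS (b1e p) = b1kE p := by
  rcases p with (⟨_ | ⟨j, l⟩, hl⟩ | a) | p <;> rfl

theorem b1st_e (σ : Pairing V q) (h : HE V q) (p : b1PE q r R) : b1st σ h (b1e p) = b1ed σ h p := by
  rcases p with (⟨_ | ⟨j, l⟩, hl⟩ | a) | p
  any_goals rfl
  simp [b1e, b1st, b1ed, rot]

theorem b1valS_e (x : SState q r) (p : b1PE q r R) : b1valS R x (b1e p) = b1valE R (edgeOf 0 x) p := by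
  rcases p with (⟨_ | ⟨j, l⟩, hl⟩ | a) | l | a
  any_goals rfl
  simp [b1e, b1own, b1valS, b1valE, edgeOf, nearV, cons]

theorem b1valS_loc (c : Cfg V q) (X : Fin r → V → ℝ) (h : HE V q) (p : b1PS q r R) :
    b1valS R (b1loc c X h) p = b1val c.2 X (b1st c.1 h p) := by
  rcases p with (_ | a) | ⟨k, l | a⟩ <;> rfl

theorem b1st_inj {σ : Pairing V q} {h : HE V q} (ht : TreeLike σ R h) :
    Function.Injective (b1st σ h : b1PS q r R → V × Option (Fin r)) := by
  rintro (o | ⟨k, l | a⟩) (o' | ⟨k', l' | a'⟩) e <;> simp only [b1st, b1ty, Prod.mk.injEq] at e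
  · rw [e.2]
  · exact (ht.1 k' l'.1 l'.2 e.1.symm).elim
  · exact (ht.1 k' [] (Nat.zero_le _) e.1.symm).elim
  · exact (ht.1 k l.1 l.2 e.1).elim
  · obtain ⟨rfl, e2⟩ := ht.2 k k' l.1 l'.1 l.2 l'.2 e.1
    rw [Subtype.ext e2]
  · exact absurd e.2 (by simp)
  · exact (ht.1 k [] (Nat.zero_le _) e.1).elim
  · exact absurd e.2 (by simp)
  · obtain ⟨rfl, -⟩ := ht.2 k k' [] [] (Nat.zero_le _) (Nat.zero_le _) e.1
    rw [Option.some.inj e.2]

/-- `h ↦ walk σ h l`, `h ↦ rot h k` and `σ` are bijections -/
theorem b1st_equiv (σ : Pairing V q) (p : b1PS q r R) :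
    ∃ β : HE V q ≃ HE V q, ∀ h, b1st σ h p = ((β h).1, b1kS p) := by
  have hw : ∀ l : List (Fin q), ∃ β : HE V q ≃ HE V q, ∀ h, walk σ h l = β h := fun l => by
    induction l with
    | nil => exact ⟨Equiv.refl _, fun _ => rfl⟩
    | cons j l ih =>
      obtain ⟨β, hβ⟩ := ih
      exact ⟨(((Equiv.refl V).prodCongr (Equiv.addRight j.succ)).trans σ.1).trans β, fun h => hβ _⟩
  rcases p with o | ⟨k, l | a⟩
  · exact ⟨Equiv.refl _, fun _ => rfl⟩
  · obtain ⟨β, hβ⟩ := hw l.1
    exact ⟨(((Equiv.refl V).prodCongr (Equiv.addRight k)).trans σ.1).trans β, fun h =>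
      congrArg (fun x : HE V q => (x.1, (none : Option (Fin r)))) (hβ (σ (rot h k)))⟩
  · exact ⟨((Equiv.refl V).prodCongr (Equiv.addRight k)).trans σ.1, fun h => rfl⟩

theorem b1valS_continuous : Continuous (b1valS R : SState q r → b1PS q r R → ℝ) := by
  refine continuous_pi fun p => ?_
  rcases p with (_ | a) | ⟨k, l | a⟩ <;> simp only [b1valS] <;> fun_prop

theorem b1valE_continuous : Continuous (b1valE R : EState q r → b1PE q r R → ℝ) := by
  refine continuous_pi fun p => ?_
  rcases p with (l | a) | l | a <;> simp only [b1valE] <;> fun_prop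

theorem b1val_continuous : Continuous fun x : (V → II) × (Fin r → V → ℝ) => b1val x.1 x.2 := by
  refine continuous_pi fun p => ?_
  rcases p with ⟨v, _ | a⟩ <;> simp only [b1val] <;> fun_prop

theorem b1build_continuous : Continuous (b1build : (b1PS q r R → ℝ) → SState q r) := by
  refine Continuous.prodMk (Continuous.prodMk (continuous_projIcc.comp (continuous_apply _))
    (continuous_pi fun k => continuous_pi fun l => ?_)) (continuous_pi fun a => continuous_pi fun o => ?_)
  · split_ifs
    · exact continuous_projIcc.comp (continuous_apply _)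
    · exact continuous_const
  · cases o <;> exact continuous_apply _

theorem b1build_tendsto (x : SState q r) : Tendsto (fun R => b1build (b1valS R x)) atTop (𝓝 x) := by
  refine Tendsto.prodMk_nhds (Tendsto.prodMk_nhds ?_ (tendsto_pi_nhds.2 fun k => tendsto_pi_nhds.2 fun l => ?_))
    (tendsto_pi_nhds.2 fun a => tendsto_pi_nhds.2 fun o => ?_)
  · simp only [b1valS, Set.projIcc_val]
    exact tendsto_const_nhds
  · refine tendsto_const_nhds.congr' ((eventually_ge_atTop l.length).mono fun R hR => ?_)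
    simp only [b1valS, dif_pos hR, Set.projIcc_val]
  · cases o <;> exact tendsto_const_nhds

theorem b1_edgeOf_continuous (i : Fin (q + 1)) : Continuous (edgeOf i : SState q r → EState q r) := by
  refine Continuous.prodMk (Continuous.prodMk (continuous_pi fun l => ?_) (by fun_prop)) (by fun_prop)
  cases l <;> simp only [nearV, cons] <;> fun_prop

theorem b1ind_nonneg (t : b1PE q r R → C) (s : b1PS q r R → C) : 0 ≤ b1ind t s := by
  unfold b1ind; split_ifs <;> norm_num

theorem b1ind_le_one (t : b1PE q r R → C) (s : b1PS q r R → C) : b1ind t s ≤ 1 := by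
  unfold b1ind; split_ifs <;> norm_num

theorem b1ind_sum (g : (b1PE q r R → C) → ℝ) (s : b1PS q r R → C) :
    ∑ t, g t * b1ind t s = g fun p => s (b1e p) := by
  simp [b1ind]

/-! ### part b -/

/-- `b1Ex_avg`, `b1Ex_comp` on tree-like half-edges, `b1_avg_close` -/
theorem b1_first {w : V × Option (Fin r) → C → ℝ} (hw : b1Pw w) (σ : Pairing V q) {F : (b1PS q r R → C) → ℝ} {B : ℝ}
    (hF : ∀ s, |F s| ≤ B) :
    |b1Ex w (fun col => avg fun h : HE V q => F fun p => col (b1st σ h p)) -
      avg fun h : HE V q => b1Ex (fun p => w (b1st σ h p)) F| ≤ 2 * B * b1th σ R := by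
  rw [b1Ex_avg]
  refine (b1_avg_close (p := fun h : HE V q => ¬ TreeLike σ R h) (B := 2 * B) le_rfl (fun h ht => ?_)
    fun h => ?_).trans_eq (zero_add _)
  · rw [b1Ex_comp hw (b1st_inj (not_not.1 ht)), sub_self, abs_zero]
  · have h1 := b1Ex_abs_le hw (F := fun col => F fun p => col (b1st σ h p)) fun _ => hF _
    have h2 := b1Ex_abs_le (hw.comp (b1st σ h)) hF
    exact (abs_sub _ _).trans (by linarith)

/-- for fixed `p, p'` at most `q + 1` half-edges `h'` have `b1st σ h' p' = b1st σ h p` (`b1st_equiv`) -/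
theorem b1_meet (σ : Pairing V q) (h : HE V q) :
    (frac fun h' : HE V q => ∃ p p' : b1PS q r R, b1st σ h p = b1st σ h' p') ≤
      (Fintype.card (b1PS q r R) : ℝ) ^ 2 / Fintype.card V := by
  classical
  have h1 : ∀ x : b1PS q r R × b1PS q r R, (avg fun h' : HE V q =>
      if b1st σ h x.1 = b1st σ h' x.2 then (1 : ℝ) else 0) ≤ 1 / Fintype.card V := by
    intro x
    obtain ⟨β, hβ⟩ := b1st_equiv σ x.2
    refine (b1_avg_mono (g := fun h' => if (b1st σ h x.1).1 = (β h').1 then (1 : ℝ) else 0) fun h' => ?_).trans_eq ?_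
    · by_cases e : b1st σ h x.1 = b1st σ h' x.2
      · rw [if_pos e, if_pos (by rw [e, hβ])]
      · rw [if_neg e]; split_ifs <;> norm_num
    · rw [b1_avg_equiv β fun h' => if (b1st σ h x.1).1 = h'.1 then (1 : ℝ) else 0,
        b1_avg_fst fun v => if (b1st σ h x.1).1 = v then (1 : ℝ) else 0]
      simp [avg]
  refine (b1_avg_mono (g := fun h' => ∑ x : b1PS q r R × b1PS q r R,
    if b1st σ h x.1 = b1st σ h' x.2 then (1 : ℝ) else 0) fun h' => ?_).trans ?_
  · have h0 : ∀ x : b1PS q r R × b1PS q r R, (0 : ℝ) ≤ if b1st σ h x.1 = b1st σ h' x.2 then 1 else 0 :=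
      fun x => by split_ifs <;> norm_num
    split_ifs with e
    · obtain ⟨p, p', e⟩ := e
      exact le_trans (by rw [if_pos e]) (Finset.single_le_sum (fun x _ => h0 x) (Finset.mem_univ (p, p')))
    · exact Finset.sum_nonneg fun x _ => h0 x
  · rw [b1_avg_sum]
    refine (Finset.sum_le_sum fun x _ => h1 x).trans_eq ?_
    simp only [Finset.sum_const, Finset.card_univ, Fintype.card_prod, nsmul_eq_mul, Nat.cast_mul]
    ring

/-- expand the square; `b1Ex_two` if `h`, `h'` are tree-like and do not meet, the bound `1` otherwise -/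
theorem b1_second {w : V × Option (Fin r) → C → ℝ} (hw : b1Pw w) (σ : Pairing V q) {F : (b1PS q r R → C) → ℝ}
    (hF0 : ∀ s, 0 ≤ F s) (hF1 : ∀ s, F s ≤ 1) :
    b1Ex w (fun col => (avg fun h : HE V q => F fun p => col (b1st σ h p)) ^ 2) ≤
      (avg fun h : HE V q => b1Ex (fun p => w (b1st σ h p)) F) ^ 2 + 2 * b1th σ R +
        (Fintype.card (b1PS q r R) : ℝ) ^ 2 / Fintype.card V := by
  classical
  set m : HE V q → ℝ := fun h => b1Ex (fun p => w (b1st σ h p)) F with hm
  set T : HE V q → ℝ := fun h => if ¬ TreeLike σ R h then 1 else 0 with hT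
  set N : ℝ := (Fintype.card (b1PS q r R) : ℝ) ^ 2 / Fintype.card V with hN
  have hT0 : ∀ h, 0 ≤ T h := fun h => by simp only [hT]; split_ifs <;> norm_num
  have hth : avg T = b1th σ R := by
    unfold b1th frac
    exact congrArg avg (funext fun h => by simp only [hT]; congr)
  have hm0 : ∀ h, 0 ≤ m h := fun h => b1Ex_nonneg (hw.comp _) hF0
  have e : (fun col : V × Option (Fin r) → C => (avg fun h : HE V q => F fun p => col (b1st σ h p)) ^ 2) =
      fun col => avg fun h : HE V q => avg fun h' : HE V q =>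
        F (fun p => col (b1st σ h p)) * F fun p => col (b1st σ h' p) := by
    funext col
    simp only [b1_avg_mul]
    simp only [mul_comm _ (avg _), b1_avg_mul, sq]
  rw [e, b1Ex_avg]
  have key : ∀ h : HE V q, b1Ex w (fun col => avg fun h' : HE V q =>
      F (fun p => col (b1st σ h p)) * F fun p => col (b1st σ h' p)) ≤ avg m * m h + T h + (avg T + N) := by
    intro h
    rw [b1Ex_avg]
    refine (b1_avg_mono (g := fun h' => m h * m h' + T h + (T h' +
      if ∃ p p' : b1PS q r R, b1st σ h p = b1st σ h' p' then 1 else 0)) fun h' => ?_).trans ?_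
    · have h1 : b1Ex w (fun col => F (fun p => col (b1st σ h p)) * F fun p => col (b1st σ h' p)) ≤ 1 :=
        (b1Ex_mono hw fun col => mul_le_one₀ (hF1 _) (hF0 _) (hF1 _)).trans_eq (b1Ex_const hw 1)
      have h2 := mul_nonneg (hm0 h) (hm0 h')
      have h3 := hT0 h
      have h4 := hT0 h'
      split_ifs with h5
      · linarith
      by_cases h6 : TreeLike σ R h
      · by_cases h7 : TreeLike σ R h'
        · rw [b1Ex_two hw (b1st_inj h6) (b1st_inj h7) fun p p' e => h5 ⟨p, p', e⟩]
          linarith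
        · have : T h' = 1 := if_pos h7
          linarith
      · have : T h = 1 := if_pos h6
        linarith
    · rw [b1_avg_add, b1_avg_add, b1_avg_add, b1_avg_mul, mul_comm]
      refine add_le_add (add_le_add le_rfl (b1_avg_le (hT0 h) fun _ => le_rfl)) (add_le_add le_rfl ?_)
      exact le_of_eq_of_le (congrArg avg (funext fun h' => by congr)) (b1_meet σ h)
  refine (b1_avg_mono key).trans ?_
  rw [b1_avg_add, b1_avg_add, b1_avg_mul]
  have h1 : (avg fun _ : HE V q => avg T + N) ≤ avg T + N :=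
    b1_avg_le (add_nonneg (b1_avg_nonneg hT0) (by positivity)) fun _ => le_rfl
  rw [← hth, sq]
  linarith

end Crest.Agent.R166
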