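import Crest.Agent.R166.B1.Match
import Crest.Agent.R166.B1.Pos

/-! Row 166, block B1 (owner helper79): the first moment of the likelihood ratio of the planted model. -/

set_option autoImplicit false
set_option linter.unusedSectionVars false

open MeasureTheory ProbabilityTheory Filter Topology Complex
open scoped ENNReal NNReal BigOperators Matrix

noncomputable section

namespace Crest.Agent.R166

variable {q r R : ℕ} {V : Type} [Fintype V] [DecidableEq V] {C : Type} [Fintype C]
  {ρ : Option (Fin r) → C → ℝ}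

/-- data at a vertex: own colours and declared types of the neighbours -/
abbrev b1D (q r R : ℕ) (C : Type) : Type := (Option (Fin r) → C) × (Fin (q + 1) → b1PT q r R → C)

/-- the star colours seen from the base half-edge `i` -/
def b1sc (D : b1D q r R C) (i : Fin (q + 1)) : b1PS q r R → C
  | .inl o => D.1 o
  | .inr (k, p) => D.2 (i + k) p

/-- the data defined by a pairing and a colouring -/
def b1dat (σ : Pairing V q) (col : V × Option (Fin r) → C) (v : V) : b1D q r R C :=
  (fun o => col (v, o), fun i p => col (b1ty σ (σ (v, i)) p))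

/-- the weight of the data at a vertex -/
def b1W (ρ : Option (Fin r) → C → ℝ) (φ : (b1PS q r R → C) → ℝ) (D : b1D q r R C) : ℝ :=
  (∏ o, ρ o (D.1 o)) * (∏ i, ∏ p, ρ (b1kT p) (D.2 i p)) * Real.exp (avg fun i => φ (b1sc D i)) / b1Z ρ φ

theorem b1Z_pos (hρ : b1Pw ρ) (φ : (b1PS q r R → C) → ℝ) : 0 < b1Z ρ φ := b1Ex_exp_pos (hρ.comp _) φ

theorem b1sc_dat (σ : Pairing V q) (col : V × Option (Fin r) → C) (h : HE V q) :
    b1sc (b1dat (R := R) σ col h.1) h.2 = fun p => col (b1st σ h p) := by
  funext p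
  rcases p with o | ⟨k, p⟩ <;> rfl

theorem b1_exp_avg {ι : Type} [Fintype ι] [Nonempty ι] (f : ι → ℝ) :
    Real.exp (avg f) ≤ avg fun i => Real.exp (f i) := by
  refine le_of_eq_of_le ?_ (b1_avg_mono (f := fun i => Real.exp (avg f) * ((f i - avg f) + 1)) fun i => ?_)
  · rw [b1_avg_mul, b1_avg_add, b1_avg_sub, b1_avg_const, b1_avg_const]; simp
  · refine (mul_le_mul_of_nonneg_left (Real.add_one_le_exp _) (Real.exp_pos _).le).trans_eq ?_
    rw [← Real.exp_add]; simp

theorem b1W_nonneg (hρ : b1Pw ρ) (φ : (b1PS q r R → C) → ℝ) (D : b1D q r R C) : 0 ≤ b1W ρ φ D :=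
  div_nonneg (mul_nonneg (mul_nonneg (Finset.prod_nonneg fun _ _ => (hρ.1 _ _).le) (Finset.prod_nonneg fun _ _ =>
    Finset.prod_nonneg fun _ _ => (hρ.1 _ _).le)) (Real.exp_pos _).le) (b1Z_pos hρ φ).le

/-- Jensen over `i`; for each `i`, `b1sc · i` is a bijection onto the star colourings which preserves the weights -/
theorem b1W_sum (hρ : b1Pw ρ) (φ : (b1PS q r R → C) → ℝ) : ∑ D : b1D q r R C, b1W ρ φ D ≤ 1 := by
  have hZ := b1Z_pos hρ φ
  set A : b1D q r R C → ℝ := fun D => (∏ o, ρ o (D.1 o)) * ∏ i, ∏ p, ρ (b1kT p) (D.2 i p) with hA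
  have hA0 : ∀ D, 0 ≤ A D := fun D => mul_nonneg (Finset.prod_nonneg fun _ _ => (hρ.1 _ _).le)
    (Finset.prod_nonneg fun _ _ => Finset.prod_nonneg fun _ _ => (hρ.1 _ _).le)
  have h1 : ∀ i, ∑ D, A D * Real.exp (φ (b1sc D i)) = b1Z ρ φ := fun i => by
    let e : b1D q r R C ≃ (b1PS q r R → C) :=
      { toFun := fun D => b1sc D i
        invFun := fun s => (fun o => s (.inl o), fun j p => s (.inr (j - i, p)))
        left_inv := fun D => by simp [b1sc]
        right_inv := fun s => by
          funext p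
          rcases p with o | ⟨k, p⟩ <;> simp [b1sc] }
    refine Fintype.sum_equiv e _ _ fun D => ?_
    congr 1
    rw [Fintype.prod_sum_type, Fintype.prod_prod_type]
    exact congrArg _ (Equiv.prod_comp (Equiv.addLeft i) fun j => ∏ p, ρ (b1kT p) (D.2 j p)).symm
  calc _ ≤ ∑ D, avg fun i => (b1Z ρ φ)⁻¹ * (A D * Real.exp (φ (b1sc D i))) := Finset.sum_le_sum fun D _ => by
        rw [b1_avg_mul, b1_avg_mul, inv_mul_eq_div]
        exact div_le_div_of_nonneg_right (mul_le_mul_of_nonneg_left (b1_exp_avg _) (hA0 D)) hZ.le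
    _ = 1 := by
        rw [← b1_avg_sum]
        simp only [← Finset.mul_sum, h1, inv_mul_cancel₀ hZ.ne', b1_avg_const]

/-- `∑ h, log ref (edge h) = 2 ∑ h, log ref (type (σ h))` -/
theorem b1W_prod (hρ : b1Pw ρ) (φ : (b1PS q r R → C) → ℝ) (σ : Pairing V q) (col : V × Option (Fin r) → C) :
    (∏ s : V × Option (Fin r), ρ s.2 (col s)) * Real.exp (b1logM ρ φ σ col) = (∏ v, b1W ρ φ (b1dat σ col v)) *
      Real.exp (-(1 / 2) * ∑ h : HE V q, Real.log (b1ph (R := R) σ col fun p => col (b1ed σ h p))) := by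
  set T : HE V q → ℝ := fun h => ∏ p : b1PT q r R, ρ (b1kT p) (col (b1ty σ h p)) with hT
  have hT0 : ∀ h, 0 < T h := fun h => Finset.prod_pos fun _ _ => hρ.1 _ _
  have e1 : 1 / 2 * ∑ h : HE V q, Real.log (∏ p : b1PE q r R, ρ (b1kE p) (col (b1ed σ h p))) =
      ∑ h : HE V q, Real.log (T (σ h)) := by
    have : ∀ h : HE V q, Real.log (∏ p : b1PE q r R, ρ (b1kE p) (col (b1ed σ h p))) =
        Real.log (T h) + Real.log (T (σ h)) := fun h => by
      rw [Fintype.prod_sum_type, ← Real.log_mul (hT0 _).ne' (hT0 _).ne']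
      rfl
    simp only [this, Finset.sum_add_distrib]
    rw [← Equiv.sum_comp σ.1 fun h => Real.log (T h)]
    ring
  have e2 : (∑ h : HE V q, φ fun p => col (b1st σ h p)) / (q + 1) =
      ∑ v, avg fun i => φ (b1sc (b1dat (R := R) σ col v) i) := by
    rw [Fintype.sum_prod_type, Finset.sum_div]
    refine Finset.sum_congr rfl fun v _ => ?_
    simp only [avg, Fintype.card_fin, Nat.cast_add, Nat.cast_one]
    congr 1
    exact Finset.sum_congr rfl fun i _ => congrArg φ (b1sc_dat σ col (v, i)).symm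
  rw [b1logM, e1, e2, Real.exp_sub, Real.exp_add, Real.exp_add, Real.exp_sum, Real.exp_sum, Real.exp_nat_mul,
    Real.exp_log (b1Z_pos hρ φ)]
  simp only [Real.exp_log (hT0 _), b1W, Finset.prod_div_distrib, Finset.prod_mul_distrib, Finset.prod_const,
    Finset.card_univ, Fintype.prod_prod_type]
  simp only [hT, b1dat]
  ring

/-- With `own D h = fun p => b1sc (D h.1) h.2 (b1own p)` and `decl D h = (D h.1).2 h.2`, the map
`(σ, col) ↦ (b1dat σ col, σ)` is injective and `σ` is compatible with the data; `b1ph` is the `frac` of `b1_compat`. -/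
theorem b1_cnt (hρ : b1Pw ρ) (φ : (b1PS q r R → C) → ℝ) :
    (avg fun σ : Pairing V q => b1Ex (fun s : V × Option (Fin r) => ρ s.2) fun col => Real.exp (b1logM ρ φ σ col)) ≤
      (Real.exp 1 * (Fintype.card (HE V q) + 1)) ^ (Fintype.card (b1PT q r R → C) ^ 2 + 1) := by
  classical
  set own : (V → b1D q r R C) → HE V q → b1PT q r R → C := fun D h p => b1sc (D h.1) h.2 (b1own p) with hown
  set decl : (V → b1D q r R C) → HE V q → b1PT q r R → C := fun D h => (D h.1).2 h.2 with hdecl
  set E : (V → b1D q r R C) → ℝ := fun D =>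
    Real.exp (-(1 / 2) * ∑ h, Real.log (frac fun h' => (own D h', decl D h') = (own D h, decl D h))) with hE
  set K := (Real.exp 1 * (Fintype.card (HE V q) + 1)) ^ (Fintype.card (b1PT q r R → C) ^ 2 + 1) with hK
  have hK0 : 0 ≤ K := by positivity
  have hW : ∀ D : V → b1D q r R C, 0 ≤ ∏ v, b1W ρ φ (D v) := fun D =>
    Finset.prod_nonneg fun _ _ => b1W_nonneg hρ φ _
  have o1 : ∀ (σ : Pairing V q) col h, own (b1dat σ col) h = fun p => col (b1ty σ h p) := fun σ col h => by
    funext p
    simp only [hown, b1sc_dat]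
    exact congrArg col (b1st_e σ h (.inl p))
  have o2 : ∀ (σ : Pairing V q) col h, decl (b1dat σ col) h = fun p => col (b1ty σ (σ h) p) := fun σ col h => rfl
  have h1 : ∀ σ : Pairing V q, (b1Ex (fun s : V × Option (Fin r) => ρ s.2) fun col => Real.exp (b1logM ρ φ σ col)) ≤
      ∑ D : V → b1D q r R C, if ∀ h, decl D h = own D (σ h) then (∏ v, b1W ρ φ (D v)) * E D else 0 := fun σ => by
    have hi : Function.Injective (b1dat (R := R) σ : (V × Option (Fin r) → C) → V → b1D q r R C) :=
      fun col col' e => funext fun s => congrFun (congrArg Prod.fst (congrFun e s.1)) s.2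
    refine le_of_eq_of_le ?_ (Finset.sum_le_sum_of_subset_of_nonneg
      (Finset.subset_univ (Finset.univ.map ⟨_, hi⟩)) fun D _ _ => ?_)
    · rw [Finset.sum_map]
      refine Finset.sum_congr rfl fun col _ => ?_
      rw [b1W_prod hρ, Function.Embedding.coeFn_mk, if_pos fun h => by rw [o1, o2]]
      congr 3
      refine Finset.sum_congr rfl fun h _ => congrArg Real.log (congrArg avg (funext fun h' => ?_))
      simp only [b1ind, b1st_e, o1, o2, Prod.mk.injEq, funext_iff, Sum.forall, b1ed, Sum.elim_inl, Sum.elim_inr]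
    · split_ifs
      · exact mul_nonneg (hW D) (Real.exp_pos _).le
      · exact le_rfl
  have h2 : ∑ σ : Pairing V q, (b1Ex (fun s : V × Option (Fin r) => ρ s.2) fun col => Real.exp (b1logM ρ φ σ col)) ≤
      K * Fintype.card (Pairing V q) := by
    refine (Finset.sum_le_sum fun σ _ => h1 σ).trans ?_
    rw [Finset.sum_comm]
    calc _ ≤ ∑ D : V → b1D q r R C, (∏ v, b1W ρ φ (D v)) * (K * Fintype.card (Pairing V q)) := by
          refine Finset.sum_le_sum fun D _ => ?_
          rw [← Finset.sum_filter, Finset.sum_const, nsmul_eq_mul, mul_left_comm]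
          refine mul_le_mul_of_nonneg_left ?_ (hW D)
          convert b1_compat (own D) (decl D) <;> rfl
      _ ≤ _ := by
          rw [← Finset.sum_mul, ← Fintype.piFinset_univ, ← Finset.prod_univ_sum]
          exact mul_le_of_le_one_left (by positivity) (Finset.prod_le_one
            (fun _ _ => Finset.sum_nonneg fun _ _ => b1W_nonneg hρ φ _) fun _ _ => b1W_sum hρ φ)
  exact div_le_of_le_mul₀ (Nat.cast_nonneg _) hK0 h2

end Crest.Agent.R166
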