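import Crest.Agent.R166.B1.Ex

/-! Row 166, block B1 (owner helper79): square roots, imaginary parts of Green functions. -/

set_option autoImplicit false
set_option linter.unusedSectionVars false

open MeasureTheory ProbabilityTheory Filter Topology Complex
open scoped ENNReal NNReal BigOperators Matrix

noncomputable section

namespace Crest.Agent.R166

variable {ι V : Type} [Fintype ι] [DecidableEq ι] [Fintype V] [DecidableEq V] {q : ℕ} {s : ℝ} {z : ℂ}

open scoped MatrixOrder in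
/-- Sqrt-a.  `CFC.sqrt_mul_sqrt_self`, `CFC.sqrt_nonneg` (`open scoped MatrixOrder`) -/
theorem b1_msqrt_mul {C : Matrix ι ι ℝ} (hC : C.PosSemidef) : msqrt C * (msqrt C)ᵀ = C := by
  have h : (msqrt C)ᵀ = msqrt C := (Matrix.nonneg_iff_posSemidef.1 (CFC.sqrt_nonneg C)).1
  rw [h]
  exact CFC.sqrt_mul_sqrt_self C hC.nonneg

open scoped MatrixOrder Matrix.Norms.L2Operator in
/-- Sqrt-a.  `CFC.continuousOn_sqrt` (with `open scoped Matrix.Norms.L2Operator`), or compactness and uniqueness of the root -/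
theorem b1_msqrt_cont : ContinuousOn (msqrt : Matrix ι ι ℝ → Matrix ι ι ℝ) {C | C.PosSemidef} := by
  simp only [← Matrix.nonneg_iff_posSemidef]
  exact CFC.continuousOn_sqrt (A := Matrix ι ι ℝ)

theorem b1_Hm_herm (s : ℝ) (c : Cfg V q) : (Hm s c).IsHermitian := by
  refine Matrix.IsHermitian.add (Matrix.IsHermitian.ext fun u v => ?_) (Matrix.isHermitian_diagonal _)
  have key : ∀ (u v : V) (i : Fin (q + 1)), (c.1 (u, i)).1 = v → c.1 (v, (c.1 (u, i)).2) = (u, i) := fun u v i h => by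
    rw [← h]; exact (c.1.2 _).1
  simp only [adj, star_trivial, Nat.cast_inj]
  refine Finset.card_nbij' (fun i => (c.1 (v, i)).2) (fun i => (c.1 (u, i)).2) (fun i hi => ?_) (fun i hi => ?_)
    (fun i hi => ?_) fun i hi => ?_ <;> simp only [Finset.coe_filter, Finset.mem_univ, true_and, Set.mem_ofPred_eq] at hi ⊢ <;>
    rw [key _ _ _ hi]

/-- Sqrt-a.  `Im G = ∑ i, η / |λ i - z|² u i u iᵀ` -/
theorem b1_imG (hE : StE) {A : Matrix V V ℝ} (hA : A.IsHermitian) (hz : 0 < z.im) :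
    (imM (Gr A z)).PosDef ∧ (∀ x : V → ℝ, x ⬝ᵥ imM (Gr A z) *ᵥ x ≤ z.im⁻¹ * ∑ v, x v ^ 2) ∧
      ∀ x y, |imM (Gr A z) x y| ≤ z.im⁻¹ := by
  obtain ⟨u, -, -, h2, h3⟩ := (hE V).2 A hA
  have hne : ∀ i, (ev A i : ℂ) ≠ z := fun i e => hz.ne (by rw [← e]; simp)
  set w : V → ℝ := fun i => z.im / Complex.normSq ((ev A i : ℂ) - z) with hw
  have hw0 : ∀ i, 0 < w i := fun i => div_pos hz (Complex.normSq_pos.2 (sub_ne_zero.2 (hne i)))
  have hw1 : ∀ i, w i ≤ z.im⁻¹ := fun i => by
    rw [hw, div_le_iff₀ (Complex.normSq_pos.2 (sub_ne_zero.2 (hne i))), inv_mul_eq_div, le_div_iff₀ hz,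
      Complex.normSq_apply]
    simp only [Complex.sub_im, Complex.ofReal_im, zero_sub, neg_mul_neg]
    exact le_add_of_nonneg_left (mul_self_nonneg _)
  have e : ∀ x y, imM (Gr A z) x y = ∑ i, w i * (u i x * u i y) := fun x y => by
    simp only [imM, Matrix.map_apply, h3 z hne, Complex.im_sum]
    refine Finset.sum_congr rfl fun i _ => ?_
    rw [Complex.div_im]
    simp only [hw, Complex.ofReal_im, Complex.ofReal_re, Complex.sub_im]
    ring
  have sw : ∀ (w : V → ℝ) (x : V → ℝ), ∑ a, x a * ∑ b, (∑ i, w i * (u i a * u i b)) * x b =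
      ∑ i, w i * (∑ v, u i v * x v) ^ 2 := fun w x => by
    simp only [sq, Finset.mul_sum, Finset.sum_mul]
    conv_rhs => rw [Finset.sum_comm]
    refine Finset.sum_congr rfl fun a _ => ?_
    conv_rhs => rw [Finset.sum_comm]
    exact Finset.sum_congr rfl fun b _ => Finset.sum_congr rfl fun i _ => by ring
  have e1 : ∀ x : V → ℝ, x ⬝ᵥ imM (Gr A z) *ᵥ x = ∑ i, w i * (∑ v, u i v * x v) ^ 2 := fun x => by
    simp only [dotProduct, Matrix.mulVec, e, sw]
  have e2 : ∀ x : V → ℝ, ∑ i, (∑ v, u i v * x v) ^ 2 = ∑ v, x v ^ 2 := fun x => by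
    have := sw (fun _ => 1) x
    simp only [one_mul, h2, ite_mul, zero_mul, Finset.sum_ite_eq, Finset.mem_univ, if_true] at this
    rw [← this]
    simp only [sq]
  refine ⟨Matrix.PosDef.of_dotProduct_mulVec_pos (Matrix.IsHermitian.ext fun x y => ?_) fun x hx => ?_, fun x => ?_,
    fun x y => ?_⟩
  · simp only [star_trivial, e, mul_comm (u _ x)]
  · rw [star_trivial, e1]
    obtain ⟨v, hv⟩ := Function.ne_iff.1 hx
    have h4 : ∑ i, (∑ v, u i v * x v) ^ 2 ≠ 0 := by
      rw [e2]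
      exact (Finset.sum_pos' (fun _ _ => sq_nonneg _) ⟨v, Finset.mem_univ _, (sq_nonneg _).lt_of_ne' (pow_ne_zero 2 hv)⟩).ne'
    obtain ⟨i, -, hi⟩ := Finset.exists_ne_zero_of_sum_ne_zero h4
    exact Finset.sum_pos' (fun i _ => mul_nonneg (hw0 i).le (sq_nonneg _))
      ⟨i, Finset.mem_univ _, mul_pos (hw0 i) ((sq_nonneg _).lt_of_ne' hi)⟩
  · rw [e1, ← e2, Finset.mul_sum]
    exact Finset.sum_le_sum fun i _ => mul_le_mul_of_nonneg_right (hw1 i) (sq_nonneg _)
  · rw [e]
    refine (Finset.abs_sum_le_sum_abs _ _).trans ((Finset.sum_le_sum (g := fun i =>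
      z.im⁻¹ * ((u i x * u i x + u i y * u i y) / 2)) fun i _ => ?_).trans_eq ?_)
    · rw [abs_mul, abs_of_pos (hw0 i)]
      refine mul_le_mul (hw1 i) (abs_le.2 ⟨?_, ?_⟩) (abs_nonneg _) (by positivity)
      · nlinarith [sq_nonneg (u i x + u i y)]
      · nlinarith [sq_nonneg (u i x - u i y)]
    · rw [← Finset.mul_sum, ← Finset.sum_div, Finset.sum_add_distrib, h2, h2]
      simp

theorem b1_den_im (hz : 0 < z.im) (a : II) {k : ℕ} {m : Fin k → ℂ} (hm : ∀ i, 0 < (m i).im) :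
    0 < (z - s * (a : ℝ) + ∑ j, m j).im := by
  have : 0 ≤ ∑ j, (m j).im := Finset.sum_nonneg fun j _ => (hm j).le
  simp only [Complex.add_im, Complex.sub_im, Complex.im_sum, ← Complex.ofReal_mul, Complex.ofReal_im]
  linarith

theorem b1_den_ne (hz : 0 < z.im) (a : II) {k : ℕ} {m : Fin k → ℂ} (hm : ∀ i, 0 < (m i).im) :
    z - s * (a : ℝ) + ∑ j, m j ≠ 0 := fun e => by
  have := b1_den_im (s := s) hz a hm
  rw [e] at this
  exact lt_irrefl _ this

/-- Sqrt-b.  With `g = Psi s z a m`, `y = g (x none - ∑ m j x j)`: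
`xᵀ Im Γ x = Im z |y|² + ∑ j, Im (m j) |x j - y|²`. -/
theorem b1_GamS_psd (hz : 0 < z.im) (a : II) {m : Fin (q + 1) → ℂ} (hm : ∀ i, 0 < (m i).im) :
    (imM (GamS s z a m)).PosSemidef := by
  refine Matrix.PosSemidef.of_dotProduct_mulVec_nonneg (Matrix.IsHermitian.ext fun i j => ?_) fun x => ?_
  · rcases i with _ | i <;> rcases j with _ | j <;> simp only [star_trivial, imM, Matrix.map_apply, GamS]
    by_cases e : i = j
    · rw [e]
    · rw [if_neg e, if_neg (Ne.symm e), mul_comm (m j)]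
  set g := Psi s z a m with hg
  set t : ℂ := x none - ∑ j, m j * x (some j) with ht
  set D : ℂ := z - s * (a : ℝ) + ∑ j, m j with hD
  have e1 : star x ⬝ᵥ imM (GamS s z a m) *ᵥ x = (∑ i, (x i : ℂ) * ∑ j, GamS s z a m i j * x j).im := by
    simp [dotProduct, Matrix.mulVec, imM, Complex.im_sum]
  have e2 : ∑ i, (x i : ℂ) * ∑ j, GamS s z a m i j * x j = g * t * t + ∑ j, m j * (x (some j) * x (some j)) := by
    simp only [Fintype.sum_option, GamS, ← hg, add_mul, Finset.sum_add_distrib, ite_mul, zero_mul, Finset.sum_ite_eq,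
      Finset.mem_univ, if_true, mul_add]
    have a1 : ∑ j, -(m j * g) * (x (some j) : ℂ) = -g * ∑ j, m j * x (some j) := by
      rw [Finset.mul_sum]; exact Finset.sum_congr rfl fun j _ => by ring
    have a2 : ∑ j, (x (some j) : ℂ) * (-(m j * g) * x none) = -g * x none * ∑ j, m j * x (some j) := by
      rw [Finset.mul_sum]; exact Finset.sum_congr rfl fun j _ => by ring
    have a3 : ∑ i, (x (some i) : ℂ) * ∑ j, m i * m j * g * x (some j) =
        g * ((∑ j, m j * x (some j)) * ∑ j, m j * x (some j)) := by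
      rw [Finset.sum_mul_sum, Finset.mul_sum]
      refine Finset.sum_congr rfl fun i _ => ?_
      rw [Finset.mul_sum, Finset.mul_sum]
      exact Finset.sum_congr rfl fun j _ => by ring
    have a4 : ∑ j, (x (some j) : ℂ) * (m j * x (some j)) = ∑ j, m j * (x (some j) * x (some j)) :=
      Finset.sum_congr rfl fun j _ => by ring
    rw [a1, a2, a3, a4, ht]
    ring
  set y := g * t with hy
  have e3 : t = -(D * y) := by
    have : D ≠ 0 := b1_den_ne hz a hm
    rw [hy, hg, Psi, ← hD]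
    field_simp
  have e4 : (y * t).im = D.im * (y.re ^ 2 + y.im ^ 2) + 2 * y.re * t.im := by
    rw [e3]; simp; ring
  have e5 : D.im = z.im + ∑ j, (m j).im := by simp [hD, Complex.im_sum]
  have e6 : t.im = -∑ j, (m j).im * x (some j) := by simp [ht, Complex.im_sum]
  have e7 : (∑ j, m j * (x (some j) * x (some j))).im = ∑ j, (m j).im * x (some j) ^ 2 := by
    simp [Complex.im_sum, sq]
  rw [e1, e2, Complex.add_im, e4, e5, e6, e7]
  have : 0 ≤ ∑ j, (m j).im * ((x (some j) - y.re) ^ 2 + y.im ^ 2) :=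
    Finset.sum_nonneg fun j _ => mul_nonneg (hm j).le (by positivity)
  have e8 : ∑ j, (m j).im * ((x (some j) - y.re) ^ 2 + y.im ^ 2) = (∑ j, (m j).im) * (y.re ^ 2 + y.im ^ 2) -
      2 * y.re * ∑ j, (m j).im * x (some j) + ∑ j, (m j).im * x (some j) ^ 2 := by
    rw [Finset.sum_mul, Finset.mul_sum, ← Finset.sum_sub_distrib, ← Finset.sum_add_distrib]
    exact Finset.sum_congr rfl fun j _ => by ring
  nlinarith [mul_nonneg hz.le (by positivity : 0 ≤ y.re ^ 2 + y.im ^ 2)]

theorem b1_GS_psd (hT : StT0) (hs : 0 ≤ s) (hs' : s ≤ 1) (hz : 0 < z.im) (e : SEnv q) :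
    (imM (GS s z e)).PosSemidef :=
  b1_GamS_psd hz _ fun _ => (((hT q s hs hs').1 z hz).2.2 _).1

/-- Sqrt-b -/
theorem b1_GS_cont (hT : StT0) (hs : 0 ≤ s) (hs' : s ≤ 1) (hz : 0 < z.im) :
    Continuous fun e : SEnv q => imM (GS s z e) := by
  obtain ⟨-, h1, h2⟩ := (hT q s hs hs').1 z hz
  have hg : Continuous fun e : SEnv q => Psi s z e.1 fun i => mT s z (e.2 i) :=
    Continuous.neg (Continuous.inv₀ (by fun_prop) fun e => b1_den_ne hz e.1 fun i => (h2 _).1)
  refine continuous_matrix fun i j => Complex.continuous_im.comp ?_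
  rcases i with _ | i <;> rcases j with _ | j <;> simp only [GS, GamS]
  · exact hg
  · fun_prop
  · fun_prop
  · split_ifs <;> fun_prop

/-- Sqrt-b.  `mT (nearV e 0) = Psi s z e.1 fun j => mT (e.2 j.succ)` by the recursion -/
theorem b1_GE_eq (hT : StT0) (hs : 0 ≤ s) (hs' : s ≤ 1) (hz : 0 < z.im) (e : SEnv q) :
    GE s z (nearV e 0, e.2 0) = (GS s z e).submatrix ![none, some 0] ![none, some 0] := by
  obtain ⟨-, -, h2⟩ := (hT q s hs hs').1 z hz
  have e1 : mT s z (nearV e 0) = -(z - s * (e.1 : ℝ) + ∑ j : Fin q, mT s z (e.2 j.succ))⁻¹ := by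
    rw [(h2 _).2.2]
    simp only [Psi, nearV, cons, zero_add]
    rfl
  have n1 := b1_den_ne (s := s) hz e.1 fun j : Fin q => (h2 (e.2 j.succ)).1
  have n2 := b1_den_ne (s := s) hz e.1 fun j : Fin (q + 1) => (h2 (e.2 j)).1
  rw [Fin.sum_univ_succ, add_left_comm] at n2
  have e2 : (Psi s z e.1 fun i => mT s z (e.2 i)) =
      -(mT s z (e.2 0) + (z - s * (e.1 : ℝ) + ∑ j : Fin q, mT s z (e.2 j.succ)))⁻¹ := by
    rw [Psi, Fin.sum_univ_succ, add_left_comm]
  generalize z - s * (e.1 : ℝ) + ∑ j : Fin q, mT s z (e.2 j.succ) = D at *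
  have n3 : D + mT s z (e.2 0) ≠ 0 := by rwa [add_comm]
  ext i j
  fin_cases i <;> fin_cases j <;> simp [GE, GamE, GS, GamS, e1, e2] <;> field_simp <;> ring

/-- a star environment with a given edge environment -/
def b1lift (e : EEnv q) : SEnv q := (e.1 [], Fin.cons e.2 fun j => child e.1 j)

theorem b1_GE_lift (hT : StT0) (hs : 0 ≤ s) (hs' : s ≤ 1) (hz : 0 < z.im) (e : EEnv q) :
    imM (GE s z e) = (imM (GS s z (b1lift e))).submatrix ![none, some 0] ![none, some 0] := by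
  have : e = (nearV (b1lift e) 0, (b1lift e).2 0) := by
    refine Prod.ext (funext fun l => ?_) rfl
    cases l <;> simp [nearV, b1lift, cons, child]
  conv_lhs => rw [this, b1_GE_eq hT hs hs' hz]
  rfl

/-- Sqrt-b.  Every edge environment is `(nearV e 0, e.2 0)`. -/
theorem b1_GE_psd (hT : StT0) (hs : 0 ≤ s) (hs' : s ≤ 1) (hz : 0 < z.im) (e : EEnv q) :
    (imM (GE s z e)).PosSemidef := by
  rw [b1_GE_lift hT hs hs' hz]
  exact (b1_GS_psd hT hs hs' hz _).submatrix _

/-- Sqrt-b.  `1 - m' m ≠ 0` because `-1/m' + m` has positive imaginary part -/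
theorem b1_GE_cont (hT : StT0) (hs : 0 ≤ s) (hs' : s ≤ 1) (hz : 0 < z.im) :
    Continuous fun e : EEnv q => imM (GE s z e) := by
  simp only [b1_GE_lift hT hs hs' hz]
  refine ((b1_GS_cont hT hs hs' hz).comp (Continuous.prodMk (by fun_prop) (continuous_pi fun i => ?_))).matrix_submatrix _ _
  refine Fin.cases continuous_snd (fun j => ?_) i
  simp only [Fin.cons_succ]
  unfold child
  fun_prop

end Crest.Agent.R166
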