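import Crest.Agent.R166.B1.Gauss
import Crest.Agent.R166.B1.Sqrt
import Crest.Agent.R166.B1.Pos

/-! Row 166, block B1 (owner helper79): convergence of local statistics of the noised vectors. -/

set_option autoImplicit false
set_option linter.unusedSectionVars false

open MeasureTheory ProbabilityTheory Filter Topology Complex
open scoped ENNReal NNReal BigOperators Matrix

noncomputable section

namespace Crest.Agent.R166

variable {q r : ℕ} {s : ℝ} {z : ℂ} {K : ℝ} {n : ℕ → ℕ} {c : ∀ j, Cfg (Fin (n j)) q}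
  {u : ∀ j, Fin r → Fin (n j) → ℝ} {P : ProbabilityMeasure (SState q r)}

instance b1_matFC {m n : Type} [Finite m] [Finite n] : FirstCountableTopology (Matrix m n ℝ) :=
  inferInstanceAs (FirstCountableTopology (m → n → ℝ))

theorem b1_gm_int {ι κ κ' : Type} [Fintype ι] [Fintype κ] [Fintype κ'] {M : Matrix ι κ ℝ} {M' : Matrix ι κ' ℝ}
    (h : M * Mᵀ = M' * M'ᵀ) {g : (Fin r → ι → ℝ) → ℝ} (hg : Measurable g) :
    ∫ W, g (fun a => M *ᵥ W a) ∂gpi2 (Fin r) κ = ∫ W, g (fun a => M' *ᵥ W a) ∂gpi2 (Fin r) κ' := by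
  have m1 : Measurable fun (W : Fin r → κ → ℝ) a => M *ᵥ W a :=
    measurable_pi_lambda _ fun a => (b1_meas_mulVec M).comp (measurable_pi_apply a)
  have m2 : Measurable fun (W : Fin r → κ' → ℝ) a => M' *ᵥ W a :=
    measurable_pi_lambda _ fun a => (b1_meas_mulVec M').comp (measurable_pi_apply a)
  rw [← integral_map m1.aemeasurable hg.aestronglyMeasurable, b1_gm r M M' h,
    integral_map m2.aemeasurable hg.aestronglyMeasurable]

theorem b1_sub_sqrt {ι κ : Type} [Fintype ι] [DecidableEq ι] [Fintype κ] [DecidableEq κ] {C : Matrix κ κ ℝ}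
    (hC : C.PosSemidef) (e : ι → κ) :
    (msqrt C).submatrix e id * ((msqrt C).submatrix e id)ᵀ =
      msqrt (C.submatrix e e) * (msqrt (C.submatrix e e))ᵀ := by
  rw [b1_msqrt_mul (hC.submatrix e)]
  conv_rhs => rw [← b1_msqrt_mul hC]
  rfl

theorem b1_psd_closed {ι : Type} [Fintype ι] : IsClosed {C : Matrix ι ι ℝ | C.PosSemidef} := by
  simp only [Matrix.posSemidef_iff_dotProduct_mulVec, Set.ofPred_and, Set.ofPred_forall]
  refine IsClosed.inter (isClosed_eq (by fun_prop) continuous_id) (isClosed_iInter fun x => ?_)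
  exact isClosed_le continuous_const (by fun_prop)

theorem b1_noise_meas {X ι : Type} [TopologicalSpace X] [SecondCountableTopology X] [MeasurableSpace X]
    [BorelSpace X] [Fintype ι] {S : X → Matrix ι ι ℝ} (hS : Continuous S) :
    Measurable fun p : (X × (Fin r → ι → ℝ)) × (Fin r → ι → ℝ) =>
      ((p.1.1, fun a => p.1.2 a + S p.1.1 *ᵥ p.2 a) : X × (Fin r → ι → ℝ)) :=
  Continuous.measurable (by fun_prop)

theorem b1Seq.tend (h : b1Seq q r s z K n c u P) {f : SState q r → ℝ} (hf : Continuous f) {B : ℝ}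
    (hB : ∀ x, |f x| ≤ B) :
    Tendsto (fun j => avg fun h : HE (Fin (n j)) q => f (b1loc (c j) (u j) h)) atTop
      (𝓝 (∫ x, f x ∂(P : Measure (SState q r)))) := by
  obtain ⟨μ, h1, h2⟩ := h.lim
  have := ProbabilityMeasure.tendsto_iff_forall_integral_tendsto.1 h2
    (BoundedContinuousFunction.ofNormedAddCommGroup f hf B hB)
  simp only [h1, BoundedContinuousFunction.coe_ofNormedAddCommGroup, empS,
    b1_integral_emp _ hf.stronglyMeasurable] at this
  exact this

/-- Conv-a.  Portmanteau for the closed set `{|x.2 a o| ≤ K}` -/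
theorem b1Seq.ae_le (h : b1Seq q r s z K n c u P) :
    ∀ᵐ x ∂(P : Measure (SState q r)), ∀ a o, |x.2 a o| ≤ K := by
  refine ae_all_iff.2 fun a => ae_all_iff.2 fun o => ?_
  set g : SState q r → ℝ := fun x => min 1 (max 0 (|x.2 a o| - K)) with hg
  have hc : Continuous g := by simp only [hg]; fun_prop
  have h0 : ∀ x, 0 ≤ g x := fun x => le_min zero_le_one (le_max_left _ _)
  have hB : ∀ x, |g x| ≤ 1 := fun x => by rw [abs_of_nonneg (h0 x)]; exact min_le_left _ _
  have h1 := h.tend hc hB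
  have e : (fun j => avg fun h : HE (Fin (n j)) q => g (b1loc (c j) (u j) h)) = fun _ => 0 := by
    funext j
    have : ∀ h' : HE (Fin (n j)) q, g (b1loc (c j) (u j) h') = 0 := fun h' => by
      have := h.bdd j a (sp (c j).1 h' o)
      simp only [hg, b1loc]
      rw [max_eq_left (by linarith), min_eq_right zero_le_one]
    simp [this, avg]
  rw [e] at h1
  have h2 := (integral_eq_zero_iff_of_nonneg h0 (Integrable.of_bound hc.aestronglyMeasurable 1
    (Eventually.of_forall hB))).1 (tendsto_nhds_unique h1 tendsto_const_nhds)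
  filter_upwards [h2] with x hx
  by_contra hlt
  have : 0 < g x := lt_min one_pos (lt_max_of_lt_right (by linarith [not_le.1 hlt]))
  exact this.ne' hx

theorem b1_clip_eq {K : ℝ} {x : SState q r} (h : ∀ a o, |x.2 a o| ≤ K) : clipS K x = x := by
  refine Prod.ext rfl (funext fun a => funext fun o => ?_)
  have := abs_le.1 (h a o)
  simp only [clipS]
  rw [min_eq_right this.2, max_eq_right this.1]

/-- Conv-a.  `Φ` is bounded and uniformly continuous on the compact set `{|x.2| ≤ K, C ≥ 0, |C a b| ≤ B}`; replace `Im G` by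
`Im GS` with `b1_avg_close` and `ll`; `x ↦ Φ (clipS K x, Im GS x.1)` is bounded and continuous; `b1_integral_emp`, `ae_le`. -/
theorem b1Seq.conv0 (hE : StE) (hT : StT0) (hs : 0 ≤ s) (hs' : s ≤ 1) (hz : 0 < z.im) (h : b1Seq q r s z K n c u P)
    {Φ : SState q r × Matrix (SI q) (SI q) ℝ → ℝ} (hΦ : ContinuousOn Φ {p | p.2.PosSemidef}) :
    Tendsto (fun j => avg fun h : HE (Fin (n j)) q => Φ (b1loc (c j) (u j) h,
      (imM (Gr (Hm s (c j)) z)).submatrix (sp (c j).1 h) (sp (c j).1 h))) atTop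
      (𝓝 (∫ x, Φ (x, imM (GS s z x.1)) ∂(P : Measure (SState q r)))) := by
  have hC := b1_GS_cont (q := q) hT hs hs' hz
  obtain ⟨B₀, hB₀⟩ := isCompact_univ.exists_bound_of_continuousOn
    (f := fun e : SEnv q => fun a b => imM (GS s z e) a b) hC.continuousOn
  set B := max B₀ z.im⁻¹ with hB
  set D : Set (SState q r × Matrix (SI q) (SI q) ℝ) :=
    ((Set.univ ×ˢ Set.univ.pi fun _ => Set.univ.pi fun _ => Set.Icc (-|K|) |K|) ×ˢ
      (Set.Icc (-B) B).matrix) ∩ {p | p.2.PosSemidef} with hD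
  have hDc : IsCompact D :=
    ((isCompact_univ.prod (isCompact_univ_pi fun _ => isCompact_univ_pi fun _ => isCompact_Icc)).prod
      isCompact_Icc.matrix).inter_right (b1_psd_closed.preimage continuous_snd)
  have hΦD : ContinuousOn Φ D := hΦ.mono Set.inter_subset_right
  obtain ⟨M, hM⟩ := hDc.exists_bound_of_continuousOn hΦD
  have mem : ∀ (x : SState q r) (C : Matrix (SI q) (SI q) ℝ), (∀ a o, |x.2 a o| ≤ |K|) → (∀ a b, |C a b| ≤ B) →
      C.PosSemidef → (x, C) ∈ D := fun x C h1 h2 h3 =>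
    ⟨⟨⟨trivial, fun a _ o _ => abs_le.1 (h1 a o)⟩, fun a b => abs_le.1 (h2 a b)⟩, h3⟩
  have mem1 : ∀ x : SState q r, (∀ a o, |x.2 a o| ≤ |K|) → (x, imM (GS s z x.1)) ∈ D := fun x h1 =>
    mem x _ h1 (fun a b => (((norm_le_pi_norm _ b).trans (norm_le_pi_norm (fun a b => imM (GS s z x.1) a b) a)).trans
      (hB₀ x.1 trivial)).trans (le_max_left _ _)) (b1_GS_psd hT hs hs' hz _)
  have hclip : ∀ (x : SState q r) a o, |(clipS K x).2 a o| ≤ |K| := fun x a o => abs_le.2
    ⟨(neg_le_neg (le_abs_self K)).trans (le_max_left _ _),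
      max_le (neg_le_abs K) ((min_le_left _ _).trans (le_abs_self K))⟩
  have hΨ : Continuous fun x : SState q r => Φ (clipS K x, imM (GS s z x.1)) :=
    hΦD.comp_continuous (Continuous.prodMk (by unfold clipS; fun_prop) (hC.comp continuous_fst))
      fun x => mem1 (clipS K x) (hclip x)
  have h1 := h.tend hΨ (B := M) fun x => hM _ (mem1 (clipS K x) (hclip x))
  have e : ∫ x, Φ (clipS K x, imM (GS s z x.1)) ∂(P : Measure (SState q r)) =
      ∫ x, Φ (x, imM (GS s z x.1)) ∂(P : Measure (SState q r)) :=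
    integral_congr_ae (h.ae_le.mono fun x hx => by simp only [b1_clip_eq hx])
  rw [e] at h1
  refine h1.congr_dist (Metric.tendsto_nhds.2 fun ε hε => ?_)
  have hU := hDc.uniformContinuousOn_of_continuous hΦD
  have hU' := hU (Metric.dist_mem_uniformity (half_pos (half_pos hε)))
  rw [mem_map, mem_inf_principal] at hU'
  obtain ⟨u₁, hu₁, v, hv, huv⟩ := entourageProd_subset hU'
  obtain ⟨δ, hδ, hδv⟩ := (Metric.mem_uniformity_dist (α := SI q → SI q → ℝ)).1 hv
  have hM0 : 0 ≤ M := (norm_nonneg _).trans (hM _ (mem1 (clipS K default) (hclip default)))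
  have hη : 0 < min (δ / 2) (ε / (8 * M + 1)) := lt_min (half_pos hδ) (by positivity)
  filter_upwards [h.ll _ hη] with j hj
  have hloc : ∀ (h' : HE (Fin (n j)) q) a o, |(b1loc (c j) (u j) h').2 a o| ≤ K := fun h' a o => h.bdd j a _
  have hG := b1_imG hE (b1_Hm_herm s (c j)) hz
  have m1 : ∀ h' : HE (Fin (n j)) q, (b1loc (c j) (u j) h', imM (GS s z (b1loc (c j) (u j) h').1)) ∈ D :=
    fun h' => mem1 _ fun a o => (hloc h' a o).trans (le_abs_self K)
  have m2 : ∀ h' : HE (Fin (n j)) q, (b1loc (c j) (u j) h',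
      (imM (Gr (Hm s (c j)) z)).submatrix (sp (c j).1 h') (sp (c j).1 h')) ∈ D :=
    fun h' => mem _ _ (fun a o => (hloc h' a o).trans (le_abs_self K))
      (fun a b => (hG.2.2 _ _).trans (le_max_right _ _)) (hG.1.posSemidef.submatrix _)
  simp only [b1_clip_eq (hloc _)]
  rw [dist_zero_right, Real.norm_eq_abs, abs_of_nonneg dist_nonneg, Real.dist_eq]
  refine (b1_avg_close (ε := ε / 2 / 2) (B := 2 * M) (p := fun h' : HE (Fin (n j)) q => ∃ a b,
    min (δ / 2) (ε / (8 * M + 1)) < ‖Gr (Hm s (c j)) z (sp (c j).1 h' a) (sp (c j).1 h' b) -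
      GS s z (sview (c j) h') a b‖) (by positivity) (fun h' hh => ?_) fun h' => ?_).trans_lt ?_
  · refine le_of_lt (huv (a := ((_, _), (_, _))) ⟨refl_mem_uniformity hu₁, hδv ?_⟩ ⟨m1 h', m2 h'⟩)
    refine (dist_pi_lt_iff hδ).2 fun a => (dist_pi_lt_iff hδ).2 fun b => ?_
    simp only [not_exists, not_lt] at hh
    have := (Complex.abs_im_le_norm _).trans ((hh a b).trans (min_le_left _ _))
    rw [Complex.sub_im, abs_sub_comm] at this
    exact lt_of_le_of_lt this (half_lt_self hδ)
  · have := hM _ (m1 h')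
    have := hM _ (m2 h')
    exact (abs_sub _ _).trans (by simp only [Real.norm_eq_abs] at *; linarith)
  · have h2 : 2 * M * b1bad s z (c j) (min (δ / 2) (ε / (8 * M + 1))) ≤ 2 * M * (ε / (8 * M + 1)) :=
      mul_le_mul_of_nonneg_left (hj.trans (min_le_right _ _)) (by positivity)
    have h3 : 2 * M * (ε / (8 * M + 1)) ≤ ε / 4 := by
      rw [← mul_div_assoc, div_le_div_iff₀ (by positivity) (by positivity)]
      nlinarith
    unfold b1bad at h2
    linarith

/-- Conv-b.  `conv0` for `Φ (x, C) = ∫ W, f (x.1, x.2 + msqrt C W)` (dominated convergence, `b1_msqrt_cont`);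
`b1_gm` for the rows `(msqrt (Im G)).submatrix (sp h) id`. -/
theorem b1Seq.conv (hE : StE) (hT : StT0) (hs : 0 ≤ s) (hs' : s ≤ 1) (hz : 0 < z.im) (h : b1Seq q r s z K n c u P)
    {f : SState q r → ℝ} (hf : Continuous f) {B : ℝ} (hB : ∀ x, |f x| ≤ B) :
    Tendsto (fun j => b1A s z (c j) (u j) f) atTop
      (𝓝 (nInt (P : Measure (SState q r)) (fun e => imM (GS s z e)) f)) := by
  have hΦ : ContinuousOn (fun p : SState q r × Matrix (SI q) (SI q) ℝ =>
      ∫ W, f (p.1.1, fun a => p.1.2 a + msqrt p.2 *ᵥ W a) ∂gpi2 (Fin r) (SI q)) {p | p.2.PosSemidef} := by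
    refine continuousOn_of_dominated (bound := fun _ => B) (fun p _ => Continuous.aestronglyMeasurable (by fun_prop))
      (fun p _ => Eventually.of_forall fun W => hB _) (integrable_const _) (Eventually.of_forall fun W => ?_)
    have h1 : Continuous fun p : SState q r × Matrix (SI q) (SI q) ℝ => f (p.1.1, fun a => p.1.2 a + p.2 *ᵥ W a) := by
      fun_prop
    exact h1.comp_continuousOn (continuousOn_fst.prodMk (b1_msqrt_cont.comp continuousOn_snd fun _ hp => hp))
  refine (h.conv0 hE hT hs hs' hz hΦ).congr fun j => ?_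
  have hG := (b1_imG hE (b1_Hm_herm s (c j)) hz).1.posSemidef
  unfold b1A avg
  rw [integral_div, integral_finsetSum _ fun h' _ => Integrable.of_bound
    (Continuous.aestronglyMeasurable (by unfold b1loc b1X; fun_prop)) B (Eventually.of_forall fun W => hB _)]
  congr 1
  refine Finset.sum_congr rfl fun h' _ => ?_
  exact (b1_gm_int (b1_sub_sqrt hG (sp (c j).1 h'))
    (g := fun Y => f (sview (c j) h', fun a => (fun o => u j a (sp (c j).1 h' o)) + Y a))
    (Continuous.measurable (by fun_prop))).symm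

/-- Conv-b.  `conv0` for `Φ (x, C) = ∑ a, (log (2π)/2 + (x.2 a none ^ 2 + C none none)/2)`, `b1_sq`, `b1_avg_fst` -/
theorem b1Seq.quad (hE : StE) (hT : StT0) (hs : 0 ≤ s) (hs' : s ≤ 1) (hz : 0 < z.im) (h : b1Seq q r s z K n c u P) :
    Tendsto (fun j => r * Real.log (2 * Real.pi) / 2 +
      (∑ a, ∑ v, (u j a v ^ 2 + imM (Gr (Hm s (c j)) z) v v)) / 2 / n j) atTop
      (𝓝 (nInt (P : Measure (SState q r)) (fun e => imM (GS s z e))
        fun x => ∑ a, (Real.log (2 * Real.pi) / 2 + x.2 a none ^ 2 / 2))) := by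
  have h1 := h.conv0 hE hT hs hs' hz (Φ := fun p => ∑ a, (Real.log (2 * Real.pi) / 2 +
    (p.1.2 a none ^ 2 + p.2 none none) / 2)) (Continuous.continuousOn (by fun_prop))
  have e : nInt (P : Measure (SState q r)) (fun e => imM (GS s z e))
      (fun x => ∑ a, (Real.log (2 * Real.pi) / 2 + x.2 a none ^ 2 / 2)) = ∫ x, ∑ a, (Real.log (2 * Real.pi) / 2 +
        (x.2 a none ^ 2 + imM (GS s z x.1) none none) / 2) ∂(P : Measure (SState q r)) := by
    refine integral_congr_ae (Eventually.of_forall fun x => ?_)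
    have h2 := fun a => b1_sq (msqrt (imM (GS s z x.1))) (x.2 a none) none a
    simp only [Pi.add_apply]
    rw [integral_finsetSum _ fun a _ => (integrable_const _).fun_add ((h2 a).1.div_const _)]
    refine Finset.sum_congr rfl fun a _ => ?_
    rw [integral_add (integrable_const _) ((h2 a).1.div_const _), integral_const, integral_div, (h2 a).2,
      b1_msqrt_mul (b1_GS_psd hT hs hs' hz _)]
    simp
  rw [e]
  refine h1.congr' ((h.top.eventually_gt_atTop 0).mono fun j hj => ?_)
  have hn : (n j : ℝ) ≠ 0 := by positivity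
  refine (b1_avg_fst fun v => ∑ a, (Real.log (2 * Real.pi) / 2 +
    (u j a v ^ 2 + imM (Gr (Hm s (c j)) z) v v) / 2)).trans ?_
  rw [avg, Finset.sum_comm]
  simp only [Finset.sum_add_distrib, Finset.sum_const, Finset.card_univ, Fintype.card_fin, nsmul_eq_mul,
    ← Finset.sum_div]
  field_simp

/-- Conv-b.  The noised law (`integral_prod`, `integral_map`). -/
theorem b1_exists_Q (hT : StT0) (hs : 0 ≤ s) (hs' : s ≤ 1) (hz : 0 < z.im) (P : Measure (SState q r))
    [IsProbabilityMeasure P] : ∃ Q : Measure (SState q r), IsProbabilityMeasure Q ∧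
      ∀ (f : SState q r → ℝ) (B : ℝ), Measurable f → (∀ x, |f x| ≤ B) →
        nInt P (fun e => imM (GS s z e)) f = ∫ x, f x ∂Q := by
  have h1 : Continuous fun e : SEnv q => msqrt (imM (GS s z e)) :=
    b1_msqrt_cont.comp_continuous (b1_GS_cont hT hs hs' hz) (b1_GS_psd hT hs hs' hz)
  have h2 : Measurable fun p : SState q r × (Fin r → SI q → ℝ) =>
      ((p.1.1, fun a => p.1.2 a + msqrt (imM (GS s z p.1.1)) *ᵥ p.2 a) : SState q r) := b1_noise_meas h1
  refine ⟨(P.prod (gpi2 (Fin r) (SI q))).map _, Measure.isProbabilityMeasure_map h2.aemeasurable, fun f B hf hB => ?_⟩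
  rw [integral_map h2.aemeasurable hf.aestronglyMeasurable, integral_prod]
  · rfl
  · exact Integrable.of_bound (hf.comp h2).aestronglyMeasurable B (Eventually.of_forall fun _ => hB _)

/-- Conv-a.  The noised edge law is the marginal of the noised star law (`integral_map`, `b1_GE_eq`, `b1_gm`). -/
theorem b1_edge (hT : StT0) (hs : 0 ≤ s) (hs' : s ≤ 1) (hz : 0 < z.im) (P : Measure (SState q r))
    [IsProbabilityMeasure P] {ψ : EState q r → ℝ} (hψ : Measurable ψ) {B : ℝ} (hB : ∀ x, |ψ x| ≤ B) :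
    nInt (P.map (edgeOf 0)) (fun e => imM (GE s z e)) ψ =
      nInt P (fun e => imM (GS s z e)) fun x => ψ (edgeOf 0 x) := by
  have h1 : Continuous fun e : EEnv q => msqrt (imM (GE s z e)) :=
    b1_msqrt_cont.comp_continuous (b1_GE_cont hT hs hs' hz) (b1_GE_psd hT hs hs' hz)
  have h2 : Measurable fun p : EState q r × (Fin r → Fin 2 → ℝ) =>
      ((p.1.1, fun a => p.1.2 a + msqrt (imM (GE s z p.1.1)) *ᵥ p.2 a) : EState q r) := b1_noise_meas h1
  refine (integral_map (b1_edgeOf_continuous 0).measurable.aemeasurable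
    (hψ.comp h2).stronglyMeasurable.integral_prod_right'.aestronglyMeasurable).trans ?_
  refine integral_congr_ae (Eventually.of_forall fun x => ?_)
  have e : imM (GE s z (edgeOf 0 x).1) = (imM (GS s z x.1)).submatrix ![none, some 0] ![none, some 0] :=
    congrArg imM (b1_GE_eq hT hs hs' hz x.1)
  have h3 := b1_gm_int (b1_sub_sqrt (b1_GS_psd hT hs hs' hz x.1) ![none, some 0])
    (g := fun Y => ψ ((edgeOf 0 x).1, fun a => (edgeOf 0 x).2 a + Y a)) (hψ.comp (by fun_prop))
  simp only [Function.comp, e]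
  refine h3.symm.trans (integral_congr_ae (Eventually.of_forall fun W => congrArg ψ (Prod.ext rfl ?_)))
  funext a i
  fin_cases i <;> rfl

end Crest.Agent.R166
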