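import Crest.Agent.R166.B1.Pos

/-! Row 166, block B1 (owner helper79): independence under the reference laws. -/

set_option autoImplicit false
set_option linter.unusedSectionVars false

open MeasureTheory ProbabilityTheory Filter Topology Complex
open scoped ENNReal NNReal BigOperators Matrix

noncomputable section

namespace Crest.Agent.R166

variable {q r R : ℕ} (π : Measure II) [IsProbabilityMeasure π]

instance b1_env_prob : IsProbabilityMeasure (envLaw q π) := by unfold envLaw; infer_instance
instance b1_star_prob : IsProbabilityMeasure (starLaw q π) := by unfold starLaw; infer_instance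
instance b1_edge_prob : IsProbabilityMeasure (edgeLaw q π) := by unfold edgeLaw; infer_instance

theorem b1_int_val {g : ℝ → ℝ} (hg : Continuous g) : ∫ a : II, g a ∂π = ∫ t, g t ∂π.map Subtype.val :=
  (integral_map measurable_subtype_coe.aemeasurable hg.aestronglyMeasurable).symm

theorem b1_int_gpi2 {κ ι : Type} [Fintype κ] [Fintype ι] (g : κ → ι → ℝ → ℝ) :
    ∫ W, ∏ a, ∏ o, g a o (W a o) ∂gpi2 κ ι = ∏ a, ∏ o, ∫ t, g a o t ∂gaussianReal 0 1 := by
  rw [gpi2, integral_fintype_prod_eq_prod fun a (x : ι → ℝ) => ∏ o, g a o (x o)]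
  exact Finset.prod_congr rfl fun a _ => integral_fintype_prod_eq_prod (g a)

/-- finite marginals of `infinitePi` -/
theorem b1_ind_env : b1Ind (envLaw q π) (fun β (l : b1L q R) => (β l.1 : ℝ)) fun _ => π.map Subtype.val := by
  intro g hg _
  have h1 := Measure.infinitePi_map_restrict' (fun _ : List (Fin q) => π) (I := {l | l.length ≤ R})
  have h2 : Measure.infinitePi (fun _ : b1L q R => π) = Measure.pi fun _ => π := Measure.infinitePi_eq_pi _
  have h3 : Continuous fun x : b1L q R → II => ∏ l, g l (x l) := by fun_prop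
  simp only [← b1_int_val π (hg _)]
  rw [← integral_fintype_prod_eq_prod fun l (a : II) => g l a, ← h2]
  refine (integral_map (φ := fun (β : Env q) (l : b1L q R) => β l.1)
    (measurable_pi_lambda _ fun l => measurable_pi_apply l.1).aemeasurable h3.aestronglyMeasurable).symm.trans ?_
  exact congrArg (fun μ => ∫ x : b1L q R → II, ∏ l, g l (x l) ∂μ) h1

/-- `integral_prod_mul`, `integral_fintype_prod_eq_prod` -/
theorem b1_ind_site (V : Type) [Fintype V] [DecidableEq V] :
    b1Ind ((Measure.pi fun _ : V => π).prod (gpi2 (Fin r) V)) (fun x => b1val x.1 x.2) fun s => b1nu π s.2 := by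
  intro g hg _
  have key : ∀ f : V × Option (Fin r) → ℝ, ∏ p, f p = (∏ v, f (v, none)) * ∏ a, ∏ v, f (v, some a) := fun f => by
    simp only [Fintype.prod_prod_type, Fintype.prod_option, Finset.prod_mul_distrib]
    rw [Finset.prod_comm]
  simp only [key, b1val, b1nu]
  rw [integral_prod_mul (fun w : V → II => ∏ v, g (v, none) (w v))
    fun X : Fin r → V → ℝ => ∏ a, ∏ v, g (v, some a) (X a v), b1_int_gpi2 fun a v => g (v, some a),
    integral_fintype_prod_eq_prod fun v (a : II) => g (v, none) a]
  simp only [b1_int_val π (hg _)]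

theorem b1_ind_star :
    b1Ind ((starLaw q π).prod (gpi2 (Fin r) (SI q))) (b1valS R) fun p => b1nu π (b1kS p) := by
  intro g hg hb
  set pos : Fin r → SI q → b1PS q r R := fun a o => o.elim (.inl (some a)) fun k => .inr (k, .inr a) with hpos
  have key : ∀ f : b1PS q r R → ℝ, ∏ p, f p = (f (.inl none) * ∏ k, ∏ l, f (.inr (k, .inl l))) *
      ∏ a, ∏ o, f (pos a o) := fun f => by
    simp only [hpos, Fintype.prod_prod_type, Fintype.prod_option, Fintype.prod_sum_type, Finset.prod_mul_distrib,
      Option.elim]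
    rw [Finset.prod_comm (f := fun a k => f (.inr (k, .inr a)))]
    ring
  have e1 : ∀ (x : SState q r) a o, b1valS R x (pos a o) = x.2 a o := fun x a o => by cases o <;> rfl
  have e2 : ∀ a o, b1nu π (b1kS (pos a o)) = gaussianReal 0 1 := fun a o => by cases o <;> rfl
  simp only [key, e1, e2]
  simp only [b1valS]
  rw [integral_prod_mul (fun e : SEnv q => g (.inl none) e.1 * ∏ k, ∏ l, g (.inr (k, .inl l)) (e.2 k l.1))
    fun X : Fin r → SI q → ℝ => ∏ a, ∏ o, g (pos a o) (X a o), b1_int_gpi2 fun a o => g (pos a o), starLaw,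
    integral_prod_mul (fun a : II => g (.inl none) a)
      fun β : Fin (q + 1) → Env q => ∏ k, ∏ l, g (.inr (k, .inl l)) (β k l.1),
    integral_fintype_prod_eq_prod fun k (β : Env q) => ∏ l, g (.inr (k, .inl l)) (β l.1), b1_int_val π (hg _)]
  congr 2
  exact Finset.prod_congr rfl fun k _ => b1_ind_env π (fun l => g (.inr (k, .inl l))) (fun _ => hg _) fun _ => hb _

theorem b1_ind_edge :
    b1Ind ((edgeLaw q π).prod (gpi2 (Fin r) (Fin 2))) (b1valE R) fun p => b1nu π (b1kE p) := by
  intro g hg hb
  set pos : Fin r → Fin 2 → b1PE q r R := fun a => ![.inl (.inr a), .inr (.inr a)] with hpos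
  have key : ∀ f : b1PE q r R → ℝ, ∏ p, f p = ((∏ l, f (.inl (.inl l))) * ∏ l, f (.inr (.inl l))) *
      ∏ a, ∏ o, f (pos a o) := fun f => by
    simp only [hpos, Fin.prod_univ_two, Fintype.prod_sum_type, Finset.prod_mul_distrib, Matrix.cons_val_zero,
      Matrix.cons_val_one]
    ring
  have e1 : ∀ (x : EState q r) a o, b1valE R x (pos a o) = x.2 a o := fun x a o => by fin_cases o <;> rfl
  have e2 : ∀ a o, b1nu π (b1kE (pos a o)) = gaussianReal 0 1 := fun a o => by fin_cases o <;> rfl
  simp only [key, e1, e2]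
  simp only [b1valE]
  rw [integral_prod_mul (fun e : EEnv q => (∏ l, g (.inl (.inl l)) (e.1 l.1)) * ∏ l, g (.inr (.inl l)) (e.2 l.1))
    fun X : Fin r → Fin 2 → ℝ => ∏ a, ∏ o, g (pos a o) (X a o), b1_int_gpi2 fun a o => g (pos a o), edgeLaw,
    integral_prod_mul (fun β : Env q => ∏ l, g (.inl (.inl l)) (β l.1))
      fun β : Env q => ∏ l, g (.inr (.inl l)) (β l.1)]
  congr 2
  · exact b1_ind_env π (fun l => g (.inl (.inl l))) (fun _ => hg _) fun _ => hb _
  · exact b1_ind_env π (fun l => g (.inr (.inl l))) (fun _ => hg _) fun _ => hb _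

end Crest.Agent.R166
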