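import Crest.Agent.R166.B1.Cnt
import Crest.Agent.R166.B1.Ind

/-! Row 166, block B1 (owner helper79): the good events. -/

set_option autoImplicit false
set_option linter.unusedSectionVars false

open MeasureTheory ProbabilityTheory Filter Topology Complex
open scoped ENNReal NNReal BigOperators Matrix

noncomputable section

namespace Crest.Agent.R166

variable {q r R : ℕ} {π : Measure II} [IsProbabilityMeasure π]

/-- `G j` = intersection of the `E i` with `Encodable.encode i ≤ j` -/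
theorem b1_whp_all {I : Type} [Countable I] (E : I → ∀ n : ℕ, Cfg (Fin n) q → Prop) (h : ∀ i, Whp q π (E i)) :
    ∃ G : ℕ → ∀ n : ℕ, Cfg (Fin n) q → Prop, (∀ j, Whp q π (G j)) ∧
      ∀ i, ∀ᶠ j in atTop, ∀ n c, G j n c → E i n c := by
  obtain ⟨e, he⟩ := exists_injective_nat I
  refine ⟨fun j n c => ∀ i, e i ≤ j → E i n c, fun j => ?_, fun i =>
    (eventually_ge_atTop (e i)).mono fun j hj n c hc => hc i hj⟩
  have hf : (e ⁻¹' Set.Iic j).Finite := (Set.finite_Iic j).preimage he.injOn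
  have h1 := tendsto_finsetSum hf.toFinset fun i _ => h i
  rw [Finset.sum_const_zero] at h1
  refine tendsto_of_tendsto_of_tendsto_of_le_of_le tendsto_const_nhds h1 (fun _ => zero_le) fun n => ?_
  refine le_trans (measure_mono fun c hc => ?_) (measure_biUnion_finset_le _ _)
  obtain ⟨h2, h3⟩ := hc
  simp only [not_forall] at h3
  obtain ⟨i, hi, h4⟩ := h3
  exact Set.mem_biUnion (hf.mem_toFinset.2 hi) ⟨h2, h4⟩

/-- apply `LL1` with every `ε' ≤ ε`, `z₀ = z`; `b1_frac_mono` -/
theorem b1_whp_ll {s κ : ℝ} {z : ℂ} (h : LL1 q π s κ) (hb : Bulk q κ z.re) (hz : 0 < z.im) {ε : ℝ} (hε : 0 < ε) :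
    Whp q π fun _ c => b1bad s z c ε ≤ ε := by
  refine ENNReal.tendsto_nhds_zero.2 fun η hη => ?_
  obtain ⟨t, -, h1, h2⟩ := ENNReal.lt_iff_exists_real_btwn.1 hη
  have ht : 0 < t := ENNReal.ofReal_pos.1 h1
  obtain ⟨δ, L₀, hδ, h3⟩ := h (min ε t) z.im (lt_min hε ht)
  filter_upwards [h3 z hz hb, (tendsto_const_div_atTop_nhds_zero_nat L₀).eventually (ge_mem_nhds hz)] with n h4 h5
  refine le_trans (measure_mono fun c hc => ?_) ((h4 z hb (by simp [hδ.le]) hz h5 le_rfl).trans
    ((ENNReal.ofReal_le_ofReal (min_le_right _ _)).trans h2.le))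
  exact ⟨hc.1, (min_le_left _ _).trans_lt ((not_le.1 hc.2).trans_le (b1_frac_mono fun _ ⟨a, b, hab⟩ =>
    ⟨a, b, (min_le_left _ _).trans_lt hab⟩))⟩

/-- the integral over the configurations -/
theorem b1_integral_cfg {V : Type} [Fintype V] [DecidableEq V] {f : Cfg V q → ℝ}
    (hf : ∀ σ, Integrable (fun w => f (σ, w)) (Measure.pi fun _ : V => π))
    (hm : Measurable f) : Integrable f (cfgLaw V q π) ∧
      ∫ c, f c ∂cfgLaw V q π = avg fun σ : Pairing V q => ∫ w, f (σ, w) ∂(Measure.pi fun _ : V => π) := by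
  have hi : Integrable f (cfgLaw V q π) :=
    (integrable_prod_iff hm.aestronglyMeasurable).2 ⟨Eventually.of_forall hf, Integrable.of_finite⟩
  refine ⟨hi, ?_⟩
  rw [cfgLaw, integral_prod _ hi, integral_fintype Integrable.of_finite, avg, Finset.sum_div]
  refine Finset.sum_congr rfl fun σ _ => ?_
  simp [Measure.real, uniformOn_univ, div_eq_inv_mul]

/-- Markov -/
theorem b1_whp_markov {f : ∀ n : ℕ, Cfg (Fin n) q → ℝ} {a : ℕ → ℝ} (ha : ∀ n, 0 < a n) (h0 : ∀ n c, 0 ≤ f n c)
    (hi : ∀ n, Integrable (f n) (cfgLaw (Fin n) q π))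
    (h : Tendsto (fun n => (∫ c, f n c ∂cfgLaw (Fin n) q π) / a n) atTop (𝓝 0)) :
    Whp q π fun n c => f n c ≤ a n := by
  have h1 := ENNReal.tendsto_ofReal h
  rw [ENNReal.ofReal_zero] at h1
  refine tendsto_of_tendsto_of_tendsto_of_le_of_le tendsto_const_nhds h1 (fun _ => zero_le) fun n => ?_
  have : IsFiniteMeasure (cfgLaw (Fin n) q π) := by unfold cfgLaw; infer_instance
  have h2 := mul_meas_ge_le_integral_of_nonneg (Eventually.of_forall (h0 n)) (hi n) (a n)
  refine le_trans (measure_mono (t := {c | a n ≤ f n c}) fun c hc => (not_le.1 hc.2).le) ?_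
  rw [← ofReal_measureReal]
  exact ENNReal.ofReal_le_ofReal (by rwa [le_div_iff₀' (ha n)])

theorem b1_whp_tree (hP : StP3) (R : ℕ) {ε : ℝ} (hε : 0 < ε) : Whp q π fun _ c => b1th c.1 R ≤ ε := by
  obtain ⟨C, hC⟩ := hP q R
  have h1 := fun n => b1_integral_cfg (π := π) (f := fun c : Cfg (Fin n) q => b1th c.1 R)
    (fun σ => integrable_const (b1th σ R)) ((Measurable.of_discrete (f := fun σ : Pairing (Fin n) q => b1th σ R)).comp measurable_fst)
  refine b1_whp_markov (fun _ => hε) (fun _ _ => b1_frac_nonneg _) (fun n => (h1 n).1) ?_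
  have h2 := (tendsto_const_div_atTop_nhds_zero_nat C).div_const ε
  rw [zero_div] at h2
  refine squeeze_zero (fun n => div_nonneg (integral_nonneg fun _ => b1_frac_nonneg _) hε.le) (fun n => ?_) h2
  rw [(h1 n).2]
  have := hC (Fin n)
  simp only [integral_const, probReal_univ, one_smul]
  rw [Fintype.card_fin] at this
  exact div_le_div_of_nonneg_right this hε.le

/-- `integral_prod`, `b1_ind_site`, `b1Ind.integral_Sm`, `b1_cnt`; polynomial / exponential tends to zero -/
theorem b1_whp_lam {C : Type} [Fintype C] (κ : b1Ker C) (φ : (b1PS q r R → C) → ℝ) {ε : ℝ} (hε : 0 < ε) :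
    Whp q π fun n c => b1Lam κ π φ c ≤ Real.exp (ε * n) := by
  have hρ := b1rho_pw κ π r
  have h0 : ∀ (n : ℕ) (c : Cfg (Fin n) q), 0 ≤ b1Lam κ π φ c := fun n c =>
    integral_nonneg fun X => b1Ex_nonneg (κ.pw _) fun _ => (Real.exp_pos _).le
  have hc : ∀ (n : ℕ) (σ : Pairing (Fin n) q), Continuous fun x : (Fin n → II) × (Fin r → Fin n → ℝ) =>
      b1Sm κ (fun col => Real.exp (b1logM (b1rho κ π) φ σ col)) (b1val x.1 x.2) := fun n σ =>
    (b1Sm_continuous κ _).comp b1val_continuous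
  have hi : ∀ (n : ℕ) (σ : Pairing (Fin n) q), Integrable (fun x : (Fin n → II) × (Fin r → Fin n → ℝ) =>
      b1Sm κ (fun col => Real.exp (b1logM (b1rho κ π) φ σ col)) (b1val x.1 x.2))
      ((Measure.pi fun _ => π).prod (gpi2 (Fin r) (Fin n))) := fun n σ => by
    obtain ⟨B, hB⟩ := Finite.exists_le fun col => |Real.exp (b1logM (b1rho κ π) φ σ col)|
    exact Integrable.of_bound (hc n σ).aestronglyMeasurable B (Eventually.of_forall fun x => b1Ex_abs_le (κ.pw _) hB)
  have h1 := fun n => b1_integral_cfg (π := π) (f := fun c : Cfg (Fin n) q => b1Lam κ π φ c)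
    (fun σ => (hi n σ).integral_prod_left) (measurable_from_prod_countable_right fun σ =>
      (hc n σ).stronglyMeasurable.integral_prod_right'.measurable)
  refine b1_whp_markov (fun _ => Real.exp_pos _) h0 (fun n => (h1 n).1) ?_
  set N := Fintype.card (b1PT q r R → C) ^ 2 + 1 with hN
  have h2 := (((isLittleO_pow_exp_pos_mul_atTop N hε).tendsto_div_nhds_zero).comp
    (tendsto_natCast_atTop_atTop (R := ℝ))).const_mul ((Real.exp 1 * (q + 2)) ^ N)
  rw [mul_zero] at h2
  refine squeeze_zero' (Eventually.of_forall fun n => div_nonneg (integral_nonneg (h0 n)) (Real.exp_pos _).le)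
    ((eventually_ge_atTop 1).mono fun n hn => ?_) h2
  rw [(h1 n).2, Function.comp, ← mul_div_assoc, ← mul_pow]
  refine div_le_div_of_nonneg_right (le_trans (le_of_eq_of_le (congrArg avg (funext fun σ => ?_))
    (b1_cnt (V := Fin n) hρ φ)) ?_) (Real.exp_pos _).le
  · exact (integral_prod _ (hi n σ)).symm.trans ((b1_ind_site π (Fin n)).integral_Sm b1val_continuous.measurable κ _)
  · have : (1 : ℝ) ≤ n := by exact_mod_cast hn
    simp only [Fintype.card_prod, Fintype.card_fin, Nat.cast_mul, Nat.cast_add, Nat.cast_one]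
    rw [mul_assoc]
    gcongr
    linarith

end Crest.Agent.R166
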