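import Crest.Agent.R166.B1.Conv
import Crest.Agent.R166.B1.Whp

/-! Row 166, block B1 (owner helper79): the entropy inequality at finite volume. -/

set_option autoImplicit false
set_option linter.unusedSectionVars false

open MeasureTheory ProbabilityTheory Filter Topology Complex
open scoped ENNReal NNReal BigOperators Matrix

noncomputable section

namespace Crest.Agent.R166

variable {q r R : ℕ} {V : Type} [Fintype V] [DecidableEq V] {C : Type} [Fintype C] {s : ℝ} {z : ℂ}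

theorem b1_int_bdd {X : Type} [MeasurableSpace X] {μ : Measure X} [IsFiniteMeasure μ] {f : X → ℝ}
    (hf : Measurable f) {B : ℝ} (hB : ∀ x, |f x| ≤ B) : Integrable f μ :=
  Integrable.of_bound hf.aestronglyMeasurable B (Eventually.of_forall hB)

theorem b1_exists_bd {T : Type} [Finite T] (F : T → ℝ) : ∃ B, 0 ≤ B ∧ ∀ t, |F t| ≤ B := by
  obtain ⟨B, hB⟩ := (Set.finite_range fun t => |F t|).bddAbove
  exact ⟨max B 0, le_max_right _ _, fun t => (hB ⟨t, rfl⟩).trans (le_max_left _ _)⟩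

open scoped MatrixOrder in
theorem b1_msqrt_symm (A : Matrix V V ℝ) : (msqrt A)ᵀ = msqrt A := by
  have := (Matrix.nonneg_iff_posSemidef.1 (CFC.sqrt_nonneg A)).isHermitian
  rwa [Matrix.IsHermitian, Matrix.conjTranspose_eq_transpose_of_trivial] at this

theorem b1_avg_abs_le [Nonempty V] (f : V → ℝ) : (avg fun v => |f v|) ≤ √((∑ v, f v ^ 2) / Fintype.card V) := by
  have hn : (0 : ℝ) < Fintype.card V := by positivity
  refine Real.le_sqrt_of_sq_le ?_
  have := sq_sum_le_card_mul_sum_sq (s := Finset.univ) (f := fun v => |f v|)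
  simp only [sq_abs, Finset.card_univ] at this
  rw [avg, div_pow, div_le_div_iff₀ (by positivity) hn]
  nlinarith

/-- the local average given the noise -/
def b1a (s : ℝ) (z : ℂ) (κ : b1Ker C) (c : Cfg V q) (u : Fin r → V → ℝ) (F : (b1PS q r R → C) → ℝ)
    (W : Fin r → V → ℝ) : ℝ :=
  avg fun h : HE V q => b1Sm κ F (b1valS R (b1loc c (b1X s z c u W) h))

theorem b1X_continuous (c : Cfg V q) (u : Fin r → V → ℝ) : Continuous (b1X s z c u) := by
  unfold b1X; fun_prop

theorem b1a_eq (κ : b1Ker C) (c : Cfg V q) (u : Fin r → V → ℝ) (F : (b1PS q r R → C) → ℝ) (W : Fin r → V → ℝ) :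
    b1a s z κ c u F W =
      avg fun h : HE V q => b1Ex (fun p k => κ.ψ k (b1val c.2 (b1X s z c u W) (b1st c.1 h p))) F := by
  simp only [b1a, b1Sm, b1valS_loc]

theorem b1a_continuous (κ : b1Ker C) (c : Cfg V q) (u : Fin r → V → ℝ) (F : (b1PS q r R → C) → ℝ) :
    Continuous (b1a s z κ c u F) := by
  have h1 : Continuous fun W => b1val c.2 (b1X s z c u W) :=
    b1val_continuous.comp (continuous_const.prodMk (b1X_continuous c u))
  have h2 : ∀ h : HE V q, Continuous fun W => b1Sm κ F (b1valS R (b1loc c (b1X s z c u W) h)) := fun h => by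
    have : (fun W => b1valS R (b1loc c (b1X s z c u W) h)) =
        fun W p => b1val c.2 (b1X s z c u W) (b1st c.1 h p) := by
      ext W p; rw [b1valS_loc]
    exact (b1Sm_continuous κ F).comp (this ▸ continuous_pi fun p => (continuous_apply _).comp h1)
  unfold b1a avg
  fun_prop

theorem b1a_abs_le (κ : b1Ker C) (c : Cfg V q) (u : Fin r → V → ℝ) {F : (b1PS q r R → C) → ℝ} {B : ℝ}
    (hB0 : 0 ≤ B) (hB : ∀ t, |F t| ≤ B) (W : Fin r → V → ℝ) : |b1a s z κ c u F W| ≤ B :=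
  (b1_abs_avg_le _).trans (b1_avg_le hB0 fun _ => b1Ex_abs_le (κ.pw _) hB)

theorem b1a_integrable (κ : b1Ker C) (c : Cfg V q) (u : Fin r → V → ℝ) (F : (b1PS q r R → C) → ℝ) :
    Integrable (b1a s z κ c u F) (gpi2 (Fin r) V) ∧
      Integrable (fun W => b1a s z κ c u F W ^ 2) (gpi2 (Fin r) V) := by
  obtain ⟨B, hB0, hB⟩ := b1_exists_bd F
  have h := b1a_continuous (s := s) (z := z) κ c u F
  refine ⟨b1_int_bdd h.measurable (b1a_abs_le κ c u hB0 hB), b1_int_bdd (h.pow 2).measurable (B := B ^ 2) fun W => ?_⟩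
  rw [abs_pow]
  exact pow_le_pow_left₀ (abs_nonneg _) (b1a_abs_le κ c u hB0 hB W) 2

theorem b1_varA (hE : StE) (s : ℝ) (hz : 0 < z.im) (κ : b1Ker C) (F : (b1PS q r R → C) → ℝ) :
    ∃ D : ℝ, ∀ (V : Type) [Fintype V] [DecidableEq V] [Nonempty V] (c : Cfg V q) (u : Fin r → V → ℝ),
      ∫ W, b1a s z κ c u F W ^ 2 ∂gpi2 (Fin r) V ≤
        (b1A s z c u fun x => b1Sm κ F (b1valS R x)) ^ 2 + D / Fintype.card V := by
  obtain ⟨L, hL, hlip⟩ := b1Sm_lip κ F
  obtain ⟨B, hB0, hB⟩ := b1_exists_bd F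
  refine ⟨6 * (L * Fintype.card (b1PS q r R)) ^ 2 * z.im⁻¹, fun V _ _ _ c u => ?_⟩
  have hn : (0 : ℝ) < Fintype.card V := by positivity
  obtain ⟨hpd, hop, -⟩ := b1_imG hE (b1_Hm_herm s c) hz
  refine (b1_var (L := L * Fintype.card (b1PS q r R) * √(z.im⁻¹ / Fintype.card V)) (by positivity)
    (b1a_abs_le κ c u hB0 hB) fun W W' => ?_).trans_eq ?_
  · rw [b1a, b1a, ← b1_avg_sub]
    refine (b1_abs_avg_le _).trans ((b1_avg_mono fun h => hlip _ _).trans ?_)
    rw [b1_avg_mul, b1_avg_sum, mul_assoc, mul_assoc]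
    refine mul_le_mul_of_nonneg_left ((Finset.sum_le_card_nsmul _ _ _ fun p _ => ?_).trans_eq
      (by rw [nsmul_eq_mul, Finset.card_univ])) hL
    obtain ⟨β, hβ⟩ := b1st_equiv c.1 p
    simp only [b1valS_loc, hβ]
    rw [b1_avg_equiv β fun h => |b1val c.2 (b1X s z c u W) (h.1, b1kS p) - b1val c.2 (b1X s z c u W') (h.1, b1kS p)|,
      b1_avg_fst fun v => |b1val c.2 (b1X s z c u W) (v, b1kS p) - b1val c.2 (b1X s z c u W') (v, b1kS p)|]
    refine (b1_avg_abs_le _).trans ?_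
    rw [← Real.sqrt_mul (by positivity), div_mul_eq_mul_div]
    refine Real.sqrt_le_sqrt (div_le_div_of_nonneg_right ?_ hn.le)
    rcases b1kS p with _ | a
    · simp only [b1val, sub_self]
      simp only [ne_eq, OfNat.ofNat_ne_zero, not_false_eq_true, zero_pow, Finset.sum_const_zero]
      positivity
    · have e : ∑ v, (b1val c.2 (b1X s z c u W) (v, some a) - b1val c.2 (b1X s z c u W') (v, some a)) ^ 2 =
          (W a - W' a) ⬝ᵥ imM (Gr (Hm s c) z) *ᵥ (W a - W' a) := by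
        conv_rhs => rw [← b1_msqrt_mul hpd.posSemidef, ← Matrix.mulVec_mulVec, Matrix.dotProduct_mulVec,
          ← Matrix.mulVec_transpose, b1_msqrt_symm]
        simp only [b1val, b1X, Pi.add_apply, add_sub_add_left_eq_sub, dotProduct, Matrix.mulVec_sub, Pi.sub_apply, sq]
      rw [e]
      refine (hop _).trans (mul_le_mul_of_nonneg_left ?_ (by positivity))
      exact Finset.single_le_sum (f := fun a => ∑ v, (W a v - W' a v) ^ 2)
        (fun _ _ => Finset.sum_nonneg fun _ _ => sq_nonneg _) (Finset.mem_univ a)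
  · rw [mul_pow, Real.sq_sqrt (by positivity)]
    unfold b1A b1a
    ring

/-- the logarithmic density of `p` with respect to the reference law of the edge colours -/
def b1psi (ρ : Option (Fin r) → C → ℝ) (p : (b1PE q r R → C) → ℝ) (t : b1PE q r R → C) : ℝ :=
  Real.log (p t / ∏ x, ρ (b1kE x) (t x))

theorem b1logM_ge [Nonempty V] {ρ : Option (Fin r) → C → ℝ} (hρ : b1Pw ρ) (φ : (b1PS q r R → C) → ℝ)
    {p : (b1PE q r R → C) → ℝ} (hp : ∀ t, 0 < p t) (σ : Pairing V q) (col : V × Option (Fin r) → C) :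
    Fintype.card V * ((avg fun h : HE V q => φ fun x => col (b1st σ h x)) - Real.log (b1Z ρ φ) -
      ((q : ℝ) + 1) / 2 * ((avg fun h : HE V q => b1psi ρ p fun x => col (b1st σ h (b1e x))) +
        ∑ t, (p t)⁻¹ * b1ph σ col t ^ 2 - 1)) ≤ b1logM ρ φ σ col := by
  have hn : (0 : ℝ) < Fintype.card V := by positivity
  have hm : (Fintype.card (HE V q) : ℝ) = Fintype.card V * (q + 1) := by simp
  have h1 : ∀ h : HE V q, Real.log (b1ph (R := R) σ col fun x => col (b1ed σ h x)) -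
      Real.log (∏ x : b1PE q r R, ρ (b1kE x) (col (b1ed σ h x))) ≤ b1psi ρ p (fun x => col (b1ed σ h x)) +
        (∑ t, (p t)⁻¹ * b1ph σ col t * b1ind t (fun x => col (b1st σ h x)) - 1) := by
    intro h
    have h2 : 0 < b1ph (R := R) σ col fun x => col (b1ed σ h x) := by
      refine div_pos (Finset.sum_pos' (fun _ _ => b1ind_nonneg _ _) ⟨h, Finset.mem_univ _, ?_⟩) (by rw [hm]; positivity)
      simp [b1ind, b1st_e]
    have h3 := (hρ.comp (b1kE : b1PE q r R → _)).prod_pos fun x => col (b1ed σ h x)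
    have h4 := hp fun x => col (b1ed σ h x)
    have h5 := Real.log_le_sub_one_of_pos (div_pos h2 h4)
    rw [b1ind_sum fun t => (p t)⁻¹ * b1ph σ col t, b1psi, Real.log_div h4.ne' h3.ne']
    rw [Real.log_div h2.ne' h4.ne', div_eq_inv_mul] at h5
    simp only [b1st_e]
    linarith
  have h2 := Finset.sum_le_sum fun h (_ : h ∈ Finset.univ) => h1 h
  have h3 : ∑ h : HE V q, ∑ t, (p t)⁻¹ * b1ph σ col t * b1ind t (fun x => col (b1st σ h x)) =
      Fintype.card V * (q + 1) * ∑ t, (p t)⁻¹ * b1ph σ col t ^ 2 := by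
    rw [Finset.sum_comm, Finset.mul_sum]
    refine Finset.sum_congr rfl fun t _ => ?_
    rw [← Finset.mul_sum, show ∑ h : HE V q, b1ind t (fun x => col (b1st σ h x)) =
      Fintype.card V * (q + 1) * b1ph σ col t by rw [b1ph, avg, hm]; field_simp]
    ring
  simp only [Finset.sum_sub_distrib, Finset.sum_add_distrib, h3, Finset.sum_const, Finset.card_univ, nsmul_eq_mul,
    hm] at h2
  simp only [b1logM, avg, hm, b1st_e]
  have e : ∀ a b c d : ℝ, Fintype.card V * (a / (Fintype.card V * (q + 1)) - b - ((q : ℝ) + 1) / 2 *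
      (c / (Fintype.card V * (q + 1)) + d - 1)) = a / (q + 1) - Fintype.card V * b -
        1 / 2 * (c + (Fintype.card V * (q + 1) * d - Fintype.card V * (q + 1) * 1)) := by
    intro a b c d; field_simp; ring
  rw [e]
  linarith

theorem b1_int_lin {X T : Type} [MeasurableSpace X] [Fintype T] {μ : Measure X} [IsProbabilityMeasure μ]
    {f g F : X → ℝ} {h : T → X → ℝ} {a : T → ℝ} {n k₁ k₂ d k₃ k₄ k₅ : ℝ} (hf : Integrable f μ) (hg : Integrable g μ)
    (hh : ∀ t, Integrable (h t) μ) (hF : Integrable F μ)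
    (H : ∀ x, n * (f x - k₁ - k₂ - d * (g x + k₃ + ∑ t, a t * (h t x + k₄ + k₅) - 1)) ≤ F x) :
    n * (∫ x, f x ∂μ - k₁ - k₂ - d * (∫ x, g x ∂μ + k₃ + ∑ t, a t * (∫ x, h t x ∂μ + k₄ + k₅) - 1)) ≤
      ∫ x, F x ∂μ := by
  have i3 : ∀ t, Integrable (fun x => a t * (h t x + k₄ + k₅)) μ := fun t => by have := hh t; fun_prop
  have i4 := integrable_finsetSum Finset.univ fun t _ => i3 t
  refine le_trans (le_of_eq ?_) (integral_mono (by fun_prop) hF H)
  rw [integral_const_mul n, integral_sub (by fun_prop) (by fun_prop), integral_sub (by fun_prop) (by fun_prop),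
    integral_sub (by fun_prop) (by fun_prop), integral_const_mul d, integral_sub (by fun_prop) (by fun_prop),
    integral_add (by fun_prop) (by fun_prop), integral_add (by fun_prop) (by fun_prop),
    integral_finsetSum _ fun t _ => i3 t]
  have i5 : ∀ t, ∫ x, a t * (h t x + k₄ + k₅) ∂μ = a t * (∫ x, h t x ∂μ + k₄ + k₅) := fun t => by
    have := hh t
    rw [integral_const_mul, integral_add (by fun_prop) (by fun_prop), integral_add (by fun_prop) (by fun_prop)]
    simp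
  simp [i5]

theorem b1_core (hE : StE) (hz : 0 < z.im) [Nonempty V] (κ : b1Ker C) (π : Measure II) [IsProbabilityMeasure π]
    {φ : (b1PS q r R → C) → ℝ} {p : (b1PE q r R → C) → ℝ} (hp : ∀ t, 0 < p t) {B B' ε : ℝ} (hB : ∀ t, |φ t| ≤ B)
    (hB' : ∀ t, |b1psi (b1rho κ π) p t| ≤ B') (hε : 0 ≤ ε) (c : Cfg V q) (u : Fin r → V → ℝ)
    (hL : b1Lam κ π φ c ≤ Real.exp (ε * Fintype.card V)) :
    (b1A s z c u fun x => b1Sm κ φ (b1valS R x)) - 2 * B * b1th c.1 R - Real.log (b1Z (b1rho κ π) φ) -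
      ((q : ℝ) + 1) / 2 * ((b1A s z c u fun x => b1Sm κ (fun t => b1psi (b1rho κ π) p fun y => t (b1e y)) (b1valS R x)) +
        2 * B' * b1th c.1 R + ∑ t, (p t)⁻¹ * (∫ W, b1a s z κ c u (b1ind t) W ^ 2 ∂gpi2 (Fin r) V +
          2 * b1th c.1 R + (Fintype.card (b1PS q r R) : ℝ) ^ 2 / Fintype.card V) - 1) ≤
      ε + (∑ a, ∑ v, (u a v ^ 2 + imM (Gr (Hm s c) z) v v)) / 2 / Fintype.card V - r / 2 -
        r / 2 * (Real.log (imM (Gr (Hm s c) z)).det / Fintype.card V) := by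
  have hn : (0 : ℝ) < Fintype.card V := by positivity
  have hρ := b1rho_pw κ π r
  obtain ⟨hpd, -, -⟩ := b1_imG hE (b1_Hm_herm s c) hz
  have hS := b1_msqrt_mul hpd.posSemidef
  have hdet : (imM (Gr (Hm s c) z)).det = (msqrt (imM (Gr (Hm s c) z))).det ^ 2 := by
    conv_lhs => rw [← hS, Matrix.det_mul, Matrix.det_transpose, ← sq]
  have hdet0 : (msqrt (imM (Gr (Hm s c) z))).det ≠ 0 := fun e => hpd.det_pos.ne' (by rw [hdet, e]; simp)
  obtain ⟨BM, -, hBM⟩ := b1_exists_bd (b1logM (b1rho κ π) φ c.1)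
  obtain ⟨BE, -, hBE⟩ := b1_exists_bd fun col => Real.exp (b1logM (b1rho κ π) φ c.1 col)
  have hv : Continuous fun X : Fin r → V → ℝ => b1val c.2 X :=
    b1val_continuous.comp (continuous_const.prodMk continuous_id)
  have hF : Continuous fun X => b1Sm κ (b1logM (b1rho κ π) φ c.1) (b1val c.2 X) := (b1Sm_continuous κ _).comp hv
  have hFb : ∀ X, |b1Sm κ (b1logM (b1rho κ π) φ c.1) (b1val c.2 X)| ≤ BM := fun X => b1Ex_abs_le (κ.pw _) hBM
  have g1 := b1_gdv hdet0 u hF hFb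
  have g2 : Real.log (∫ X, Real.exp (b1Sm κ (b1logM (b1rho κ π) φ c.1) (b1val c.2 X)) ∂gpi2 (Fin r) V) ≤
      ε * Fintype.card V := by
    have h0 : 0 ≤ ∫ X, Real.exp (b1Sm κ (b1logM (b1rho κ π) φ c.1) (b1val c.2 X)) ∂gpi2 (Fin r) V :=
      integral_nonneg fun _ => (Real.exp_pos _).le
    rcases h0.eq_or_lt with h0 | h0
    · rw [← h0, Real.log_zero]; positivity
    refine (Real.log_le_iff_le_exp h0).2 (le_trans ?_ hL)
    exact integral_mono_of_nonneg (Eventually.of_forall fun _ => (Real.exp_pos _).le)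
      (b1_int_bdd ((b1Sm_continuous κ _).comp hv).measurable fun X => b1Ex_abs_le (κ.pw _) hBE)
      (Eventually.of_forall fun X => b1Ex_exp (κ.pw _) _)
  have g3 : ∀ W, Fintype.card V * (b1a s z κ c u φ W - 2 * B * b1th c.1 R - Real.log (b1Z (b1rho κ π) φ) -
      ((q : ℝ) + 1) / 2 * (b1a s z κ c u (fun t => b1psi (b1rho κ π) p fun y => t (b1e y)) W + 2 * B' * b1th c.1 R +
        ∑ t, (p t)⁻¹ * (b1a s z κ c u (b1ind t) W ^ 2 + 2 * b1th c.1 R +
          (Fintype.card (b1PS q r R) : ℝ) ^ 2 / Fintype.card V) - 1)) ≤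
      b1Sm κ (b1logM (b1rho κ π) φ c.1) (b1val c.2 (b1X s z c u W)) := by
    intro W
    have hw := κ.pw (b1val c.2 (b1X s z c u W))
    refine le_trans ?_ (b1Ex_mono hw (b1logM_ge hρ φ hp c.1))
    rw [b1Ex_mul, b1Ex_sub, b1Ex_sub, b1Ex_mul, b1Ex_sub, b1Ex_add, b1Ex_sum, b1Ex_const hw, b1Ex_const hw]
    have a1 := abs_le.1 (b1_first hw c.1 hB)
    have a2 := abs_le.1 (b1_first hw c.1 (F := fun t => b1psi (b1rho κ π) p fun y => t (b1e y)) fun _ => hB' _)
    have a3 : ∑ t, b1Ex (fun p k => κ.ψ k (b1val c.2 (b1X s z c u W) p)) (fun col => (p t)⁻¹ * b1ph c.1 col t ^ 2) ≤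
        ∑ t, (p t)⁻¹ * (b1a s z κ c u (b1ind t) W ^ 2 + 2 * b1th c.1 R +
          (Fintype.card (b1PS q r R) : ℝ) ^ 2 / Fintype.card V) := Finset.sum_le_sum fun t _ => by
      rw [b1Ex_mul, b1a_eq]
      exact mul_le_mul_of_nonneg_left (b1_second hw c.1 (b1ind_nonneg t) (b1ind_le_one t)) (inv_pos.2 (hp t)).le
    rw [← b1a_eq] at a1 a2
    refine mul_le_mul_of_nonneg_left ?_ hn.le
    have hq : (0 : ℝ) ≤ ((q : ℝ) + 1) / 2 := by positivity
    nlinarith [mul_le_mul_of_nonneg_left (add_le_add a2.2 a3) hq]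
  have i1 := (b1a_integrable (s := s) (z := z) κ c u φ).1
  have i2 := (b1a_integrable (s := s) (z := z) κ c u fun t => b1psi (b1rho κ π) p fun y => t (b1e y)).1
  have g4 := b1_int_lin i1 i2 (fun t => (b1a_integrable κ c u (b1ind t)).2)
    (b1_int_bdd (hF.comp (b1X_continuous (s := s) (z := z) c u)).measurable fun W => hFb _) g3
  rw [hS, Real.log_abs] at g1
  rw [hdet, Real.log_pow]
  refine le_of_mul_le_mul_left (g4.trans (g1.trans ?_)) hn
  have e : ∀ a b : ℝ, Fintype.card V * (ε + a / 2 / Fintype.card V - r / 2 - r / 2 * ((2 : ℕ) * b / Fintype.card V)) =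
      ε * Fintype.card V + a / 2 - r * Fintype.card V / 2 - r * b := by
    intro a b; push_cast; field_simp
  rw [e]
  linarith

end Crest.Agent.R166
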