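import Crest.Agent.R166.Iface

/-!
# Row 166, block B1 (owner helper79): definitions.  Blueprint: `notes166/B1.md`.  DO NOT EDIT.

Every real value (potential or vector entry) sits at a *site* `V × Option (Fin r)` and gets an independent random
colour in a finite set `C` through a positive Lipschitz kernel `ψ`.
-/

set_option autoImplicit false

open MeasureTheory ProbabilityTheory Filter Topology Complex
open scoped ENNReal NNReal BigOperators Matrix

noncomputable section

namespace Crest.Agent.R166

/-! ## finite product expectations -/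

/-- expectation of `F` when the colours `t p` are independent with weights `w p` -/
def b1Ex {P C : Type} [Fintype P] [DecidableEq P] [Fintype C] (w : P → C → ℝ) (F : (P → C) → ℝ) : ℝ :=
  ∑ t : P → C, (∏ p, w p (t p)) * F t

/-- probability weights -/
def b1Pw {P C : Type} [Fintype C] (w : P → C → ℝ) : Prop := (∀ p c, 0 < w p c) ∧ ∀ p, ∑ c, w p c = 1

/-- a strictly positive Lipschitz colouring kernel -/
structure b1Ker (C : Type) [Fintype C] where
  ψ : C → ℝ → ℝ
  L : ℝ
  pos : ∀ c t, 0 < ψ c t
  sum : ∀ t, ∑ c, ψ c t = 1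
  L_nonneg : 0 ≤ L
  lip : ∀ c t t', |ψ c t - ψ c t'| ≤ L * |t - t'|

/-- the colour average of `F` given the values `y` -/
def b1Sm {P C : Type} [Fintype P] [DecidableEq P] [Fintype C] (κ : b1Ker C) (F : (P → C) → ℝ) (y : P → ℝ) : ℝ :=
  b1Ex (fun p c => κ.ψ c (y p)) F

/-- the reference law of a site -/
def b1nu (π : Measure II) {r : ℕ} : Option (Fin r) → Measure ℝ
  | none => π.map Subtype.val
  | some _ => gaussianReal 0 1

/-- the reference law of the colour of a site -/
def b1rho {C : Type} [Fintype C] (κ : b1Ker C) (π : Measure II) {r : ℕ} (o : Option (Fin r)) (c : C) : ℝ :=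
  ∫ t, κ.ψ c t ∂b1nu π o

/-- the coordinates `y · p` are independent with laws `ν p` -/
def b1Ind {Ω P : Type} [MeasurableSpace Ω] [Fintype P] (μ : Measure Ω) (y : Ω → P → ℝ) (ν : P → Measure ℝ) : Prop :=
  ∀ g : P → ℝ → ℝ, (∀ p, Continuous (g p)) → (∀ p t, |g p t| ≤ 1) →
    ∫ x, ∏ p, g p (y x p) ∂μ = ∏ p, ∫ t, g p t ∂ν p

/-! ## positions -/

/-- words of length `≤ R` -/
abbrev b1L (q R : ℕ) : Type := {l : List (Fin q) // l.length ≤ R}

instance (q R : ℕ) : Fintype (b1L q R) := (List.finite_length_le (Fin q) R).fintype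

/-- positions of the type of a half-edge: depth-`R` view and the vector entries at its vertex -/
abbrev b1PT (q r R : ℕ) : Type := b1L q R ⊕ Fin r

/-- positions of a star -/
abbrev b1PS (q r R : ℕ) : Type := Option (Fin r) ⊕ Fin (q + 1) × b1PT q r R

/-- positions of an edge -/
abbrev b1PE (q r R : ℕ) : Type := b1PT q r R ⊕ b1PT q r R

section
variable {q r R : ℕ}

/-- kinds of positions -/
def b1kT : b1PT q r R → Option (Fin r) := Sum.elim (fun _ => none) some
def b1kS : b1PS q r R → Option (Fin r) := Sum.elim id fun x => b1kT x.2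
def b1kE : b1PE q r R → Option (Fin r) := Sum.elim b1kT b1kT

/-- the own type of the base half-edge, read on the star -/
def b1own : b1PT q r R → b1PS q r R
  | .inl ⟨[], _⟩ => .inl none
  | .inl ⟨j :: l, hl⟩ => .inr (j.succ, .inl ⟨l, (Nat.le_succ _).trans hl⟩)
  | .inr a => .inl (some a)

/-- the base edge inside the star -/
def b1e : b1PE q r R → b1PS q r R := Sum.elim b1own fun p => .inr (0, p)

/-- values of a star state -/
def b1valS (R : ℕ) (x : SState q r) : b1PS q r R → ℝ
  | .inl none => x.1.1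
  | .inl (some a) => x.2 a none
  | .inr (k, .inl l) => x.1.2 k l.1
  | .inr (k, .inr a) => x.2 a (some k)

/-- values of an edge state -/
def b1valE (R : ℕ) (x : EState q r) : b1PE q r R → ℝ
  | .inl (.inl l) => x.1.1 l.1
  | .inl (.inr a) => x.2 a 0
  | .inr (.inl l) => x.1.2 l.1
  | .inr (.inr a) => x.2 a 1

/-- a star state with prescribed values -/
def b1build (y : b1PS q r R → ℝ) : SState q r :=
  ((Set.projIcc (-1) 1 (by norm_num) (y (.inl none)), fun k l =>
      if h : l.length ≤ R then Set.projIcc (-1) 1 (by norm_num) (y (.inr (k, .inl ⟨l, h⟩))) else II0),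
    fun a o => o.elim (y (.inl (some a))) fun k => y (.inr (k, .inr a)))

open Classical in
/-- indicator that the base edge has the colours `t` -/
def b1ind {C : Type} (t : b1PE q r R → C) (s : b1PS q r R → C) : ℝ := if (fun p => s (b1e p)) = t then 1 else 0

variable {V : Type} [Fintype V] [DecidableEq V]

/-- sites of the type of `h` -/
def b1ty (σ : Pairing V q) (h : HE V q) : b1PT q r R → V × Option (Fin r)
  | .inl l => ((walk σ h l.1).1, none)
  | .inr a => (h.1, some a)

/-- sites of the star of `h` -/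
def b1st (σ : Pairing V q) (h : HE V q) : b1PS q r R → V × Option (Fin r)
  | .inl o => (h.1, o)
  | .inr (k, p) => b1ty σ (σ (rot h k)) p

/-- sites of the edge of `h` -/
def b1ed (σ : Pairing V q) (h : HE V q) : b1PE q r R → V × Option (Fin r) := Sum.elim (b1ty σ h) (b1ty σ (σ h))

/-- values at the sites -/
def b1val (w : V → II) (X : Fin r → V → ℝ) : V × Option (Fin r) → ℝ
  | (v, none) => w v
  | (v, some a) => X a v

/-- the star state at `h` -/
def b1loc (c : Cfg V q) (X : Fin r → V → ℝ) (h : HE V q) : SState q r := (sview c h, fun a o => X a (sp c.1 h o))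

/-- fraction of the half-edges whose neighbourhood is not a tree -/
def b1th (σ : Pairing V q) (R : ℕ) : ℝ := frac fun h : HE V q => ¬ TreeLike σ R h

variable {C : Type} [Fintype C]

/-- empirical law of the edge colours -/
def b1ph (σ : Pairing V q) (col : V × Option (Fin r) → C) (t : b1PE q r R → C) : ℝ :=
  avg fun h : HE V q => b1ind t fun p => col (b1st σ h p)

/-- normalisation of the star tilt -/
def b1Z (ρ : Option (Fin r) → C → ℝ) (φ : (b1PS q r R → C) → ℝ) : ℝ :=
  b1Ex (fun p => ρ (b1kS p)) fun s => Real.exp (φ s)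

/-- logarithm of the likelihood ratio of the planted model -/
def b1logM (ρ : Option (Fin r) → C → ℝ) (φ : (b1PS q r R → C) → ℝ) (σ : Pairing V q)
    (col : V × Option (Fin r) → C) : ℝ :=
  -(1 / 2) * ∑ h : HE V q, Real.log (b1ph (R := R) σ col fun p => col (b1ed σ h p)) +
    1 / 2 * ∑ h : HE V q, Real.log (∏ p : b1PE q r R, ρ (b1kE p) (col (b1ed σ h p))) +
    (∑ h : HE V q, φ fun p => col (b1st σ h p)) / (q + 1) - Fintype.card V * Real.log (b1Z ρ φ)

/-- the likelihood ratio, averaged over Gaussian vectors and colours -/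
def b1Lam (κ : b1Ker C) (π : Measure II) (φ : (b1PS q r R → C) → ℝ) (c : Cfg V q) : ℝ :=
  ∫ X, b1Sm κ (fun col => Real.exp (b1logM (b1rho κ π) φ c.1 col)) (b1val c.2 X) ∂gpi2 (Fin r) V

/-- the noised vectors -/
def b1X (s : ℝ) (z : ℂ) (c : Cfg V q) (u W : Fin r → V → ℝ) : Fin r → V → ℝ :=
  fun a => u a + msqrt (imM (Gr (Hm s c) z)) *ᵥ W a

/-- averaged local statistics of the noised vectors -/
def b1A (s : ℝ) (z : ℂ) (c : Cfg V q) (u : Fin r → V → ℝ) (f : SState q r → ℝ) : ℝ :=
  ∫ W, avg (fun h : HE V q => f (b1loc c (b1X s z c u W) h)) ∂gpi2 (Fin r) V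

/-- fraction of the stars where the local law fails -/
def b1bad (s : ℝ) (z : ℂ) (c : Cfg V q) (ε : ℝ) : ℝ :=
  frac fun h : HE V q => ∃ a b, ε < ‖Gr (Hm s c) z (sp c.1 h a) (sp c.1 h b) - GS s z (sview c h) a b‖

end

/-- a sequence of configurations and bounded vectors along which the local law holds -/
structure b1Seq (q r : ℕ) (s : ℝ) (z : ℂ) (K : ℝ) (n : ℕ → ℕ) (c : ∀ j, Cfg (Fin (n j)) q)
    (u : ∀ j, Fin r → Fin (n j) → ℝ) (P : ProbabilityMeasure (SState q r)) : Prop where
  top : Tendsto n atTop atTop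
  bdd : ∀ j a v, |u j a v| ≤ K
  lim : ∃ μ : ℕ → ProbabilityMeasure (SState q r), (∀ j, (μ j : Measure (SState q r)) = empS (c j) (u j)) ∧
    Tendsto μ atTop (𝓝 P)
  ll : ∀ ε : ℝ, 0 < ε → ∀ᶠ j in atTop, b1bad s z (c j) ε ≤ ε

end Crest.Agent.R166
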