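import Crest.Agent.R166.B1.Defs

/-! Row 166, block B1 (owner helper79): averages and finite product expectations. -/

set_option autoImplicit false
set_option linter.unusedSectionVars false

open MeasureTheory ProbabilityTheory Filter Topology Complex
open scoped ENNReal NNReal BigOperators Matrix

noncomputable section

namespace Crest.Agent.R166

/-! ### part a: averages -/

section
variable {ι : Type} [Fintype ι] {f g : ι → ℝ}

theorem b1_avg_add (f g : ι → ℝ) : (avg fun i => f i + g i) = avg f + avg g := by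
  simp [avg, Finset.sum_add_distrib, add_div]

theorem b1_avg_sub (f g : ι → ℝ) : (avg fun i => f i - g i) = avg f - avg g := by
  simp [avg, Finset.sum_sub_distrib, sub_div]

theorem b1_avg_mul (a : ℝ) (f : ι → ℝ) : (avg fun i => a * f i) = a * avg f := by
  simp [avg, ← Finset.mul_sum, mul_div_assoc]

theorem b1_avg_mono (h : ∀ i, f i ≤ g i) : avg f ≤ avg g :=
  div_le_div_of_nonneg_right (Finset.sum_le_sum fun i _ => h i) (Nat.cast_nonneg _)

theorem b1_avg_nonneg (h : ∀ i, 0 ≤ f i) : 0 ≤ avg f :=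
  div_nonneg (Finset.sum_nonneg fun i _ => h i) (Nat.cast_nonneg _)

theorem b1_avg_const [Nonempty ι] (a : ℝ) : (avg fun _ : ι => a) = a := by
  simp [avg]

theorem b1_avg_le {B : ℝ} (hB : 0 ≤ B) (h : ∀ i, f i ≤ B) : avg f ≤ B := by
  cases isEmpty_or_nonempty ι
  · simpa [avg] using hB
  · exact (b1_avg_mono h).trans_eq (b1_avg_const B)

theorem b1_abs_avg_le (f : ι → ℝ) : |avg f| ≤ avg fun i => |f i| := by
  rw [avg, avg, abs_div, Nat.abs_cast]
  exact div_le_div_of_nonneg_right (Finset.abs_sum_le_sum_abs _ _) (Nat.cast_nonneg _)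

theorem b1_avg_sum {κ : Type} (s : Finset κ) (F : κ → ι → ℝ) :
    (avg fun i => ∑ k ∈ s, F k i) = ∑ k ∈ s, avg (F k) := by
  simp only [avg, ← Finset.sum_div]; rw [Finset.sum_comm]

theorem b1_avg_equiv (e : ι ≃ ι) (f : ι → ℝ) : (avg fun i => f (e i)) = avg f := by
  rw [avg, avg, Equiv.sum_comp e f]

theorem b1_avg_fst {V : Type} [Fintype V] {q : ℕ} (f : V → ℝ) : (avg fun h : HE V q => f h.1) = avg f := by
  simp only [avg, Fintype.sum_prod_type, Finset.sum_const, Finset.card_univ, Fintype.card_fin, nsmul_eq_mul,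
    Fintype.card_prod, Nat.cast_mul, ← Finset.mul_sum]
  rw [mul_comm (Fintype.card V : ℝ), mul_div_mul_left _ _ (by positivity)]

theorem b1_frac_nonneg (p : ι → Prop) : 0 ≤ frac p :=
  b1_avg_nonneg fun i => by split_ifs <;> norm_num

theorem b1_frac_le_one (p : ι → Prop) : frac p ≤ 1 :=
  b1_avg_le zero_le_one fun i => by split_ifs <;> norm_num

theorem b1_frac_mono {p p' : ι → Prop} (h : ∀ i, p i → p' i) : frac p ≤ frac p' :=
  b1_avg_mono fun i => by
    by_cases h1 : p i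
    · simp [h1, h i h1]
    · simp only [h1, if_false]; split_ifs <;> norm_num

/-- two families which are `ε`-close off a bad set -/
theorem b1_avg_close {p : ι → Prop} {ε B : ℝ} (hε : 0 ≤ ε) (h : ∀ i, ¬ p i → |f i - g i| ≤ ε)
    (h' : ∀ i, |f i - g i| ≤ B) : |avg f - avg g| ≤ ε + B * frac p := by
  classical
  rw [← b1_avg_sub]
  refine (b1_abs_avg_le _).trans ((b1_avg_mono (g := fun i => ε + B * if p i then 1 else 0) fun i => ?_).trans ?_)
  · split_ifs with hi
    · linarith [h' i]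
    · simpa using h i hi
  · rw [b1_avg_add, b1_avg_mul]
    exact add_le_add (b1_avg_le hε fun _ => le_rfl) (le_of_eq (by unfold frac; congr))

theorem b1_integral_emp {X : Type} [MeasurableSpace X] (x : ι → X) {F : X → ℝ} (hF : StronglyMeasurable F) :
    ∫ y, F y ∂emp x = avg fun i => F (x i) := by
  rw [emp, integral_smul_measure, integral_finsetSum_measure fun i _ => integrable_dirac' hF (by simp)]
  simp [integral_dirac' _ _ hF, avg, div_eq_inv_mul]

end

/-! ### part b: product expectations -/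

variable {P P' C : Type} [Fintype P] [DecidableEq P] [Fintype P'] [DecidableEq P'] [Fintype C]
  {w : P → C → ℝ} {F G : (P → C) → ℝ}

theorem b1Pw.comp (hw : b1Pw w) (ι : P' → P) : b1Pw fun p => w (ι p) := ⟨fun _ _ => hw.1 _ _, fun _ => hw.2 _⟩

theorem b1Pw.prod_pos (hw : b1Pw w) (t : P → C) : 0 < ∏ p, w p (t p) := Finset.prod_pos fun _ _ => hw.1 _ _

/-- `Finset.prod_univ_sum` -/
theorem b1Pw.sum_prod (hw : b1Pw w) : ∑ t : P → C, ∏ p, w p (t p) = 1 := by
  rw [← Fintype.piFinset_univ, ← Finset.prod_univ_sum]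
  simp [hw.2]

theorem b1Ex_const (hw : b1Pw w) (a : ℝ) : b1Ex w (fun _ => a) = a := by
  rw [b1Ex, ← Finset.sum_mul, hw.sum_prod, one_mul]

theorem b1Ex_mono (hw : b1Pw w) (h : ∀ t, F t ≤ G t) : b1Ex w F ≤ b1Ex w G := by
  exact Finset.sum_le_sum fun t _ => mul_le_mul_of_nonneg_left (h t) (hw.prod_pos t).le

theorem b1Ex_add (w : P → C → ℝ) (F G : (P → C) → ℝ) : b1Ex w (fun t => F t + G t) = b1Ex w F + b1Ex w G := by
  simp only [b1Ex, mul_add, Finset.sum_add_distrib]

theorem b1Ex_sub (w : P → C → ℝ) (F G : (P → C) → ℝ) : b1Ex w (fun t => F t - G t) = b1Ex w F - b1Ex w G := by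
  simp only [b1Ex, mul_sub, Finset.sum_sub_distrib]

theorem b1Ex_mul (w : P → C → ℝ) (a : ℝ) (F : (P → C) → ℝ) : b1Ex w (fun t => a * F t) = a * b1Ex w F := by
  simp only [b1Ex, Finset.mul_sum, mul_left_comm a]

theorem b1Ex_sum (w : P → C → ℝ) {ι : Type} (s : Finset ι) (F : ι → (P → C) → ℝ) :
    b1Ex w (fun t => ∑ i ∈ s, F i t) = ∑ i ∈ s, b1Ex w (F i) := by
  simp only [b1Ex, Finset.mul_sum]
  exact Finset.sum_comm

theorem b1Ex_avg (w : P → C → ℝ) {ι : Type} [Fintype ι] (F : ι → (P → C) → ℝ) :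
    b1Ex w (fun t => avg fun i => F i t) = avg fun i => b1Ex w (F i) := by
  simp only [avg, div_eq_inv_mul, b1Ex_mul, b1Ex_sum]

theorem b1Ex_abs_le (hw : b1Pw w) {B : ℝ} (h : ∀ t, |F t| ≤ B) : |b1Ex w F| ≤ B := by
  exact abs_le.2 ⟨(b1Ex_const hw _).symm.trans_le (b1Ex_mono hw fun t => (abs_le.1 (h t)).1),
    (b1Ex_mono hw fun t => (abs_le.1 (h t)).2).trans_eq (b1Ex_const hw _)⟩

theorem b1Ex_nonneg (hw : b1Pw w) (h : ∀ t, 0 ≤ F t) : 0 ≤ b1Ex w F := by
  exact (b1Ex_const hw _).symm.trans_le (b1Ex_mono hw h)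

/-- some `t` exists because the weights sum to `1` -/
theorem b1Ex_pos (hw : b1Pw w) {t₀ : P → C} (h₀ : 0 < F t₀) (h : ∀ t, 0 ≤ F t) : 0 < b1Ex w F := by
  exact Finset.sum_pos' (fun t _ => mul_nonneg (hw.prod_pos t).le (h t))
    ⟨t₀, Finset.mem_univ _, mul_pos (hw.prod_pos _) h₀⟩

/-- Jensen (`convexOn_exp.map_sum_le`) -/
theorem b1Ex_exp (hw : b1Pw w) (F : (P → C) → ℝ) : Real.exp (b1Ex w F) ≤ b1Ex w fun t => Real.exp (F t) := by
  exact convexOn_exp.map_sum_le (t := Finset.univ) (w := fun t : P → C => ∏ p, w p (t p)) (p := F)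
    (fun t _ => (hw.prod_pos t).le) hw.sum_prod fun _ _ => trivial

theorem b1Ex_exp_pos (hw : b1Pw w) (F : (P → C) → ℝ) : 0 < b1Ex w fun t => Real.exp (F t) :=
  (Real.exp_pos _).trans_le (b1Ex_exp hw F)

theorem b1Ex_elim (w : P → C → ℝ) (w' : P' → C → ℝ) (F : (P → C) → ℝ) (F' : (P' → C) → ℝ) :
    b1Ex (Sum.elim w w') (fun t => F (fun p => t (.inl p)) * F' fun p => t (.inr p)) = b1Ex w F * b1Ex w' F' := by
  simp only [b1Ex]
  rw [Finset.sum_mul_sum, ← Fintype.sum_prod_type', ← (Equiv.sumArrowEquivProdArrow P P' C).sum_comp]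
  refine Finset.sum_congr rfl fun t _ => ?_
  rw [Fintype.prod_sum_type, mul_mul_mul_comm]
  rfl

theorem b1Ex_equiv (w : P → C → ℝ) (e : P' ≃ P) (F : (P' → C) → ℝ) :
    b1Ex w (fun t => F fun p => t (e p)) = b1Ex (fun p => w (e p)) F := by
  refine Fintype.sum_equiv (e.symm.arrowCongr (Equiv.refl C)) _ _ fun t => ?_
  rw [← e.prod_comp]
  rfl

/-- marginals: `P ≃ P' ⊕ (range ι)ᶜ` (`Equiv.ofInjective`, `Equiv.sumCompl`), `b1Ex_equiv`, `b1Ex_elim` -/
theorem b1Ex_comp (hw : b1Pw w) {ι : P' → P} (hι : Function.Injective ι) (F : (P' → C) → ℝ) :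
    b1Ex w (fun t => F fun p => t (ι p)) = b1Ex (fun p => w (ι p)) F := by
  classical
  let e : P' ⊕ {p // p ∉ Set.range ι} ≃ P :=
    ((Equiv.ofInjective ι hι).sumCongr (Equiv.refl _)).trans (Equiv.sumCompl fun p => p ∈ Set.range ι)
  have h1 := b1Ex_equiv w e fun t => F (fun p => t (.inl p)) * 1
  have h2 := b1Ex_elim (fun p => w (ι p)) (fun p : {p // p ∉ Set.range ι} => w p) F fun _ => 1
  have h3 : (fun p => w (e p)) = Sum.elim (fun p => w (ι p)) fun p : {p // p ∉ Set.range ι} => w p := by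
    funext p; cases p <;> rfl
  rw [h3, h2, b1Ex_const (hw.comp _), mul_one] at h1
  simp only [mul_one] at h1
  exact h1

/-- independence of disjoint blocks: `b1Ex_comp` for `Sum.elim ι ι'` -/
theorem b1Ex_two (hw : b1Pw w) {ι ι' : P' → P} (hι : Function.Injective ι) (hι' : Function.Injective ι')
    (hd : ∀ p p', ι p ≠ ι' p') (F F' : (P' → C) → ℝ) :
    b1Ex w (fun t => F (fun p => t (ι p)) * F' fun p => t (ι' p)) =
      b1Ex (fun p => w (ι p)) F * b1Ex (fun p => w (ι' p)) F' := by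
  have h1 := b1Ex_comp hw (hι.sumElim hι' hd) fun t => F (fun p => t (.inl p)) * F' fun p => t (.inr p)
  have h3 : (fun p => w (Sum.elim ι ι' p)) = Sum.elim (fun p => w (ι p)) fun p => w (ι' p) := by
    funext p; cases p <;> rfl
  rw [h3, b1Ex_elim] at h1
  exact h1

/-! ### part c: kernels -/

theorem b1Ker.pw (κ : b1Ker C) (y : P → ℝ) : b1Pw fun p c => κ.ψ c (y p) := ⟨fun _ _ => κ.pos _ _, fun _ => κ.sum _⟩

theorem b1Ker.le_one (κ : b1Ker C) (c : C) (t : ℝ) : κ.ψ c t ≤ 1 := by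
  exact (Finset.single_le_sum (fun c _ => (κ.pos c t).le) (Finset.mem_univ c)).trans_eq (κ.sum t)

theorem b1Ker.continuous (κ : b1Ker C) (c : C) : Continuous (κ.ψ c) := by
  refine (LipschitzWith.of_dist_le_mul (K := ⟨κ.L, κ.L_nonneg⟩) fun t t' => ?_).continuous
  exact κ.lip c t t'

theorem b1Sm_continuous (κ : b1Ker C) (F : (P → C) → ℝ) : Continuous (b1Sm κ F) := by
  refine continuous_finsetSum _ fun t _ => Continuous.mul (continuous_finsetProd _ fun p _ => ?_) continuous_const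
  exact (κ.continuous _).comp (continuous_apply p)

theorem b1_prod_sub {ι : Type} (s : Finset ι) {a b : ι → ℝ} (ha : ∀ i, |a i| ≤ 1) (hb : ∀ i, |b i| ≤ 1) :
    |∏ i ∈ s, a i - ∏ i ∈ s, b i| ≤ ∑ i ∈ s, |a i - b i| := by
  classical
  induction s using Finset.induction_on with
  | empty => simp
  | insert i s hi ih =>
    rw [Finset.prod_insert hi, Finset.prod_insert hi, Finset.sum_insert hi]
    have h1 : |∏ i ∈ s, a i| ≤ 1 := by
      rw [Finset.abs_prod]; exact Finset.prod_le_one (fun _ _ => abs_nonneg _) fun i _ => ha i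
    have e : a i * ∏ i ∈ s, a i - b i * ∏ i ∈ s, b i =
        (a i - b i) * ∏ i ∈ s, a i + b i * (∏ i ∈ s, a i - ∏ i ∈ s, b i) := by ring
    rw [e]
    refine (abs_add_le _ _).trans (add_le_add ?_ ?_) <;> rw [abs_mul]
    · exact mul_le_of_le_one_right (abs_nonneg _) h1
    · exact (mul_le_of_le_one_left (abs_nonneg _) (hb i)).trans ih

/-- `|∏ a - ∏ b| ≤ ∑ |a - b|` for factors in `[0,1]` -/
theorem b1Sm_lip (κ : b1Ker C) (F : (P → C) → ℝ) :
    ∃ L : ℝ, 0 ≤ L ∧ ∀ y y', |b1Sm κ F y - b1Sm κ F y'| ≤ L * ∑ p, |y p - y' p| := by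
  have hL := κ.L_nonneg
  refine ⟨(∑ t, |F t|) * κ.L, by positivity, fun y y' => ?_⟩
  have h1 : ∀ c t, |κ.ψ c t| ≤ 1 := fun c t => by rw [abs_of_pos (κ.pos c t)]; exact κ.le_one c t
  rw [b1Sm, b1Sm, b1Ex, b1Ex, ← Finset.sum_sub_distrib, mul_assoc, Finset.sum_mul]
  refine (Finset.abs_sum_le_sum_abs _ _).trans (Finset.sum_le_sum fun t _ => ?_)
  rw [← sub_mul, abs_mul, mul_comm, Finset.mul_sum]
  exact mul_le_mul_of_nonneg_left ((b1_prod_sub _ (fun _ => h1 _ _) fun _ => h1 _ _).trans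
    (Finset.sum_le_sum fun p _ => κ.lip _ _ _)) (abs_nonneg _)

theorem b1Ker.abs_le (κ : b1Ker C) (c : C) (t : ℝ) : |κ.ψ c t| ≤ 1 := by
  rw [abs_of_pos (κ.pos c t)]; exact κ.le_one c t

theorem b1Ker.integrable (κ : b1Ker C) (c : C) (ν : Measure ℝ) [IsFiniteMeasure ν] : Integrable (κ.ψ c) ν :=
  Integrable.of_bound (κ.continuous c).aestronglyMeasurable 1 (Eventually.of_forall (κ.abs_le c))

instance b1nu_prob (π : Measure II) [IsProbabilityMeasure π] {r : ℕ} (o : Option (Fin r)) :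
    IsProbabilityMeasure (b1nu π o) := by
  cases o
  · exact Measure.isProbabilityMeasure_map measurable_subtype_coe.aemeasurable
  · exact inferInstanceAs (IsProbabilityMeasure (gaussianReal 0 1))

theorem b1rho_pw (κ : b1Ker C) (π : Measure II) [IsProbabilityMeasure π] (r : ℕ) :
    b1Pw (b1rho κ π : Option (Fin r) → C → ℝ) := by
  refine ⟨fun o c => ?_, fun o => ?_⟩
  · refine (integral_pos_iff_support_of_nonneg (fun t => (κ.pos c t).le) (κ.integrable c _)).2 ?_
    rw [Function.support_eq_univ fun t => (κ.pos c t).ne']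
    simp
  · simp only [b1rho]
    rw [← integral_finsetSum _ fun c _ => κ.integrable c _]
    simp [κ.sum]

theorem b1Ind.integral_Sm {Ω : Type} [MeasurableSpace Ω] {μ : Measure Ω} [IsProbabilityMeasure μ] {y : Ω → P → ℝ}
    {ν : P → Measure ℝ} (h : b1Ind μ y ν) (hy : Measurable y) (κ : b1Ker C) (F : (P → C) → ℝ) :
    ∫ x, b1Sm κ F (y x) ∂μ = b1Ex (fun p c => ∫ t, κ.ψ c t ∂ν p) F := by
  simp only [b1Sm, b1Ex]
  have hi : ∀ t : P → C, Integrable (fun x => ∏ p, κ.ψ (t p) (y x p)) μ := fun t => by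
    refine Integrable.of_bound (Finset.measurable_prod _ fun p _ => (κ.continuous _).measurable.comp
      ((measurable_pi_apply p).comp hy)).aestronglyMeasurable 1 (Eventually.of_forall fun x => ?_)
    rw [Real.norm_eq_abs, Finset.abs_prod]
    exact Finset.prod_le_one (fun _ _ => abs_nonneg _) fun _ _ => κ.abs_le _ _
  rw [integral_finsetSum _ fun t _ => (hi t).mul_const _]
  refine Finset.sum_congr rfl fun t _ => ?_
  rw [integral_mul_const, h (fun p => κ.ψ (t p)) (fun p => κ.continuous _) fun p => κ.abs_le _]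

end Crest.Agent.R166
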