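import Crest.Agent.R166.B1.Ex
import Crest.Agent.R164.GConc
import Crest.Agent.R164.IBP

/-! Row 166, block B1 (owner helper79): Gaussian vectors. -/

set_option autoImplicit false
set_option linter.unusedSectionVars false

open MeasureTheory ProbabilityTheory Filter Topology Complex
open scoped ENNReal NNReal BigOperators Matrix

noncomputable section

namespace Crest.Agent.R166

variable {ι κ κ' V : Type} [Fintype ι] [Fintype κ] [Fintype κ'] [Fintype V] {r : ℕ}

theorem b1_meas_mulVec (M : Matrix ι κ ℝ) : Measurable fun z : κ → ℝ => M *ᵥ z := by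
  refine measurable_pi_lambda _ fun i => ?_
  simp only [Matrix.mulVec, dotProduct]
  fun_prop

theorem b1_gm_char (M : Matrix ι κ ℝ) (l : ι → ℝ) :
    ∫ z, Complex.exp (((∑ i, l i * (M *ᵥ z) i : ℝ) : ℂ) * I) ∂gpi κ =
      Complex.exp (-(((l ⬝ᵥ (M * Mᵀ) *ᵥ l : ℝ) : ℂ) / 2)) := by
  have h1 : ∀ z : κ → ℝ, ∑ i, l i * (M *ᵥ z) i = ∑ j, (l ᵥ* M) j * z j := fun z =>
    Matrix.dotProduct_mulVec l M z
  have h2 : ∑ j, (l ᵥ* M) j ^ 2 = l ⬝ᵥ (M * Mᵀ) *ᵥ l := by
    have := Matrix.dotProduct_mulVec l M (l ᵥ* M)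
    rw [← Matrix.mulVec_mulVec, Matrix.mulVec_transpose, this]
    simp only [dotProduct, sq]
  simp only [h1]
  rw [R164.ibp_char, h2]

theorem b1_gm1 (M : Matrix ι κ ℝ) (M' : Matrix ι κ' ℝ) (h : M * Mᵀ = M' * M'ᵀ) :
    (gpi κ).map (fun z => M *ᵥ z) = (gpi κ').map fun z => M' *ᵥ z := by
  classical
  refine Measure.ext_of_charFunDual ?_
  funext T
  set l : ι → ℝ := fun i => T (Pi.single i 1) with hl
  have hT : ∀ z, T z = ∑ i, l i * z i := fun z => by
    conv_lhs => rw [← Finset.univ_sum_single z, map_sum]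
    refine Finset.sum_congr rfl fun i _ => ?_
    rw [mul_comm, ← smul_eq_mul, hl, ← map_smul, ← Pi.single_smul, smul_eq_mul, mul_one]
  rw [charFunDual_apply, charFunDual_apply, integral_map (b1_meas_mulVec M).aemeasurable (by fun_prop),
    integral_map (b1_meas_mulVec M').aemeasurable (by fun_prop)]
  simp only [hT]
  rw [b1_gm_char, b1_gm_char, h]

theorem b1_mp_row (M : Matrix ι κ ℝ) (i : ι) :
    MeasurePreserving (fun z : κ → ℝ => (M *ᵥ z) i) (gpi κ) (gaussianReal 0 ((M * Mᵀ) i i).toNNReal) := by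
  classical
  have hm : Measurable fun z : κ → ℝ => (M *ᵥ z) i := (measurable_pi_apply i).comp (b1_meas_mulVec M)
  have h0 : 0 ≤ (M * Mᵀ) i i := Finset.sum_nonneg fun k _ => mul_self_nonneg (M i k)
  refine ⟨hm, Measure.ext_of_charFun (funext fun t => ?_)⟩
  have := b1_gm_char M (Pi.single i t)
  simp only [Pi.single_apply, ite_mul, zero_mul, Finset.sum_ite_eq', Finset.mem_univ, if_true,
    single_dotProduct, Matrix.mulVec_single] at this
  rw [charFun_gaussianReal, charFun_apply_real, integral_map hm.aemeasurable (by fun_prop), Real.coe_toNNReal _ h0]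
  simp only [Complex.ofReal_mul] at this
  rw [this]
  congr 1
  simp
  ring

theorem b1_sq1 (M : Matrix ι κ ℝ) (u : ℝ) (i : ι) :
    Integrable (fun z : κ → ℝ => (u + (M *ᵥ z) i) ^ 2) (gpi κ) ∧
      ∫ z, (u + (M *ᵥ z) i) ^ 2 ∂gpi κ = u ^ 2 + (M * Mᵀ) i i := by
  have h := b1_mp_row M i
  have h0 : 0 ≤ (M * Mᵀ) i i := Finset.sum_nonneg fun k _ => mul_self_nonneg (M i k)
  set v := ((M * Mᵀ) i i).toNNReal with hv
  have hc : Continuous fun x : ℝ => (u + x) ^ 2 := by fun_prop
  have h2 : MemLp (fun x : ℝ => x) 2 (gaussianReal 0 v) := memLp_id_gaussianReal 2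
  have h1 : Integrable (fun x : ℝ => x) (gaussianReal 0 v) := h2.integrable one_le_two
  refine ⟨(h.integrable_comp hc.aestronglyMeasurable).2 ((memLp_const u).add h2).integrable_sq, ?_⟩
  rw [← integral_map h.measurable.aemeasurable hc.aestronglyMeasurable, h.map_eq]
  have h3 : ∫ x, x ^ 2 ∂gaussianReal 0 v = v := by
    have := variance_fun_id_gaussianReal (μ := 0) (v := v)
    rw [variance_eq_sub h2] at this
    simpa using this
  have e : (fun x : ℝ => (u + x) ^ 2) = fun x => (u ^ 2 + 2 * u * x) + x ^ 2 := by funext x; ring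
  have h4 : Integrable (fun x : ℝ => u ^ 2 + 2 * u * x) (gaussianReal 0 v) := (integrable_const _).add (h1.const_mul _)
  rw [e, integral_add h4 h2.integrable_sq,
    integral_add (integrable_const _) (h1.const_mul _), integral_const_mul, h3, hv, Real.coe_toNNReal _ h0]
  simp

/-- Gauss-a.  Characteristic functions (`Crest.Agent.R164.ibp_char`, copy the proof of
`Crest.Agent.R164.measurePreserving_gpi_mulVec`), then `Measure.pi_map_pi`. -/
theorem b1_gm (r : ℕ) (M : Matrix ι κ ℝ) (M' : Matrix ι κ' ℝ) (h : M * Mᵀ = M' * M'ᵀ) :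
    (gpi2 (Fin r) κ).map (fun W a => M *ᵥ W a) = (gpi2 (Fin r) κ').map fun W a => M' *ᵥ W a := by
  unfold gpi2
  rw [Measure.pi_map_pi (fun _ => (b1_meas_mulVec M).aemeasurable),
    Measure.pi_map_pi (fun _ => (b1_meas_mulVec M').aemeasurable)]
  simp only [b1_gm1 M M' h]

/-- Gauss-a.  Second moments. -/
theorem b1_sq (M : Matrix ι κ ℝ) (u : ℝ) (i : ι) (a : Fin r) :
    Integrable (fun W : Fin r → κ → ℝ => (u + (M *ᵥ W a) i) ^ 2) (gpi2 (Fin r) κ) ∧
      ∫ W, (u + (M *ᵥ W a) i) ^ 2 ∂gpi2 (Fin r) κ = u ^ 2 + (M * Mᵀ) i i := by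
  have h : MeasurePreserving (fun W : Fin r → κ → ℝ => W a) (gpi2 (Fin r) κ) (gpi κ) :=
    measurePreserving_eval (fun _ : Fin r => gpi κ) a
  have h1 := b1_sq1 M u i
  refine ⟨(h.integrable_comp h1.1.aestronglyMeasurable).2 h1.1, ?_⟩
  rw [← h1.2, ← h.map_eq, integral_map h.measurable.aemeasurable (by rw [h.map_eq]; exact h1.1.aestronglyMeasurable)]

/-- Gauss-a.  Currying. -/
theorem b1_curry (r : ℕ) (V : Type) [Fintype V] :
    MeasurePreserving (fun (x : Fin r × V → ℝ) a v => x (a, v)) (gpi (Fin r × V)) (gpi2 (Fin r) V) := by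
  refine ⟨by fun_prop, ?_⟩
  have := Measure.infinitePi_map_curry (fun (_ : Fin r) (_ : V) => gaussianReal 0 1)
  simp only [Measure.infinitePi_eq_pi] at this
  exact this

theorem b1_sq_le_exp (y : ℝ) : y ^ 2 ≤ Real.exp y + Real.exp (-y) := by
  have h : ∀ x : ℝ, 0 ≤ x → x ^ 2 ≤ Real.exp x := fun x hx => by
    have := Real.sum_le_exp_of_nonneg hx 4
    simp only [Finset.sum_range_succ, Finset.sum_range_zero, Nat.factorial] at this
    norm_num at this
    nlinarith [mul_nonneg hx (sq_nonneg (x - 2)), sq_nonneg (x - 1)]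
  rcases le_total 0 y with hy | hy
  · linarith [h y hy, Real.exp_pos (-y)]
  · have := h (-y) (by linarith)
    rw [neg_sq] at this
    linarith [Real.exp_pos y]

/-- Gauss-a.  `Crest.Agent.R164.gauss_mgf` with `t = ± 1/L`, `y² ≤ e^y + e^{-y}`. -/
theorem b1_var {f : (Fin r → V → ℝ) → ℝ} {L B : ℝ} (hL : 0 ≤ L) (hB : ∀ x, |f x| ≤ B)
    (hf : ∀ x y, |f x - f y| ≤ L * √(∑ a, ∑ v, (x a v - y a v) ^ 2)) :
    ∫ W, f W ^ 2 ∂gpi2 (Fin r) V ≤ (∫ W, f W ∂gpi2 (Fin r) V) ^ 2 + 6 * L ^ 2 := by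
  rcases hL.eq_or_lt with rfl | hL'
  · have : f = fun _ => f 0 := funext fun x => by
      have := hf x 0
      rw [zero_mul, abs_nonpos_iff, sub_eq_zero] at this
      exact this
    rw [this]; simp
  have hc := b1_curry r V
  set g : (Fin r × V → ℝ) → ℝ := fun x => f fun a v => x (a, v) with hg
  have hg' : ∀ x y, |g x - g y| ≤ L * √(∑ p, (x p - y p) ^ 2) := fun x y => by
    rw [Fintype.sum_prod_type]; exact hf _ _
  have hgc : Continuous g := R164.GConc_cont hg'
  have hfc : Continuous f := by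
    have : f = fun W => g fun p => W p.1 p.2 := rfl
    rw [this]; fun_prop
  rw [← hc.map_eq, integral_map (f := fun W => f W ^ 2) hc.measurable.aemeasurable (hfc.pow 2).aestronglyMeasurable,
    integral_map hc.measurable.aemeasurable hfc.aestronglyMeasurable]
  change ∫ x, g x ^ 2 ∂_ ≤ (∫ x, g x ∂_) ^ 2 + _
  set m := ∫ x, g x ∂gpi (Fin r × V) with hm
  obtain ⟨i1, i2, i3⟩ := R164.gauss_mgf hL hg' L⁻¹
  obtain ⟨-, i4, i5⟩ := R164.gauss_mgf hL hg' (-L⁻¹)
  have e1 : L⁻¹ ^ 2 * L ^ 2 = 1 := by field_simp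
  rw [neg_sq] at i5
  rw [e1] at i3 i5
  have hmem : MemLp g 2 (gpi (Fin r × V)) :=
    MemLp.of_bound hgc.aestronglyMeasurable B (Eventually.of_forall fun x => hB _)
  have h1 : ∫ x, g x ^ 2 ∂gpi (Fin r × V) - m ^ 2 = ∫ x, (g x - m) ^ 2 ∂gpi (Fin r × V) := by
    have := variance_eq_sub hmem
    rw [variance_eq_integral hgc.aemeasurable] at this
    exact this.symm
  have h2 : ∫ x, (g x - m) ^ 2 ∂gpi (Fin r × V) ≤
      ∫ x, L ^ 2 * (Real.exp (L⁻¹ * (g x - m)) + Real.exp (-L⁻¹ * (g x - m))) ∂gpi (Fin r × V) := by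
    refine integral_mono_of_nonneg (Eventually.of_forall fun x => sq_nonneg _) ((i2.add i4).const_mul _)
      (Eventually.of_forall fun x => ?_)
    have := mul_le_mul_of_nonneg_left (b1_sq_le_exp (L⁻¹ * (g x - m))) (sq_nonneg L)
    rw [mul_pow, ← mul_assoc, mul_comm (L ^ 2), e1, one_mul, ← neg_mul] at this
    exact this
  rw [integral_const_mul, integral_add i2 i4] at h2
  have h3 := Real.exp_one_lt_d9
  nlinarith [sq_nonneg L]

theorem b1_gdv1 [DecidableEq ι] {S : Matrix ι ι ℝ} (hS : S.det ≠ 0) (u : ι → ℝ) {F : (ι → ℝ) → ℝ}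
    (hF : Continuous F) {B : ℝ} (hB : ∀ x, |F x| ≤ B) :
    ∫ W, F (u + S *ᵥ W) ∂gpi ι ≤ Real.log (∫ X, Real.exp (F X) ∂gpi ι) +
      (∑ i, (u i ^ 2 + (S * Sᵀ) i i)) / 2 - Fintype.card ι / 2 - Real.log |S.det| := by
  have hT : Continuous fun W : ι → ℝ => u + S *ᵥ W := by fun_prop
  set G : (ι → ℝ) → ℝ := fun W =>
    F (u + S *ᵥ W) - (∑ i, (u i + (S *ᵥ W) i) ^ 2) / 2 + (∑ i, W i ^ 2) / 2 + Real.log |S.det| with hG
  have hGc : Continuous G := by
    have := hF.comp hT
    simp only [hG]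
    refine ((Continuous.sub this ?_).add (by fun_prop)).add continuous_const
    fun_prop
  have hd : 0 < |S.det| := abs_pos.2 hS
  have key : ∫⁻ X, ENNReal.ofReal (Real.exp (F X)) ∂gpi ι = ∫⁻ W, ENNReal.ofReal (Real.exp (G W)) ∂gpi ι := by
    have m1 : Measurable fun X => ENNReal.ofReal (Real.exp (F X)) := hF.rexp.measurable.ennreal_ofReal
    have m2 : Measurable fun X => ENNReal.ofReal (Real.exp (G X)) := hGc.rexp.measurable.ennreal_ofReal
    simp only [gpi, R164.GConc_gpi_eq]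
    rw [lintegral_withDensity_eq_lintegral_mul _ R164.GConc_rho_meas m1,
      lintegral_withDensity_eq_lintegral_mul _ R164.GConc_rho_meas m2]
    set g := R164.GConc_rho * fun X : ι → ℝ => ENNReal.ofReal (Real.exp (F X)) with hg
    have mg : Measurable g := R164.GConc_rho_meas.mul m1
    have e1 : (R164.GConc_rho * fun X : ι → ℝ => ENNReal.ofReal (Real.exp (G X))) =
        fun W => ENNReal.ofReal |S.det| * g (u + Matrix.toLin' S W) := by
      funext W
      simp only [hg, Pi.mul_apply, R164.GConc_rho_eq, Matrix.toLin'_apply]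
      rw [← ENNReal.ofReal_mul (by positivity), ← ENNReal.ofReal_mul (by positivity),
        ← ENNReal.ofReal_mul (by positivity)]
      congr 1
      simp only [hG, Pi.add_apply, neg_div, sub_eq_add_neg, Real.exp_add, Real.exp_log hd, Real.exp_neg]
      field_simp
    have m3 : Measurable fun X => g (u + X) := mg.comp (measurable_const_add u)
    have m4 : Measurable (Matrix.toLin' S) := b1_meas_mulVec S
    have m5 : Measurable fun W => g (u + Matrix.toLin' S W) := m3.comp m4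
    rw [e1, lintegral_const_mul _ m5, ← lintegral_map m3 m4, Real.map_matrix_volume_pi_eq_smul_volume_pi hS,
      lintegral_smul_measure, lintegral_add_left_eq_self, smul_eq_mul, ← mul_assoc, ← ENNReal.ofReal_mul hd.le,
      abs_inv, mul_inv_cancel₀ hd.ne', ENNReal.ofReal_one, one_mul]
  have iF : Integrable (fun X => Real.exp (F X)) (gpi ι) :=
    Integrable.of_bound hF.rexp.aestronglyMeasurable (Real.exp B) (Eventually.of_forall fun x => by
      rw [Real.norm_eq_abs, abs_of_pos (Real.exp_pos _)]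
      exact Real.exp_le_exp.2 ((le_abs_self _).trans (hB x)))
  have iG : Integrable (fun X => Real.exp (G X)) (gpi ι) := by
    rw [← lintegral_ofReal_ne_top_iff_integrable hGc.rexp.aestronglyMeasurable
      (Eventually.of_forall fun x => (Real.exp_pos _).le), ← key]
    exact (lintegral_ofReal_ne_top_iff_integrable hF.rexp.aestronglyMeasurable
      (Eventually.of_forall fun x => (Real.exp_pos _).le)).2 iF
  have e2 : ∫ X, Real.exp (F X) ∂gpi ι = ∫ X, Real.exp (G X) ∂gpi ι := by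
    rw [integral_eq_lintegral_of_nonneg_ae (Eventually.of_forall fun x => (Real.exp_pos _).le) iF.1,
      integral_eq_lintegral_of_nonneg_ae (Eventually.of_forall fun x => (Real.exp_pos _).le) iG.1, key]
  have j1 : Integrable (fun W => F (u + S *ᵥ W)) (gpi ι) :=
    Integrable.of_bound (hF.comp hT).aestronglyMeasurable B (Eventually.of_forall fun x => hB _)
  have j2 : Integrable (fun W => (∑ i, (u i + (S *ᵥ W) i) ^ 2) / 2) (gpi ι) :=
    (integrable_finsetSum _ fun i _ => (b1_sq1 S (u i) i).1).div_const _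
  have s1 := fun i => b1_sq1 (1 : Matrix ι ι ℝ) 0 i
  simp only [Matrix.one_mulVec, zero_add, Matrix.transpose_one, mul_one, Matrix.one_apply_eq, ne_eq,
    OfNat.ofNat_ne_zero, not_false_eq_true, zero_pow] at s1
  have j3 : Integrable (fun W : ι → ℝ => (∑ i, W i ^ 2) / 2) (gpi ι) :=
    (integrable_finsetSum _ fun i _ => (s1 i).1).div_const _
  have j4 : Integrable (fun W => F (u + S *ᵥ W) - (∑ i, (u i + (S *ᵥ W) i) ^ 2) / 2) (gpi ι) := j1.sub j2
  have j5 : Integrable (fun W => F (u + S *ᵥ W) - (∑ i, (u i + (S *ᵥ W) i) ^ 2) / 2 + (∑ i, W i ^ 2) / 2) (gpi ι) :=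
    j4.add j3
  have jG : Integrable G (gpi ι) := j5.add (integrable_const _)
  have e3 : ∫ W, G W ∂gpi ι = ∫ W, F (u + S *ᵥ W) ∂gpi ι - (∑ i, (u i ^ 2 + (S * Sᵀ) i i)) / 2 +
      Fintype.card ι / 2 + Real.log |S.det| := by
    simp only [hG]
    rw [integral_add j5 (integrable_const _), integral_add j4 j3, integral_sub j1 j2,
      integral_div, integral_div, integral_finsetSum _ fun i _ => (b1_sq1 S (u i) i).1,
      integral_finsetSum _ fun i _ => (s1 i).1]
    simp only [(b1_sq1 S _ _).2, (s1 _).2]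
    simp
  have jen : Real.exp (∫ W, G W ∂gpi ι) ≤ ∫ X, Real.exp (G X) ∂gpi ι :=
    convexOn_exp.map_integral_le Real.continuous_exp.continuousOn isClosed_univ
      (Eventually.of_forall fun _ => trivial) jG iG
  have := Real.log_le_log (Real.exp_pos _) jen
  rw [Real.log_exp, ← e2, e3] at this
  linarith

/-- Gauss-b.  Gibbs' inequality for a Gaussian vector.  With the density `l` of `gpi2` (`GConc_gpi_eq`, `GConc_rho_eq`, `b1_curry`)
and the change of variables `X = u + S W` (determinant `S.det ^ r`):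
`∫ exp F dγ = ∫ exp (F (u + S W) - |u + S W|²/2 + |W|²/2 + r log |det S|) dγ(W) ≥ exp (∫ ...)` by Jensen; `b1_sq`. -/
theorem b1_gdv [DecidableEq V] {S : Matrix V V ℝ} (hS : S.det ≠ 0) (u : Fin r → V → ℝ) {F : (Fin r → V → ℝ) → ℝ}
    (hF : Continuous F) {B : ℝ} (hB : ∀ x, |F x| ≤ B) :
    ∫ W, F (fun a => u a + S *ᵥ W a) ∂gpi2 (Fin r) V ≤ Real.log (∫ X, Real.exp (F X) ∂gpi2 (Fin r) V) +
      (∑ a, ∑ v, (u a v ^ 2 + (S * Sᵀ) v v)) / 2 - r * Fintype.card V / 2 - r * Real.log |S.det| := by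
  have hc := b1_curry r V
  set S' : Matrix (Fin r × V) (Fin r × V) ℝ := Matrix.kroneckerMap (· * ·) (1 : Matrix (Fin r) (Fin r) ℝ) S with hS'
  have hd : S'.det = S.det ^ r := by
    rw [hS', Matrix.det_kronecker]; simp
  have h1 := b1_gdv1 (S := S') (by rw [hd]; exact pow_ne_zero _ hS) (fun p => u p.1 p.2)
    (F := fun x => F fun a v => x (a, v)) (by fun_prop) fun x => hB _
  have e1 : ∀ (W : Fin r × V → ℝ) a v, (S' *ᵥ W) (a, v) = (S *ᵥ fun v => W (a, v)) v := fun W a v => by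
    simp [hS', Matrix.mulVec, dotProduct, Fintype.sum_prod_type, Matrix.one_apply]
  have e2 : ∀ a v, (S' * S'ᵀ) (a, v) (a, v) = (S * Sᵀ) v v := fun a v => by
    simp [hS', Matrix.mul_apply, Fintype.sum_prod_type, Matrix.one_apply]
  have hT : Continuous fun (W : Fin r → V → ℝ) a => u a + S *ᵥ W a := by fun_prop
  rw [← hc.map_eq, integral_map (f := fun W => F fun a => u a + S *ᵥ W a) hc.measurable.aemeasurable
    (hF.comp hT).aestronglyMeasurable,
    integral_map hc.measurable.aemeasurable hF.rexp.aestronglyMeasurable]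
  simp only [Pi.add_apply, e1, Fintype.sum_prod_type, e2, hd, abs_pow, Real.log_pow, Fintype.card_prod,
    Fintype.card_fin, Nat.cast_mul] at h1
  exact h1

end Crest.Agent.R166
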