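import Crest.Agent.R166.B1.Ex

/-! Row 166, block B1 (owner helper79): a family of kernels which is an approximate identity. -/

set_option autoImplicit false
set_option linter.unusedSectionVars false

open MeasureTheory ProbabilityTheory Filter Topology Complex
open scoped ENNReal NNReal BigOperators Matrix

noncomputable section

namespace Crest.Agent.R166

/-- the colours concentrate near the true value -/
def b1Conc {N : ℕ → ℕ} (κ : ∀ k, b1Ker (Fin (N k))) (rep : ∀ k, Fin (N k) → ℝ) : Prop :=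
  ∀ t δ : ℝ, 0 < δ → Tendsto (fun k => ∑ c, if δ < |rep k c - t| then (κ k).ψ c t else 0) atTop (𝓝 0)

/-- normalising a bounded Lipschitz family -/
def b1mk {C : Type} [Fintype C] [Nonempty C] (g : C → ℝ → ℝ) {m M L : ℝ} (hm : 0 < m) (hL : 0 ≤ L)
    (h1 : ∀ c t, m ≤ g c t) (h2 : ∀ c t, g c t ≤ M) (h3 : ∀ c t t', |g c t - g c t'| ≤ L * |t - t'|) : b1Ker C where
  ψ c t := g c t / ∑ c, g c t
  L := L / m + M * (Fintype.card C * L) / m ^ 2
  pos c t := div_pos (hm.trans_le (h1 c t)) (Finset.sum_pos (fun c _ => hm.trans_le (h1 c t)) Finset.univ_nonempty)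
  sum t := by
    rw [← Finset.sum_div, div_self (Finset.sum_pos (fun c _ => hm.trans_le (h1 c t)) Finset.univ_nonempty).ne']
  L_nonneg := by
    have : 0 ≤ M := (hm.le.trans (h1 (Classical.arbitrary C) 0)).trans (h2 _ _)
    positivity
  lip c t t' := by
    have hS : ∀ t, m ≤ ∑ c, g c t := fun t =>
      (h1 c t).trans (Finset.single_le_sum (fun c _ => hm.le.trans (h1 c t)) (Finset.mem_univ c))
    have h4 : |∑ c, g c t' - ∑ c, g c t| ≤ Fintype.card C * L * |t - t'| := by
      rw [← Finset.sum_sub_distrib, mul_assoc, ← nsmul_eq_mul]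
      exact (Finset.abs_sum_le_sum_abs _ _).trans (Finset.sum_le_card_nsmul _ _ _ fun c _ => by
        rw [abs_sub_comm]; exact h3 c t t')
    have p1 := hm.trans_le (hS t)
    have p2 := hm.trans_le (hS t')
    have p3 := hm.trans_le (h1 c t')
    have p4 := p3.trans_le (h2 c t')
    have e : g c t / ∑ c, g c t - g c t' / ∑ c, g c t' = (g c t - g c t') / ∑ c, g c t +
        g c t' * (∑ c, g c t' - ∑ c, g c t) / ((∑ c, g c t) * ∑ c, g c t') := by field_simp; ring
    rw [e, add_mul, div_mul_eq_mul_div, div_mul_eq_mul_div, mul_assoc M, sq]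
    refine (abs_add_le _ _).trans (add_le_add ?_ ?_)
    · rw [abs_div, abs_of_pos p1]
      gcongr
      exacts [h3 c t t', hS t]
    · rw [abs_div, abs_mul, abs_of_pos p3, abs_of_pos (mul_pos p1 p2)]
      gcongr
      exacts [h2 c t', hS t, hS t']

/-- Any construction is fine.  Suggestion: grid `rep k c = c/(k+1) - (k+1)`, `c < N k = 2(k+1)² + 1`,
`g c t = max (1/(N k * (k+1))) (2 - (k+1) |t - rep k c|)` (positive, Lipschitz, bounded by `2`, bounded below), `ψ c t = g c t / ∑ g`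
(a quotient of bounded Lipschitz functions with denominator bounded below).  For `|t| ≤ k+1` some `g c t ≥ 1`, and for
`2/(k+1) ≤ δ` the far colours have `g = 1/(N (k+1))`, total `≤ 1/(k+1)`. -/
theorem b1_exists_ker : ∃ (N : ℕ → ℕ) (κ : ∀ k, b1Ker (Fin (N k))) (rep : ∀ k, Fin (N k) → ℝ), b1Conc κ rep := by
  set N : ℕ → ℕ := fun k => 2 * (k + 1) ^ 2 + 1 with hN
  set rep : ∀ k, Fin (N k) → ℝ := fun k c => (c : ℕ) / ((k : ℝ) + 1) - (k + 1) with hrep
  set η : ℕ → ℝ := fun k => 1 / (N k * ((k : ℝ) + 1)) with hη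
  have hN1 : ∀ k, (1 : ℝ) ≤ N k := fun k => by exact_mod_cast Nat.le_add_left 1 _
  have hη0 : ∀ k, 0 < η k := fun k => by have := hN1 k; positivity
  have hη2 : ∀ k, η k ≤ 2 := fun k => by
    have := hN1 k
    rw [hη, div_le_iff₀ (by positivity)]
    nlinarith [k.cast_nonneg (α := ℝ)]
  set g : ∀ k, Fin (N k) → ℝ → ℝ := fun k c t => max (2 - (k + 1) * |rep k c - t|) (η k) with hg
  have hlip : ∀ k c t t', |g k c t - g k c t'| ≤ (k + 1) * |t - t'| := fun k c t t' => by
    refine (abs_max_sub_max_le_abs _ _ _).trans ?_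
    rw [sub_sub_sub_cancel_left, ← mul_sub, abs_mul, abs_of_pos (by positivity : (0 : ℝ) < k + 1)]
    refine mul_le_mul_of_nonneg_left ((abs_abs_sub_abs_le_abs_sub _ _).trans_eq ?_) (by positivity)
    rw [sub_sub_sub_cancel_left]
  refine ⟨N, fun k => b1mk (g k) (M := 2) (hη0 k) (by positivity) (fun _ _ => le_max_right _ _)
    (fun c t => max_le (sub_le_self _ (by positivity)) (hη2 k)) (hlip k), rep, fun t δ hδ => ?_⟩
  refine squeeze_zero' (Eventually.of_forall fun k => Finset.sum_nonneg fun c _ => ?_) ?_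
    tendsto_one_div_add_atTop_nhds_zero_nat
  · split_ifs
    · exact (b1Ker.pos _ _ _).le
    · exact le_rfl
  filter_upwards [tendsto_natCast_atTop_atTop.eventually_ge_atTop |t|,
    tendsto_natCast_atTop_atTop.eventually_ge_atTop (2 / δ)] with k h1 h2
  have hK : (0 : ℝ) < k + 1 := by positivity
  have h3 := abs_le.1 h1
  have h4 : 0 ≤ (t + (k + 1)) * (k + 1) := mul_nonneg (by linarith) hK.le
  have h5 : ⌊(t + (k + 1)) * (k + 1)⌋₊ < N k := by
    rw [Nat.floor_lt h4, hN]
    push_cast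
    nlinarith
  have h6 : 1 ≤ ∑ c, g k c t := by
    refine le_trans ?_ (Finset.single_le_sum (fun c _ => (hη0 k).le.trans (le_max_right _ _)) (Finset.mem_univ ⟨_, h5⟩))
    refine le_trans ?_ (le_max_left _ _)
    have a1 := Nat.floor_le h4
    have a2 := Nat.lt_floor_add_one ((t + (k + 1)) * (k + 1))
    have : ((k : ℝ) + 1) * |rep k ⟨_, h5⟩ - t| ≤ 1 := by
      have e : ∀ x : ℝ, ((k : ℝ) + 1) * |x| = |(k + 1) * x| := fun x => by rw [abs_mul, abs_of_pos hK]
      simp only [e, hrep, mul_sub, mul_div_cancel₀ _ hK.ne']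
      exact abs_le.2 ⟨by linarith, by linarith⟩
    linarith
  refine (Finset.sum_le_card_nsmul _ _ (η k) fun c _ => ?_).trans_eq ?_
  · split_ifs with h
    · refine (div_le_self ((hη0 k).le.trans (le_max_right _ _)) h6).trans (max_le ?_ le_rfl)
      rw [div_le_iff₀ hδ] at h2
      nlinarith [hη0 k]
    · exact (hη0 k).le
  · have := hN1 k
    simp only [Finset.card_univ, Fintype.card_fin, nsmul_eq_mul, hη]
    field_simp

theorem b1Ex_one {P C : Type} [Fintype P] [DecidableEq P] [Fintype C] {w : P → C → ℝ} (hw : b1Pw w) (p : P)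
    (G : C → ℝ) : b1Ex w (fun t => G (t p)) = ∑ c, w p c * G c := by
  refine (b1Ex_comp hw (ι := fun _ : Unit => p) (fun _ _ _ => rfl) fun t => G (t ())).trans ?_
  exact Fintype.sum_equiv (Equiv.funUnique Unit C) _ _ fun t => by simp

/-- Continuity of `f` at `y` gives `δ`; union bound over the positions (`b1Ex_comp` with `P' = Unit`, or
`Finset.prod_univ_sum`): `|Sm - f y| ≤ δ k + ε + 2 B ∑ p, far mass at (y p)`. -/
theorem b1Sm_tendsto {N : ℕ → ℕ} {κ : ∀ k, b1Ker (Fin (N k))} {rep : ∀ k, Fin (N k) → ℝ} (h : b1Conc κ rep)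
    {P : Type} [Fintype P] [DecidableEq P] {f : (P → ℝ) → ℝ} (hf : Continuous f) {B : ℝ} (hB : ∀ y, |f y| ≤ B)
    {F : ∀ k, (P → Fin (N k)) → ℝ} {δ : ℕ → ℝ} (hδ : Tendsto δ atTop (𝓝 0))
    (hF : ∀ k t, |F k t - f fun p => rep k (t p)| ≤ δ k) (y : P → ℝ) :
    Tendsto (fun k => b1Sm (κ k) (F k) y) atTop (𝓝 (f y)) := by
  refine Metric.tendsto_nhds.2 fun ε hε => ?_
  obtain ⟨η, hη, hf'⟩ := Metric.continuous_iff.1 hf y (ε / 2) (half_pos hε)
  have h1 := hδ.add ((tendsto_finsetSum Finset.univ fun p _ => h (y p) (η / 2) (half_pos hη)).const_mul (2 * B))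
  simp only [Finset.sum_const_zero, mul_zero, add_zero] at h1
  filter_upwards [h1.eventually (gt_mem_nhds (half_pos hε))] with k hk
  have hw := (κ k).pw y
  have h2 : ∀ t, |F k t - f y| ≤ δ k + ε / 2 + 2 * B * ∑ p, if η / 2 < |rep k (t p) - y p| then 1 else 0 := by
    intro t
    have hB0 : 0 ≤ B := (abs_nonneg _).trans (hB y)
    have h0 : ∀ p, (0 : ℝ) ≤ if η / 2 < |rep k (t p) - y p| then 1 else 0 := fun p => by split_ifs <;> norm_num
    refine (abs_sub_le _ _ _).trans ((add_le_add (hF k t) ?_).trans_eq (add_assoc _ _ _).symm)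
    by_cases hp : ∃ p, η / 2 < |rep k (t p) - y p|
    · obtain ⟨p, hp⟩ := hp
      have := Finset.single_le_sum (fun p _ => h0 p) (Finset.mem_univ p)
      rw [if_pos hp] at this
      have a1 := hB y
      have a2 := hB fun p => rep k (t p)
      have a3 := abs_sub (f fun p => rep k (t p)) (f y)
      nlinarith
    · have := hf' (fun p => rep k (t p)) ((dist_pi_lt_iff hη).2 fun p =>
        (not_lt.1 fun e => hp ⟨p, e⟩).trans_lt (half_lt_self hη))
      exact this.le.trans (le_add_of_nonneg_right (mul_nonneg (by positivity) (Finset.sum_nonneg fun p _ => h0 p)))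
  have h3 : b1Ex (fun p c => (κ k).ψ c (y p)) (fun t => δ k + ε / 2 + 2 * B * ∑ p,
      if η / 2 < |rep k (t p) - y p| then 1 else 0) = δ k + ε / 2 + 2 * B * ∑ p, ∑ c,
        if η / 2 < |rep k c - y p| then (κ k).ψ c (y p) else 0 := by
    rw [b1Ex_add, b1Ex_const hw, b1Ex_mul, b1Ex_sum]
    congr 2
    refine Finset.sum_congr rfl fun p _ => (b1Ex_one hw p fun c => if η / 2 < |rep k c - y p| then 1 else 0).trans ?_
    simp
  have h4 := b1Ex_mono hw fun t => (abs_le.1 (h2 t)).2
  have h5 := b1Ex_mono hw fun t => (neg_le.1 (abs_le.1 (h2 t)).1)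
  simp only [neg_sub] at h5
  rw [h3, b1Ex_sub, b1Ex_const hw] at h4 h5
  rw [Real.dist_eq, abs_lt]
  unfold b1Sm
  constructor <;> linarith

end Crest.Agent.R166
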