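import Crest.Agent.R166.B1.Core
import Crest.Agent.R166.B1.Ker

/-! Row 166, block B1 (owner helper79): passage to the limit. -/

set_option autoImplicit false
set_option linter.unusedSectionVars false

open MeasureTheory ProbabilityTheory Filter Topology Complex
open scoped ENNReal NNReal BigOperators Matrix

noncomputable section

namespace Crest.Agent.R166

variable {q r R : ℕ} {C : Type} [Fintype C] {s : ℝ} {z : ℂ} {K : ℝ} {n : ℕ → ℕ} {c : ∀ j, Cfg (Fin (n j)) q}
  {u : ∀ j, Fin r → Fin (n j) → ℝ} {P : ProbabilityMeasure (SState q r)}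

theorem b1_step (hE : StE) (hT : StT0) (hs : 0 ≤ s) (hs' : s ≤ 1) (hz : 0 < z.im) (π : Measure II)
    [IsProbabilityMeasure π] (h : b1Seq q r s z K n c u P)
    (hLD : Tendsto (fun j => Real.log (imM (Gr (Hm s (c j)) z)).det / n j) atTop (𝓝 (hBethe q π s z)))
    (hth : Tendsto (fun j => b1th (c j).1 R) atTop (𝓝 0)) (κ : b1Ker C) (φ : (b1PS q r R → C) → ℝ)
    (hL : ∀ ε : ℝ, 0 < ε → ∀ᶠ j in atTop, b1Lam κ π φ (c j) ≤ Real.exp (ε * n j)) {a : ℝ}
    (ha : ∀ ψ : EState q r → ℝ, Measurable ψ → (∃ B, ∀ x, |ψ x| ≤ B) →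
      nInt ((P : Measure (SState q r)).map (edgeOf 0)) (fun e => imM (GE s z e)) ψ -
        Real.log (∫ x, Real.exp (ψ x) ∂(edgeLaw q π).prod (gpi2 (Fin r) (Fin 2))) ≤ a) :
    nInt (P : Measure (SState q r)) (fun e => imM (GS s z e)) (fun x => b1Sm κ φ (b1valS R x)) -
      Real.log (b1Z (b1rho κ π) φ) ≤
      ((q : ℝ) + 1) / 2 * a - r / 2 * (Real.log (2 * Real.pi * Real.exp 1) + hBethe q π s z) +
        nInt (P : Measure (SState q r)) (fun e => imM (GS s z e))
          (fun x => ∑ a, (Real.log (2 * Real.pi) / 2 + x.2 a none ^ 2 / 2)) := by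
  obtain ⟨Q, hQ, hN⟩ := b1_exists_Q hT hs hs' hz (P : Measure (SState q r))
  have hρ := b1rho_pw κ π r
  have hc : ∀ F : (b1PS q r R → C) → ℝ, Continuous fun x : SState q r => b1Sm κ F (b1valS R x) := fun F =>
    (b1Sm_continuous κ F).comp b1valS_continuous
  have hb : ∀ {F : (b1PS q r R → C) → ℝ} {B : ℝ}, (∀ t, |F t| ≤ B) → ∀ x : SState q r,
      |b1Sm κ F (b1valS R x)| ≤ B := fun hB x => b1Ex_abs_le (κ.pw _) hB
  have hi1 : ∀ (t : b1PE q r R → C) s', |b1ind t s'| ≤ 1 := fun t s' => by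
    rw [abs_of_nonneg (b1ind_nonneg _ _)]; exact b1ind_le_one _ _
  set p : (b1PE q r R → C) → ℝ := fun t => nInt (P : Measure (SState q r)) (fun e => imM (GS s z e))
    fun x => b1Sm κ (b1ind t) (b1valS R x) with hpd
  have hp' : ∀ t, p t = ∫ x, b1Sm κ (b1ind t) (b1valS R x) ∂Q := fun t => hN _ 1 (hc _).measurable (hb (hi1 t))
  have hp : ∀ t, 0 < p t := fun t => by
    have : Nonempty (b1PE q r R) := ⟨.inl (.inl ⟨[], Nat.zero_le _⟩)⟩
    have h0 : ∀ x : SState q r, 0 < b1Sm κ (b1ind t) (b1valS R x) := fun x =>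
      b1Ex_pos (κ.pw _) (t₀ := fun y => t (Function.invFun b1e y))
        (by simp [b1ind, Function.leftInverse_invFun b1e_inj _]) (b1ind_nonneg t)
    rw [hp', integral_pos_iff_support_of_nonneg (fun x => (h0 x).le) (b1_int_bdd (hc _).measurable (hb (hi1 t))),
      Set.eq_univ_of_forall (s := Function.support _) fun x => (h0 x).ne']
    simp
  have hp1 : ∑ t, p t = 1 := by
    simp only [hp']
    rw [← integral_finsetSum _ fun t _ => b1_int_bdd (hc _).measurable (hb (hi1 t))]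
    have : ∀ x : SState q r, ∑ t : b1PE q r R → C, b1Sm κ (b1ind t) (b1valS R x) = 1 := fun x => by
      have e : ∀ s' : b1PS q r R → C, ∑ t : b1PE q r R → C, b1ind t s' = 1 := fun s' => by
        simpa using b1ind_sum (fun _ => 1) s'
      simp only [b1Sm, ← b1Ex_sum, e, b1Ex_const (κ.pw _)]
    simp [this]
  obtain ⟨B, -, hB⟩ := b1_exists_bd φ
  obtain ⟨B', -, hB'⟩ := b1_exists_bd (b1psi (b1rho κ π) p)
  obtain ⟨B'', -, hB''⟩ := b1_exists_bd fun t => Real.exp (b1psi (b1rho κ π) p t)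
  have hψ : nInt (P : Measure (SState q r)) (fun e => imM (GS s z e))
      (fun x => b1Sm κ (fun t => b1psi (b1rho κ π) p fun y => t (b1e y)) (b1valS R x)) ≤ a := by
    have hm : ∀ F : (b1PE q r R → C) → ℝ, Measurable fun x : EState q r => b1Sm κ F (b1valE R x) := fun F =>
      ((b1Sm_continuous κ F).comp b1valE_continuous).measurable
    have h1 := ha _ (hm (b1psi (b1rho κ π) p)) ⟨B', fun x => b1Ex_abs_le (κ.pw _) hB'⟩
    rw [b1_edge hT hs hs' hz _ (hm _) fun x => b1Ex_abs_le (κ.pw _) hB'] at h1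
    have h2 : ∫ x, Real.exp (b1Sm κ (b1psi (b1rho κ π) p) (b1valE R x))
        ∂(edgeLaw q π).prod (gpi2 (Fin r) (Fin 2)) ≤ 1 := by
      refine (integral_mono_of_nonneg (Eventually.of_forall fun _ => (Real.exp_pos _).le)
        (b1_int_bdd (hm _) fun x => b1Ex_abs_le (κ.pw _) hB'')
        (Eventually.of_forall fun x => b1Ex_exp (κ.pw _) _)).trans_eq ?_
      refine ((b1_ind_edge π).integral_Sm b1valE_continuous.measurable κ _).trans (Eq.trans ?_ hp1)
      refine Finset.sum_congr rfl fun t _ => ?_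
      have h3 := (hρ.comp (b1kE : b1PE q r R → _)).prod_pos t
      simp only [b1psi, Real.exp_log (div_pos (hp t) h3)]
      exact mul_div_cancel₀ _ h3.ne'
    have h3 := Real.log_nonpos (integral_nonneg fun _ => (Real.exp_pos _).le) h2
    have e : (fun x : SState q r => b1Sm κ (fun t => b1psi (b1rho κ π) p fun y => t (b1e y)) (b1valS R x)) =
        fun x => b1Sm κ (b1psi (b1rho κ π) p) (b1valE R (edgeOf 0 x)) := by
      ext x
      simp only [b1Sm, b1Ex_comp (κ.pw _) b1e_inj, b1valS_e]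
    rw [e]
    linarith
  choose D hD using fun t : b1PE q r R → C => b1_varA hE s hz κ (b1ind t)
  have hn : ∀ x : ℝ, Tendsto (fun j => x / (n j : ℝ)) atTop (𝓝 0) := fun x =>
    (tendsto_const_div_atTop_nhds_zero_nat x).comp h.top
  have t1 := h.conv hE hT hs hs' hz (hc φ) (hb hB)
  have t2 := h.conv hE hT hs hs' hz (hc fun t => b1psi (b1rho κ π) p fun y => t (b1e y)) (hb fun _ => hB' _)
  have t3 := fun t : b1PE q r R → C => h.conv hE hT hs hs' hz (hc (b1ind t)) (hb (hi1 t))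
  have t4 := tendsto_finsetSum Finset.univ fun (t : b1PE q r R → C) _ =>
    (((((t3 t).pow 2).add (hn (D t))).add (hth.const_mul 2)).add
      (hn ((Fintype.card (b1PS q r R) : ℝ) ^ 2))).const_mul (p t)⁻¹
  have tl := ((t1.sub (hth.const_mul (2 * B))).sub_const (Real.log (b1Z (b1rho κ π) φ))).sub
    ((((t2.add (hth.const_mul (2 * B'))).add t4).sub_const 1).const_mul (((q : ℝ) + 1) / 2))
  refine le_of_forall_pos_le_add fun ε hε => ?_
  have tr := ((((h.quad hE hT hs hs' hz).const_add ε).sub_const (r * Real.log (2 * Real.pi) / 2)).sub_const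
    ((r : ℝ) / 2)).sub (hLD.const_mul ((r : ℝ) / 2))
  have key := le_of_tendsto_of_tendsto tl tr (by
    filter_upwards [hL ε hε, h.top.eventually_ne_atTop 0] with j hj hj0
    have : Nonempty (Fin (n j)) := ⟨⟨0, Nat.pos_of_ne_zero hj0⟩⟩
    have h1 := b1_core (s := s) hE hz κ π hp hB hB' hε.le (c j) (u j) (by simpa using hj)
    have h2 := Finset.sum_le_sum fun (t : b1PE q r R → C) (_ : t ∈ Finset.univ) => mul_le_mul_of_nonneg_left
      (add_le_add_left (add_le_add_left (hD t _ (c j) (u j)) (2 * b1th (c j).1 R))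
        ((Fintype.card (b1PS q r R) : ℝ) ^ 2 / Fintype.card (Fin (n j)))) (inv_pos.2 (hp t)).le
    have h3 := mul_le_mul_of_nonneg_left h2 (show (0 : ℝ) ≤ ((q : ℝ) + 1) / 2 by positivity)
    simp only [Fintype.card_fin (n j)] at h1 h3
    linarith)
  have e : ∑ t, (p t)⁻¹ * (p t ^ 2 + 0 + 2 * 0 + 0) = 1 := by
    rw [← hp1]
    refine Finset.sum_congr rfl fun t _ => ?_
    have := (hp t).ne'
    field_simp
    ring
  rw [e] at key
  rw [Real.log_mul (by positivity) (Real.exp_pos 1).ne', Real.log_exp]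
  have := mul_le_mul_of_nonneg_left hψ (show (0 : ℝ) ≤ ((q : ℝ) + 1) / 2 by positivity)
  linarith

theorem b1_close {X : Type} [MeasurableSpace X] {Q ν : Measure X} [IsProbabilityMeasure Q] [IsProbabilityMeasure ν]
    {F G : ℕ → X → ℝ} {φ : X → ℝ} {B B' a : ℝ} (hF : ∀ k, Measurable (F k)) (hG : ∀ k, Measurable (G k))
    (hB : ∀ k x, |F k x| ≤ B) (hB' : ∀ k x, |G k x| ≤ B') (hφ : Measurable φ) (hφB : ∀ x, |φ x| ≤ B)
    (h1 : ∀ x, Tendsto (fun k => F k x) atTop (𝓝 (φ x)))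
    (h2 : ∀ x, Tendsto (fun k => G k x) atTop (𝓝 (Real.exp (φ x))))
    (h : ∀ k, ∫ x, F k x ∂Q - Real.log (∫ x, G k x ∂ν) ≤ a) :
    ∫ x, φ x ∂Q - Real.log (∫ x, Real.exp (φ x) ∂ν) ≤ a := by
  have t1 := tendsto_integral_of_dominated_convergence (μ := Q) (fun _ => B) (fun k => (hF k).aestronglyMeasurable)
    (integrable_const B) (fun k => Eventually.of_forall (hB k)) (Eventually.of_forall h1)
  have t2 := tendsto_integral_of_dominated_convergence (μ := ν) (fun _ => B') (fun k => (hG k).aestronglyMeasurable)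
    (integrable_const B') (fun k => Eventually.of_forall (hB' k)) (Eventually.of_forall h2)
  have h0 : 0 < ∫ x, Real.exp (φ x) ∂ν := integral_exp_pos (b1_int_bdd hφ.exp (B := Real.exp B) fun x => by
    rw [abs_of_pos (Real.exp_pos _)]; exact Real.exp_le_exp.2 (abs_le.1 (hφB x)).2)
  exact le_of_tendsto' (t1.sub (t2.log h0.ne')) h

theorem b1_whp_and {π : Measure II} {p p' : ∀ n : ℕ, Cfg (Fin n) q → Prop} (h : Whp q π p) (h' : Whp q π p') :
    Whp q π fun n c => p n c ∧ p' n c := by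
  have := h.add h'
  rw [add_zero] at this
  refine tendsto_of_tendsto_of_tendsto_of_le_of_le tendsto_const_nhds this (fun _ => zero_le) fun n => ?_
  refine le_trans (measure_mono fun c hc => ?_) (measure_union_le _ _)
  simp only [Set.mem_ofPred_eq, Set.mem_union] at hc ⊢
  tauto

theorem b1_exp_lip {a b B : ℝ} (ha : a ≤ B) (hb : b ≤ B) : |Real.exp a - Real.exp b| ≤ Real.exp B * |a - b| := by
  wlog h : b ≤ a generalizing a b
  · rw [abs_sub_comm, abs_sub_comm a]; exact this hb ha (le_of_not_ge h)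
  rw [abs_of_nonneg (sub_nonneg.2 (Real.exp_le_exp.2 h)), abs_of_nonneg (sub_nonneg.2 h)]
  have h1 := Real.add_one_le_exp (b - a)
  have h2 : Real.exp b = Real.exp a * Real.exp (b - a) := by rw [← Real.exp_add]; congr 1; ring
  have h3 := mul_le_mul_of_nonneg_right (Real.exp_le_exp.2 ha) (sub_nonneg.2 h)
  nlinarith [Real.exp_pos a]

theorem stB1 (hE : StE) (hP : StP3) (hT : StT0) : StB1 := by
  intro q π _ s κ₀ z _ hs hs' hLL hb hz hLD r K
  obtain ⟨N, κ, rep, hκ⟩ := b1_exists_ker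
  obtain ⟨G, hG, hG'⟩ := b1_whp_all (q := q) (π := π)
    (I := Σ x : ℕ × ℕ × ℕ, (b1PS q r x.2.1 → Fin (N x.2.2)) → ℚ)
    (fun i n c => (b1bad s z c (1 / (i.1.1 + 1)) ≤ 1 / (i.1.1 + 1) ∧
      |Real.log (imM (Gr (Hm s c) z)).det / n - hBethe q π s z| ≤ 1 / (i.1.1 + 1)) ∧
      b1th c.1 i.1.2.1 ≤ 1 / (i.1.1 + 1) ∧
      b1Lam (κ i.1.2.2) π (fun t => (i.2 t : ℝ)) c ≤ Real.exp (1 / (i.1.1 + 1) * n))
    fun i => b1_whp_and (b1_whp_and (b1_whp_ll hLL hb hz (by positivity)) (hLD _ (by positivity)))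
      (b1_whp_and (b1_whp_tree hP _ (by positivity)) (b1_whp_lam _ _ (by positivity)))
  refine ⟨G, hG, fun n c u μ P hn hc hu hμ hlim φ a ha => ?_⟩
  have hev := fun i => (hG' i).mono fun j hj => hj _ _ (hc j).2
  have hm : ∀ ε : ℝ, 0 < ε → ∃ m : ℕ, 1 / ((m : ℝ) + 1) < ε := fun ε hε => exists_nat_one_div_lt hε
  have hS : b1Seq q r s z K n c u P := ⟨hn, hu, ⟨μ, hμ, hlim⟩, fun ε hε => by
    obtain ⟨m, hm⟩ := hm ε hε
    filter_upwards [hev ⟨(m, 0, 0), 0⟩] with j hj
    exact (b1_frac_mono fun _ ⟨a, b, h⟩ => ⟨a, b, hm.trans h⟩).trans (hj.1.1.trans hm.le)⟩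
  have h1 : Tendsto (fun j => Real.log (imM (Gr (Hm s (c j)) z)).det / n j) atTop (𝓝 (hBethe q π s z)) :=
    Metric.tendsto_nhds.2 fun ε hε => by
      obtain ⟨m, hm⟩ := hm ε hε
      filter_upwards [hev ⟨(m, 0, 0), 0⟩] with j hj
      exact hj.1.2.trans_lt hm
  have h2 : ∀ R, Tendsto (fun j => b1th (c j).1 R) atTop (𝓝 0) := fun R => Metric.tendsto_nhds.2 fun ε hε => by
    obtain ⟨m, hm⟩ := hm ε hε
    filter_upwards [hev ⟨(m, R, 0), 0⟩] with j hj
    rw [Real.dist_eq, sub_zero, abs_of_nonneg (show 0 ≤ b1th (c j).1 R from b1_frac_nonneg _)]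
    exact hj.2.1.trans_lt hm
  have h3 := fun R k (f : (b1PS q r R → Fin (N k)) → ℚ) => b1_step hE hT hs hs' hz π hS h1 (h2 R) (κ k)
    (fun t => (f t : ℝ)) (fun ε hε => by
      obtain ⟨m, hm⟩ := hm ε hε
      filter_upwards [hev ⟨(m, R, k), f⟩] with j hj
      exact hj.2.2.trans (Real.exp_le_exp.2 (mul_le_mul_of_nonneg_right hm.le (Nat.cast_nonneg _)))) ha
  obtain ⟨Q, hQ, hN⟩ := b1_exists_Q hT hs hs' hz (P : Measure (SState q r))
  have hφ : ∀ x, |φ x| ≤ ‖φ‖ := φ.norm_coe_le_norm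
  have hφe : ∀ x, |Real.exp (φ x)| ≤ Real.exp ‖φ‖ := fun x => by
    rw [abs_of_pos (Real.exp_pos _)]; exact Real.exp_le_exp.2 (abs_le.1 (hφ x)).2
  rw [hN _ _ φ.continuous.measurable hφ]
  have hR : ∀ R, Continuous fun x : SState q r => φ (b1build (b1valS R x)) := fun R =>
    φ.continuous.comp (b1build_continuous.comp b1valS_continuous)
  refine b1_close (F := fun R x => φ (b1build (b1valS R x))) (G := fun R x => Real.exp (φ (b1build (b1valS R x))))
    (fun R => (hR R).measurable) (fun R => (hR R).measurable.exp) (fun _ _ => hφ _) (fun _ _ => hφe _)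
    φ.continuous.measurable hφ (fun x => (φ.continuous.tendsto x).comp (b1build_tendsto x))
    (fun x => ((φ.continuous.tendsto x).comp (b1build_tendsto x)).rexp) fun R => ?_
  have hf : ∀ (k : ℕ) (t : b1PS q r R → Fin (N k)), ∃ y : ℚ,
      |(y : ℝ) - φ (b1build fun p => rep k (t p))| ≤ 1 / ((k : ℝ) + 1) := fun k t => by
    obtain ⟨y, hy⟩ := exists_rat_near (φ (b1build fun p => rep k (t p))) (show (0 : ℝ) < 1 / ((k : ℝ) + 1) by positivity)
    exact ⟨y, by rw [abs_sub_comm]; exact hy.le⟩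
  choose f hf using hf
  have hf1 : ∀ k t, |(f k t : ℝ)| ≤ ‖φ‖ + 1 := fun k t => by
    have h4 : 1 / ((k : ℝ) + 1) ≤ 1 := by rw [div_le_one (by positivity)]; simp
    have h5 := abs_le.1 (hf k t)
    have h6 := abs_le.1 (hφ (b1build fun p => rep k (t p)))
    rw [abs_le]; constructor <;> linarith
  have hb' : Continuous fun y : b1PS q r R → ℝ => φ (b1build y) := φ.continuous.comp b1build_continuous
  have hc' : ∀ k (F : (b1PS q r R → Fin (N k)) → ℝ), Measurable fun x : SState q r => b1Sm (κ k) F (b1valS R x) :=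
    fun k F => ((b1Sm_continuous (κ k) F).comp b1valS_continuous).measurable
  refine b1_close (F := fun k x => b1Sm (κ k) (fun t => (f k t : ℝ)) (b1valS R x))
    (G := fun k x => b1Sm (κ k) (fun t => Real.exp (f k t : ℝ)) (b1valS R x)) (B := ‖φ‖ + 1) (B' := Real.exp (‖φ‖ + 1))
    (fun k => hc' k _) (fun k => hc' k _) (fun k x => b1Ex_abs_le ((κ k).pw _) (hf1 k))
    (fun k x => b1Ex_abs_le ((κ k).pw _) fun t => ?_) (hR R).measurable (fun x => (hφ _).trans (by linarith))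
    (fun x => b1Sm_tendsto hκ hb' (fun _ => hφ _) tendsto_one_div_add_atTop_nhds_zero_nat hf _)
    (fun x => b1Sm_tendsto hκ (f := fun y => Real.exp (φ (b1build y))) hb'.rexp (fun _ => hφe _)
      (δ := fun k => Real.exp (‖φ‖ + 1) * (1 / ((k : ℝ) + 1)))
      (by simpa using (tendsto_one_div_add_atTop_nhds_zero_nat (𝕜 := ℝ)).const_mul (Real.exp (‖φ‖ + 1)))
      (fun k t => ?_) _) fun k => ?_
  · rw [abs_of_pos (Real.exp_pos _)]; exact Real.exp_le_exp.2 (abs_le.1 (hf1 k t)).2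
  · exact (b1_exp_lip (abs_le.1 (hf1 k t)).2 ((abs_le.1 (hφ _)).2.trans (by linarith))).trans
      (mul_le_mul_of_nonneg_left (hf k t) (Real.exp_pos _).le)
  · rw [← hN _ _ (hc' k _) fun x => b1Ex_abs_le ((κ k).pw _) (hf1 k),
      (b1_ind_star π).integral_Sm b1valS_continuous.measurable]
    exact h3 R k (f k)

end Crest.Agent.R166
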