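import Crest.Agent.R166.B1.Ex

/-! Row 166, block B1 (owner helper79): counting pairings which are compatible with declared types. -/

set_option autoImplicit false
set_option linter.unusedSectionVars false

open MeasureTheory ProbabilityTheory Filter Topology Complex
open scoped ENNReal NNReal BigOperators Matrix

noncomputable section

namespace Crest.Agent.R166

section
variable {H : Type} [Fintype H] [DecidableEq H]

open Classical in
/-- pairings of `S` (extended by the identity) along the relation `rel` -/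
def b1pr (rel : H → H → Prop) (S : Finset H) : Finset (Equiv.Perm H) :=
  Finset.univ.filter fun σ => (∀ x ∈ S, σ x ∈ S ∧ σ (σ x) = x ∧ σ x ≠ x ∧ rel x (σ x)) ∧ ∀ x ∉ S, σ x = x

theorem b1pr_mem {rel : H → H → Prop} {S : Finset H} {σ : Equiv.Perm H} : σ ∈ b1pr rel S ↔
    (∀ x ∈ S, σ x ∈ S ∧ σ (σ x) = x ∧ σ x ≠ x ∧ rel x (σ x)) ∧ ∀ x ∉ S, σ x = x := by
  simp [b1pr]

theorem b1pr_empty (rel : H → H → Prop) : (b1pr rel ∅).card = 1 := by
  refine Finset.card_eq_one.2 ⟨1, Finset.ext fun σ => ?_⟩
  simp [b1pr_mem, Equiv.ext_iff]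

open Classical in
/-- Match-a.  Fibre over `σ h` (`Finset.card_eq_sum_card_fiberwise`); `σ ↦ σ * swap h h'` is a bijection from the fibre onto
the pairings of `S \ {h, h'}` (it is its own inverse). -/
theorem b1pr_rec (rel : H → H → Prop) {S : Finset H} {h : H} (hh : h ∈ S) :
    (b1pr rel S).card = ∑ h' ∈ (S.erase h).filter (fun h' => rel h h' ∧ rel h' h),
      (b1pr rel ((S.erase h).erase h')).card := by
  rw [Finset.card_eq_sum_card_fiberwise (f := fun σ : Equiv.Perm H => σ h)
    (t := (S.erase h).filter fun h' => rel h h' ∧ rel h' h)]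
  · refine Finset.sum_congr rfl fun h' hh' => ?_
    simp only [Finset.mem_filter, Finset.mem_erase] at hh'
    obtain ⟨⟨hne, hS⟩, r1, r2⟩ := hh'
    refine Finset.card_nbij' (fun σ => σ * Equiv.swap h h') (fun σ => σ * Equiv.swap h h') (fun σ hσ => ?_)
      (fun τ hτ => ?_) (fun σ _ => by simp [mul_assoc]) fun σ _ => by simp [mul_assoc]
    · simp only [Finset.coe_filter, Set.mem_ofPred_eq, b1pr_mem] at hσ
      obtain ⟨⟨h1, h2⟩, h3⟩ := hσ
      have h4 : σ h' = h := by rw [← h3]; exact (h1 h hh).2.1
      simp only [Finset.mem_coe, b1pr_mem, Finset.mem_erase, Equiv.Perm.mul_apply]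
      refine ⟨fun x ⟨x1, x2, x3⟩ => ?_, fun x hx => ?_⟩
      · have a1 : σ x ≠ h := fun e => x1 (σ.injective (e.trans h4.symm))
        have a2 : σ x ≠ h' := fun e => x2 (σ.injective (e.trans h3.symm))
        rw [Equiv.swap_apply_of_ne_of_ne x2 x1, Equiv.swap_apply_of_ne_of_ne a1 a2]
        exact ⟨⟨a2, a1, (h1 x x3).1⟩, (h1 x x3).2⟩
      · by_cases e1 : x = h
        · rw [e1, Equiv.swap_apply_left, h4]
        by_cases e2 : x = h'
        · rw [e2, Equiv.swap_apply_right, h3]
        rw [Equiv.swap_apply_of_ne_of_ne e1 e2]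
        exact h2 x fun e => hx ⟨e2, e1, e⟩
    · simp only [Finset.mem_coe, b1pr_mem, Finset.mem_erase] at hτ
      obtain ⟨h1, h2⟩ := hτ
      have h3 : τ h = h := h2 h fun e => e.2.1 rfl
      have h4 : τ h' = h' := h2 h' fun e => e.1 rfl
      simp only [Finset.coe_filter, Set.mem_ofPred_eq, b1pr_mem, Equiv.Perm.mul_apply]
      refine ⟨⟨fun x hx => ?_, fun x hx => ?_⟩, by rw [Equiv.swap_apply_left, h4]⟩
      · by_cases e1 : x = h
        · rw [e1, Equiv.swap_apply_left, h4, Equiv.swap_apply_right, h3]
          exact ⟨hS, rfl, hne, r1⟩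
        by_cases e2 : x = h'
        · rw [e2, Equiv.swap_apply_right, h3, Equiv.swap_apply_left, h4]
          exact ⟨hh, rfl, hne.symm, r2⟩
        obtain ⟨⟨a1, a2, a3⟩, a4⟩ := h1 x ⟨e2, e1, hx⟩
        rw [Equiv.swap_apply_of_ne_of_ne e1 e2, Equiv.swap_apply_of_ne_of_ne a2 a1]
        exact ⟨a3, a4⟩
      · rw [Equiv.swap_apply_of_ne_of_ne (fun e => hx (by rw [e]; exact hh)) fun e => hx (by rw [e]; exact hS)]
        exact h2 x fun e => hx e.2.2
  · intro σ hσ
    obtain ⟨a1, a2, a3, a4⟩ := (b1pr_mem.1 hσ).1 h hh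
    have := ((b1pr_mem.1 hσ).1 _ a1).2.2.2
    rw [a2] at this
    simp only [Finset.coe_filter, Finset.mem_erase, Set.mem_ofPred_eq]
    exact ⟨⟨a3, a1⟩, a4, this⟩

/-- Match-a.  Induction on `S.card = 2 k`. -/
theorem b1pr_lower {S : Finset H} (hS : Even S.card) : (S.card - 1).factorial ≤ (b1pr (fun _ _ => True) S).card ^ 2 := by
  obtain ⟨k, hk⟩ := hS
  induction k generalizing S with
  | zero => rw [Finset.card_eq_zero.1 hk, b1pr_empty]; simp
  | succ k ih =>
    obtain ⟨h, hh⟩ := Finset.card_pos.1 (by omega : 0 < S.card)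
    have h1 : (S.erase h).card = 2 * k + 1 := by rw [Finset.card_erase_of_mem hh]; omega
    rw [b1pr_rec _ hh]
    simp only [and_self, Finset.filter_true]
    obtain ⟨h', hh', hmin⟩ := Finset.exists_min_image (S.erase h)
      (fun h' => (b1pr (fun _ _ => True) ((S.erase h).erase h')).card) (Finset.card_pos.1 (by omega))
    have h2 : ((S.erase h).erase h').card = k + k := by rw [Finset.card_erase_of_mem hh']; omega
    have h3 := ih h2
    refine le_trans ?_ (Nat.pow_le_pow_left (Finset.card_nsmul_le_sum _ _ _ hmin) 2)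
    rw [smul_eq_mul, mul_pow, h1, hk, show k + 1 + (k + 1) - 1 = 2 * k + 1 by omega]
    refine le_trans ?_ (Nat.mul_le_mul_left _ h3)
    rw [h2]
    cases k with
    | zero => simp
    | succ k =>
      rw [show k + 1 + (k + 1) - 1 = 2 * k + 1 by omega, show 2 * (k + 1) + 1 = 2 * k + 1 + 1 + 1 by omega,
        Nat.factorial_succ, Nat.factorial_succ, sq, mul_assoc]
      exact Nat.mul_le_mul_left _ (Nat.mul_le_mul_right _ (Nat.le_succ _))

/-- Match-a.  A pairing forces an even cardinality (induction with `b1pr_rec`). -/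
theorem b1pr_even (rel : H → H → Prop) {S : Finset H} (h : (b1pr rel S).Nonempty) : Even S.card := by
  classical
  induction S using Finset.strongInduction with
  | H S ih =>
    rcases S.eq_empty_or_nonempty with rfl | ⟨x, hx⟩
    · simp
    have h1 := (Finset.card_pos.2 h).ne'
    rw [b1pr_rec _ hx] at h1
    obtain ⟨y, hy, h2⟩ := Finset.exists_ne_zero_of_sum_ne_zero h1
    have hy' := (Finset.mem_filter.1 hy).1
    have h3 := ih _ ((Finset.erase_subset _ _).trans_ssubset (Finset.erase_ssubset hx)) (Finset.card_ne_zero.1 h2)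
    have h4 := Finset.card_erase_add_one hy'
    have h5 := Finset.card_erase_add_one hx
    rw [← h5, ← h4, add_assoc]
    exact h3.add even_two

theorem b1_fact_erase {K : Type} [Fintype K] [DecidableEq K] (κ : H → K) {S : Finset H} {h : H} (hh : h ∈ S) :
    ∏ k, ((S.filter fun x => κ x = k).card).factorial = (S.filter fun x => κ x = κ h).card *
      ∏ k, (((S.erase h).filter fun x => κ x = k).card).factorial := by
  rw [← Finset.mul_prod_erase _ _ (Finset.mem_univ (κ h)), ← Finset.mul_prod_erase _ _ (Finset.mem_univ (κ h)),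
    ← mul_assoc]
  congr 1
  · have : ((S.erase h).filter fun x => κ x = κ h).card + 1 = (S.filter fun x => κ x = κ h).card := by
      rw [Finset.filter_erase]
      exact Finset.card_erase_add_one (by simp [hh])
    rw [← this, Nat.factorial_succ]
  · refine Finset.prod_congr rfl fun k hk => ?_
    rw [Finset.filter_erase, Finset.erase_eq_of_notMem]
    simp [(Finset.ne_of_mem_erase hk).symm]

open Classical in
/-- Match-b.  Strong induction on `S`; remove a point `h` of a class of maximal size `N`.  Its partners lie in the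
opposite class, of size `N' ≤ N`: `N'² (N-1)! (N'-1)! ≤ N! N'!`, and `(N-1)² (N-2)! ≤ N!` if the two classes agree. -/
theorem b1pr_upper {T : Type} [Fintype T] (own decl : H → T) (S : Finset H) :
    (b1pr (fun x y => decl x = own y) S).card ^ 2 ≤
      ∏ κ : T × T, ((S.filter fun x => (own x, decl x) = κ).card).factorial := by
  induction S using Finset.strongInduction with
  | H S ih =>
    rcases S.eq_empty_or_nonempty with rfl | hS
    · simp [b1pr_empty]
    obtain ⟨h, hh, hmax⟩ := Finset.exists_max_image S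
      (fun h => (S.filter fun x => (own x, decl x) = (own h, decl h)).card) hS
    rw [b1pr_rec _ hh]
    set t := (S.erase h).filter fun h' => decl h = own h' ∧ decl h' = own h with ht
    rcases t.eq_empty_or_nonempty with e | hne
    · rw [e]; simp
    obtain ⟨h', hh', hmax'⟩ := Finset.exists_max_image t
      (fun h' => (b1pr (fun x y => decl x = own y) ((S.erase h).erase h')).card) hne
    obtain ⟨a1, a2, a3⟩ := Finset.mem_filter.1 hh'
    refine (Nat.pow_le_pow_left (Finset.sum_le_card_nsmul _ _ _ hmax') 2).trans ?_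
    have e : t = (S.erase h).filter fun x => (own x, decl x) = (own h', decl h') :=
      Finset.filter_congr fun x _ => by rw [Prod.mk.injEq, a3, ← a2, eq_comm]
    have h1 := ih _ ((Finset.erase_subset h' _).trans_ssubset (Finset.erase_ssubset hh))
    have h2 : t.card ≤ (S.filter fun x => (own x, decl x) = (own h, decl h)).card :=
      le_trans (by rw [e]; exact Finset.card_le_card (Finset.filter_subset_filter _ (Finset.erase_subset _ _)))
        (hmax h' (Finset.mem_of_mem_erase a1))
    have h3 := b1_fact_erase (fun x => (own x, decl x)) hh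
    have h4 := b1_fact_erase (fun x => (own x, decl x)) a1
    rw [smul_eq_mul, mul_pow]
    calc _ ≤ ((S.filter fun x => (own x, decl x) = (own h, decl h)).card * t.card) * _ :=
          Nat.mul_le_mul (by rw [sq]; exact Nat.mul_le_mul_right _ h2) h1
      _ = _ := by rw [mul_assoc, e, h3, h4]

end

/-- Match-b.  Induction, `1/(n+1) ≤ log (1 + 1/n)`. -/
theorem b1_fact_le (n : ℕ) : (n.factorial : ℝ) ≤ Real.exp 1 * (n + 1) * (n / Real.exp 1) ^ n := by
  have key : ∀ n : ℕ, ((n + 1).factorial : ℝ) ≤ Real.exp 1 * (n + 1) * ((n + 1) / Real.exp 1) ^ (n + 1) := by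
    intro n
    induction n with
    | zero => simp
    | succ n ih =>
      have h1 := Real.one_sub_div_pow_le_exp_neg (n := n + 2) (t := 1) (by push_cast; linarith [n.cast_nonneg (α := ℝ)])
      have e : (1 - 1 / ((n + 2 : ℕ) : ℝ)) = (n + 1) / (n + 2) := by push_cast; field_simp; ring
      rw [e, div_pow, Real.exp_neg, div_le_iff₀ (by positivity), inv_mul_eq_div, le_div_iff₀ (Real.exp_pos _)] at h1
      rw [Nat.factorial_succ]
      push_cast
      refine (mul_le_mul_of_nonneg_left ih (by positivity)).trans ?_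
      rw [div_pow, div_pow, show (n : ℝ) + 1 + 1 = n + 2 by ring, pow_succ (Real.exp 1) (n + 1)]
      calc _ = (n + 2) * ((n + 1) ^ (n + 2) * Real.exp 1) / Real.exp 1 ^ (n + 1) := by ring
        _ ≤ (n + 2) * (n + 2) ^ (n + 2) / Real.exp 1 ^ (n + 1) := by gcongr
        _ = _ := by field_simp
  cases n with
  | zero => simp
  | succ n =>
    refine (key n).trans ?_
    push_cast
    gcongr
    linarith

/-- Match-b.  `Real.pow_div_factorial_le_exp` -/
theorem b1_le_fact (n : ℕ) : ((n : ℝ) / Real.exp 1) ^ n ≤ n.factorial := by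
  have := Real.pow_div_factorial_le_exp (n : ℝ) n.cast_nonneg n
  rw [div_le_iff₀ (by positivity)] at this
  rw [div_pow, div_le_iff₀ (by positivity), Real.exp_one_pow, mul_comm]
  exact this

open Classical in
/-- Match-b.  The method of types: `exp (-∑ log (N_κ/m)) = ∏ (m/N_κ)^{N_κ}`. -/
theorem b1_types {H K : Type} [Fintype H] [Fintype K] (κ : H → K) :
    (∏ k : K, (((Finset.univ.filter fun x => κ x = k).card).factorial : ℝ)) *
        Real.exp (-∑ h, Real.log (frac fun h' => κ h' = κ h)) ≤
      (Real.exp 1 * (Fintype.card H + 1)) ^ Fintype.card K * (Fintype.card H).factorial := by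
  set N : K → ℕ := fun k => (Finset.univ.filter fun x => κ x = k).card with hN
  set m := Fintype.card H with hm
  have h1 : Real.exp (-∑ h, Real.log (frac fun h' => κ h' = κ h)) = ∏ k, ((m : ℝ) / N k) ^ N k := by
    rw [← Finset.sum_neg_distrib, Real.exp_sum, ← Finset.prod_fiberwise Finset.univ κ]
    refine Finset.prod_congr rfl fun k _ => ?_
    rw [← Finset.prod_const]
    refine Finset.prod_congr rfl fun h hh => ?_
    have : Nonempty H := ⟨h⟩
    have h0 : 0 < N k := Finset.card_pos.2 ⟨h, hh⟩
    have h2 : 0 < m := Fintype.card_pos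
    have e : (frac fun h' => κ h' = κ h) = N k / m := by
      rw [(Finset.mem_filter.1 hh).2]
      simp [frac, avg, hN, hm]
    rw [e, Real.exp_neg, Real.exp_log (by positivity), inv_div]
  have h2 : ∑ k, N k = m := (Finset.card_eq_sum_card_fiberwise (f := κ) fun _ _ => Finset.mem_univ _).symm
  rw [h1, ← Finset.prod_mul_distrib]
  calc _ ≤ ∏ k, Real.exp 1 * (m + 1) * ((m : ℝ) / Real.exp 1) ^ N k := by
        refine Finset.prod_le_prod (fun k _ => by positivity) fun k _ => ?_
        have h3 : (N k : ℝ) ≤ m := by exact_mod_cast Finset.card_le_univ _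
        refine (mul_le_mul_of_nonneg_right (b1_fact_le (N k)) (by positivity)).trans ?_
        rw [mul_assoc, ← mul_pow]
        have e : ((N k : ℝ) / Real.exp 1 * (m / N k)) ^ N k = (m / Real.exp 1) ^ N k := by
          rcases Nat.eq_zero_or_pos (N k) with e | e
          · simp [e]
          · congr 1; field_simp
        rw [e]
        gcongr
    _ ≤ _ := by
        rw [Finset.prod_mul_distrib, Finset.prod_const, Finset.prod_pow_eq_pow_sum, h2]
        exact mul_le_mul_of_nonneg_left (b1_le_fact m) (by positivity)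

open Classical in
/-- Match-a.  Square both sides; `m! ≤ (m+1) (m-1)! ≤ (m+1) #all²`. -/
theorem b1_compat {V : Type} [Fintype V] [DecidableEq V] {q : ℕ} {T : Type} [Fintype T] (own decl : HE V q → T) :
    ((Finset.univ.filter fun σ : Pairing V q => ∀ h, decl h = own (σ h)).card : ℝ) *
        Real.exp (-(1 / 2) * ∑ h, Real.log (frac fun h' => (own h', decl h') = (own h, decl h))) ≤
      (Real.exp 1 * (Fintype.card (HE V q) + 1)) ^ (Fintype.card T ^ 2 + 1) * Fintype.card (Pairing V q) := by
  have e : ∀ rel : HE V q → HE V q → Prop, (Finset.univ.filter fun σ : Pairing V q => ∀ h, rel h (σ h)).card =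
      (b1pr rel Finset.univ).card := fun rel => by
    refine Finset.card_bij (fun σ _ => σ.1) (fun σ hσ => b1pr_mem.2 ⟨fun x _ => ⟨Finset.mem_univ _, (σ.2 x).1, (σ.2 x).2,
      (Finset.mem_filter.1 hσ).2 x⟩, fun x hx => (hx (Finset.mem_univ _)).elim⟩) (fun _ _ _ _ => Subtype.ext)
      fun σ hσ => ?_
    have := fun x => (b1pr_mem.1 hσ).1 x (Finset.mem_univ _)
    exact ⟨⟨σ, fun x => ⟨(this x).2.1, (this x).2.2.1⟩⟩,
      Finset.mem_filter.2 ⟨Finset.mem_univ _, fun x => (this x).2.2.2⟩, rfl⟩
  have e1 := e fun x y => decl x = own y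
  have e2 : Fintype.card (Pairing V q) = (b1pr (fun _ _ : HE V q => True) Finset.univ).card := by
    rw [← e]; simp
  rw [show (Finset.univ.filter fun σ : Pairing V q => ∀ h, decl h = own (σ h)).card = _ from by convert e1]
  rcases (b1pr (fun x y => decl x = own y) Finset.univ).eq_empty_or_nonempty with h0 | h0
  · rw [h0, Finset.card_empty, Nat.cast_zero, zero_mul]; positivity
  have h1 := b1pr_lower (b1pr_even _ h0)
  have h2 := b1pr_upper own decl Finset.univ
  have h3 := b1_types fun x => (own x, decl x)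
  rw [← e2, Finset.card_univ] at h1
  set m := Fintype.card (HE V q) with hm
  have h4 : m.factorial ≤ (m + 1) * Fintype.card (Pairing V q) ^ 2 := by
    refine le_trans ?_ (Nat.mul_le_mul_left _ h1)
    cases m with
    | zero => simp
    | succ m => exact Nat.mul_le_mul_right _ (Nat.le_succ _)
  have h5 : (m.factorial : ℝ) ≤ (m + 1) * (Fintype.card (Pairing V q) : ℝ) ^ 2 := by exact_mod_cast h4
  have h6 : (1 : ℝ) ≤ Real.exp 1 := Real.one_le_exp zero_le_one
  have h7 : (m : ℝ) + 1 ≤ Real.exp 1 * (m + 1) := le_mul_of_one_le_left (by positivity) h6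
  have h8 : (1 : ℝ) ≤ Real.exp 1 * (m + 1) := le_trans (by linarith [m.cast_nonneg (α := ℝ)]) h7
  refine (pow_le_pow_iff_left₀ (by positivity) (by positivity) two_ne_zero).1 ?_
  rw [mul_pow, ← Real.exp_nat_mul, ← mul_assoc, show ((2 : ℕ) : ℝ) * -(1 / 2) = -1 by norm_num, neg_one_mul]
  refine le_trans (le_trans (mul_le_mul_of_nonneg_right ?_ (Real.exp_pos _).le) h3) ?_
  · exact_mod_cast (by convert h2)
  · rw [Fintype.card_prod, ← sq]
    calc _ ≤ (Real.exp 1 * (m + 1)) ^ (Fintype.card T ^ 2) *
          (Real.exp 1 * (m + 1) * (Fintype.card (Pairing V q) : ℝ) ^ 2) := by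
          gcongr
          exact h5.trans (by gcongr)
      _ = (Real.exp 1 * (m + 1)) ^ (Fintype.card T ^ 2 + 1) * (Fintype.card (Pairing V q) : ℝ) ^ 2 := by ring
      _ ≤ _ := by
          rw [mul_pow _ _ 2, ← pow_mul]
          gcongr
          omega

end Crest.Agent.R166
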